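import Vale.Agent.P197.Loc

namespace Vale.Agent.P197

open Finset

/-- sum over ordered pairs -/
def lsum {ι M : Type} [Fintype ι] [LinearOrder ι] [AddCommMonoid M] (F : ι → ι → M) : M :=
  ∑ s, ∑ t, if s < t then F s t else 0

theorem sum_tri {ι M : Type} [Fintype ι] [LinearOrder ι] [AddCommMonoid M] (F : ι → ι → M) :
    ∑ s, ∑ t, F s t = ∑ s, F s s + lsum F + lsum (fun s t => F t s) := by
  unfold lsum
  rw [sum_comm (f := fun s t => if s < t then F t s else 0), ← sum_add_distrib,
    ← sum_add_distrib]
  refine sum_congr rfl fun s _ => ?_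
  rw [← sum_ite_eq univ s (fun t => F s t) |>.trans (if_pos (mem_univ s)), ← sum_add_distrib,
    ← sum_add_distrib]
  refine sum_congr rfl fun t _ => ?_
  rcases lt_trichotomy s t with h | h | h
  · simp [h, h.ne, h.not_gt]
  · simp [h]
  · simp [h, h.ne', h.not_gt]

theorem lsum_congr {ι M : Type} [Fintype ι] [LinearOrder ι] [AddCommMonoid M] {F G : ι → ι → M}
    (h : ∀ s t, s < t → F s t = G s t) : lsum F = lsum G :=
  sum_congr rfl fun s _ => sum_congr rfl fun t _ => by
    split_ifs with h1
    · exact h s t h1
    · rfl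

theorem lsum_add {ι M : Type} [Fintype ι] [LinearOrder ι] [AddCommMonoid M] (F G : ι → ι → M) :
    lsum (fun s t => F s t + G s t) = lsum F + lsum G := by
  unfold lsum
  rw [← sum_add_distrib]
  refine sum_congr rfl fun s _ => ?_
  rw [← sum_add_distrib]
  refine sum_congr rfl fun t _ => ?_
  split_ifs <;> simp

theorem map_lsum {ι M M' F' : Type} [Fintype ι] [LinearOrder ι] [AddCommMonoid M]
    [AddCommMonoid M'] [FunLike F' M M'] [AddMonoidHomClass F' M M'] (φ : F') (F : ι → ι → M) :
    φ (lsum F) = lsum (fun s t => φ (F s t)) := by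
  unfold lsum
  simp only [map_sum]
  refine sum_congr rfl fun s _ => sum_congr rfl fun t _ => ?_
  split_ifs <;> simp

theorem lsum_succ {M : Type} [AddCommMonoid M] {n : ℕ} (F : Fin (n + 1) → Fin (n + 1) → M) :
    lsum F = lsum (fun s t : Fin n => F s.castSucc t.castSucc)
      + ∑ s : Fin n, F s.castSucc (Fin.last n) := by
  unfold lsum
  simp only [Fin.sum_univ_castSucc, Fin.castSucc_lt_castSucc_iff, Fin.castSucc_lt_last, if_true,
    lt_irrefl, if_false, sum_add_distrib]
  have : ∑ t : Fin n, (if Fin.last n < t.castSucc then F (Fin.last n) t.castSucc else 0) = 0 :=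
    sum_eq_zero fun t _ => if_neg (Fin.castSucc_lt_last t).not_gt
  simp [this]

section
variable {R : Type} [Ring R]

/-- the commutation relations of `gl` -/
def IsGl {ι : Type} [DecidableEq ι] (E : ι → ι → R) : Prop :=
  ∀ s t u v, E s t * E u v - E u v * E s t
    = (if t = u then E s v else 0) - (if v = s then E u t else 0)

/-- the Casimir element -/
def cas {ι : Type} [Fintype ι] (E : ι → ι → R) : R := ∑ s, ∑ t, E s t * E t s

theorem cas_comm {ι : Type} [Fintype ι] [DecidableEq ι] {E : ι → ι → R} (hE : IsGl E) (u v : ι) :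
    cas E * E u v = E u v * cas E := by
  rw [← sub_eq_zero]
  have h : ∀ s t, E s t * E t s * E u v - E u v * (E s t * E t s)
      = ((if s = u then E s t * E t v else 0) - (if v = t then E s t * E u s else 0))
        + ((if t = u then E s v * E t s else 0) - (if v = s then E u t * E t s else 0)) := by
    intro s t
    have h1 := hE t s u v
    have h2 := hE s t u v
    have : E s t * E t s * E u v - E u v * (E s t * E t s)
        = E s t * (E t s * E u v - E u v * E t s) + (E s t * E u v - E u v * E s t) * E t s := by
      noncomm_ring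
    rw [this, h1, h2]
    simp only [mul_sub, sub_mul, mul_ite, ite_mul, mul_zero, zero_mul]
  unfold cas
  simp only [sum_mul, mul_sum, ← sum_sub_distrib, h]
  simp only [sum_add_distrib, sum_sub_distrib, sum_ite_eq, sum_ite_eq', mem_univ, if_true]
  rw [sum_comm (f := fun s t => if s = u then E s t * E t v else 0),
    sum_comm (f := fun s t => if v = s then E u t * E t s else 0)]
  simp

theorem cas_split {ι : Type} [Fintype ι] [LinearOrder ι] {E : ι → ι → R} (hE : IsGl E) :
    cas E = ∑ s, E s s * E s s + lsum (fun s t => E s s - E t t)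
      + 2 * lsum (fun s t => E t s * E s t) := by
  unfold cas
  have h : lsum (fun s t => E s t * E t s)
      = lsum (fun s t => E s s - E t t) + lsum (fun s t => E t s * E s t) := by
    rw [← lsum_add]
    refine lsum_congr fun s t _ => ?_
    have := hE s t t s
    simp only [if_true] at this
    rw [← this]
    noncomm_ring
  rw [sum_tri, h, two_mul]
  abel

/-- Clifford data commuting with a `gl` action -/
structure Cliff {n : ℕ} (E : Fin (n + 1) → Fin (n + 1) → R) (θ ι : Fin n → R) : Prop where
  gl : IsGl E
  tt : ∀ s t, θ s * θ t = -(θ t * θ s)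
  ii : ∀ s t, ι s * ι t = -(ι t * ι s)
  it : ∀ s t, ι s * θ t = (if s = t then 1 else 0) - θ t * ι s
  tE : ∀ s u v, θ s * E u v = E u v * θ s
  iE : ∀ s u v, ι s * E u v = E u v * ι s

variable {n : ℕ} (E : Fin (n + 1) → Fin (n + 1) → R) (θ ι : Fin n → R)

/-- Koszul differential -/
def del : R := ∑ s, θ s * E s.castSucc (Fin.last n)

/-- its adjoint -/
def dels : R := ∑ s, ι s * E (Fin.last n) s.castSucc

/-- Kostant Laplacian -/
def box : R := del E θ * dels E ι + dels E ι * del E θ

/-- Levi action -/
def lev (s t : Fin n) : R := E s.castSucc t.castSucc - θ t * ι s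

variable {E θ ι}

theorem lev_del (h : Cliff E θ ι) (s t : Fin n) :
    lev E θ ι s t * del E θ = del E θ * lev E θ ι s t := by
  rw [← sub_eq_zero]
  have key : ∀ v, lev E θ ι s t * (θ v * E v.castSucc (Fin.last n))
      - θ v * E v.castSucc (Fin.last n) * lev E θ ι s t
      = (if t = v then θ v * E s.castSucc (Fin.last n) else 0)
        - (if s = v then θ t * E v.castSucc (Fin.last n) else 0) := by
    intro v
    have h1 := h.gl s.castSucc t.castSucc v.castSucc (Fin.last n)
    rw [if_neg (Fin.castSucc_lt_last s).ne'] at h1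
    simp only [Fin.castSucc_inj, sub_zero] at h1
    have h2 := h.it s v
    have h3 := h.tt t v
    have h4 := h.tE v s.castSucc t.castSucc
    have h5 := h.tE t v.castSucc (Fin.last n)
    have h6 := h.iE s v.castSucc (Fin.last n)
    have e1 : (if t = v then θ v * E s.castSucc (Fin.last n) else 0)
        = θ v * (if t = v then E s.castSucc (Fin.last n) else 0) := by split_ifs <;> simp
    have e2 : (if s = v then θ t * E v.castSucc (Fin.last n) else 0)
        = θ t * (if s = v then 1 else 0) * E v.castSucc (Fin.last n) := by split_ifs <;> simp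
    rw [e1, e2, ← h1]
    unfold lev
    generalize (if s = v then (1 : R) else 0) = δ at h2 ⊢
    linear_combination (norm := noncomm_ring) (-h4) * E v.castSucc (Fin.last n)
      - θ t * h2 * E v.castSucc (Fin.last n) + h3 * ι s * E v.castSucc (Fin.last n)
      - θ v * h5 * ι s + θ v * θ t * (-h6)
  unfold del
  rw [mul_sum, sum_mul, ← sum_sub_distrib]
  simp only [key, sum_sub_distrib, sum_ite_eq, mem_univ, if_true, sub_self]

theorem lev_dels (h : Cliff E θ ι) (s t : Fin n) :
    lev E θ ι s t * dels E ι = dels E ι * lev E θ ι s t := by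
  rw [← sub_eq_zero]
  have key : ∀ v, lev E θ ι s t * (ι v * E (Fin.last n) v.castSucc)
      - ι v * E (Fin.last n) v.castSucc * lev E θ ι s t
      = (if v = t then ι s * E (Fin.last n) v.castSucc else 0)
        - (if v = s then ι v * E (Fin.last n) t.castSucc else 0) := by
    intro v
    have h1 := h.gl s.castSucc t.castSucc (Fin.last n) v.castSucc
    rw [if_neg (Fin.castSucc_lt_last t).ne] at h1
    simp only [Fin.castSucc_inj, zero_sub] at h1
    have h2 := h.it v t
    have h3 := h.ii s v
    have h4 := h.iE v s.castSucc t.castSucc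
    have h5 := h.tE t (Fin.last n) v.castSucc
    have h6 := h.iE s (Fin.last n) v.castSucc
    have e1 : (if v = s then ι v * E (Fin.last n) t.castSucc else 0)
        = ι v * (if v = s then E (Fin.last n) t.castSucc else 0) := by split_ifs <;> simp
    have e2 : (if v = t then ι s * E (Fin.last n) v.castSucc else 0)
        = (if v = t then 1 else 0) * ι s * E (Fin.last n) v.castSucc := by split_ifs <;> simp
    rw [e1, e2]
    unfold lev
    generalize (if v = t then (1 : R) else 0) = δ at h2 ⊢
    generalize (if v = s then E (Fin.last n) t.castSucc else 0) = δ' at h1 ⊢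
    linear_combination (norm := noncomm_ring) (-h4) * E (Fin.last n) v.castSucc + ι v * h1
      + h2 * ι s * E (Fin.last n) v.castSucc - θ t * h3 * E (Fin.last n) v.castSucc
      - ι v * h5 * ι s + ι v * θ t * (-h6)
  unfold dels
  rw [mul_sum, sum_mul, ← sum_sub_distrib]
  simp only [key, sum_sub_distrib, sum_ite_eq', mem_univ, if_true, sub_self]

theorem lev_box (h : Cliff E θ ι) (s t : Fin n) :
    lev E θ ι s t * box E θ ι = box E θ ι * lev E θ ι s t := by
  have h1 := lev_del h s t
  have h2 := lev_dels h s t
  unfold box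
  linear_combination (norm := noncomm_ring) h1 * dels E ι + del E θ * h2 + h2 * del E θ
    + dels E ι * h1

theorem box_eq (h : Cliff E θ ι) :
    box E θ ι = ∑ s, ∑ t, θ s * ι t * E s.castSucc t.castSucc
      - (∑ s, θ s * ι s) * E (Fin.last n) (Fin.last n)
      + ∑ s : Fin n, E (Fin.last n) s.castSucc * E s.castSucc (Fin.last n) := by
  have key : ∀ s t, θ s * E s.castSucc (Fin.last n) * (ι t * E (Fin.last n) t.castSucc)
      + ι t * E (Fin.last n) t.castSucc * (θ s * E s.castSucc (Fin.last n))
      = θ s * ι t * E s.castSucc t.castSucc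
        - (if t = s then θ s * ι t * E (Fin.last n) (Fin.last n) else 0)
        + (if t = s then E (Fin.last n) t.castSucc * E s.castSucc (Fin.last n) else 0) := by
    intro s t
    have h1 := h.gl s.castSucc (Fin.last n) (Fin.last n) t.castSucc
    simp only [Fin.castSucc_inj, if_true] at h1
    have h2 := h.it t s
    have h5 := h.tE s (Fin.last n) t.castSucc
    have h6 := h.iE t s.castSucc (Fin.last n)
    have e1 : (if t = s then θ s * ι t * E (Fin.last n) (Fin.last n) else 0)
        = θ s * ι t * (if t = s then E (Fin.last n) (Fin.last n) else 0) := by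
      split_ifs <;> simp
    have e2 : (if t = s then E (Fin.last n) t.castSucc * E s.castSucc (Fin.last n) else 0)
        = (if t = s then 1 else 0) * E (Fin.last n) t.castSucc * E s.castSucc (Fin.last n) := by
      split_ifs <;> simp
    rw [e1, e2]
    generalize (if t = s then (1 : R) else 0) = δ at h2 ⊢
    generalize (if t = s then E (Fin.last n) (Fin.last n) else 0) = δ' at h1 ⊢
    linear_combination (norm := noncomm_ring) θ s * ι t * h1
      + h2 * E (Fin.last n) t.castSucc * E s.castSucc (Fin.last n)
      - θ s * h6 * E (Fin.last n) t.castSucc - ι t * h5 * E s.castSucc (Fin.last n)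
  unfold box del dels
  rw [sum_mul_sum, sum_mul_sum, sum_comm (f := fun t s => ι t * E (Fin.last n) t.castSucc
    * (θ s * E s.castSucc (Fin.last n))), ← sum_add_distrib]
  simp only [← sum_add_distrib, key]
  simp only [sum_add_distrib, sum_sub_distrib, sum_ite_eq', mem_univ, if_true, sum_mul]

theorem box_hw {A : Type} [AddCommGroup A] [Module R A] (h : Cliff E θ ι) (g : A)
    (hw : ∀ s t, s < t → lev E θ ι s t • g = 0) :
    (2 * box E θ ι) • g = (2 * ∑ s, θ s * ι s * E s.castSucc s.castSucc
      + 2 * lsum (fun s t => θ s * ι t * (θ t * ι s))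
      - 2 * ((∑ s, θ s * ι s) * E (Fin.last n) (Fin.last n))
      + cas E - ∑ s, E s s * E s s - lsum (fun s t => E s s - E t t)) • g := by
  have hw' : ∀ s t, s < t → E s.castSucc t.castSucc • g = (θ t * ι s) • g := by
    intro s t hst
    have := hw s t hst
    rwa [lev, sub_smul, sub_eq_zero] at this
  let φ : R →+ A := (smulAddHom R A).flip g
  have hφ : ∀ r, φ r = r • g := fun r => rfl
  have a1 : lsum (fun s t => θ s * ι t * E s.castSucc t.castSucc) • g
      = lsum (fun s t => θ s * ι t * (θ t * ι s)) • g := by
    rw [← hφ, ← hφ, map_lsum, map_lsum]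
    refine lsum_congr fun s t hst => ?_
    rw [hφ, hφ, mul_smul, hw' s t hst, ← mul_smul]
  have a2 : lsum (fun s t : Fin n => E t.castSucc s.castSucc * E s.castSucc t.castSucc) • g
      = lsum (fun s t => θ t * ι s * E t.castSucc s.castSucc) • g := by
    rw [← hφ, ← hφ, map_lsum, map_lsum]
    refine lsum_congr fun s t hst => ?_
    rw [hφ, hφ, mul_smul, hw' s t hst, ← mul_smul]
    congr 1
    rw [← mul_assoc, ← h.tE, mul_assoc, ← h.iE, mul_assoc]
  rw [box_eq h, cas_split h.gl, sum_tri, lsum_succ (fun s t => E t s * E s t)]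
  simp only [two_mul, add_smul, sub_smul, a1, a2]
  abel

end

end Vale.Agent.P197
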