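import Vale.Agent.P197.Cyc

namespace Vale.Agent.P197

open Finset Function

variable {Ω : Type} [Fintype Ω] [LinearOrder Ω] {K n : ℕ} (hK : n + 1 ≤ K) (S : Finset Ω)
  (β : Ω → Fin (n + 1))

theorem e_mul_neg {N : Type} [AddCommGroup N] [Module ℝ N] (a b : Module.End ℝ N) :
    a * -b = -(a * b) := by ext; simp

theorem e_neg_mul {N : Type} [AddCommGroup N] [Module ℝ N] (a b : Module.End ℝ N) :
    -a * b = -(a * b) := by ext; simp

/-- the last letter -/
def kk : Option (Fin K) := some (Fin.castLE hK (Fin.last n))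

/-- product of lowering operators -/
def om (N : Type) [AddCommGroup N] [Module ℝ N] (l : List (Fin (n + 1))) :
    Module.End ℝ (St Ω (Fin K) → N) :=
  (l.map fun s => dd N S (Fin.castLE hK s)).prod

/-- the list of all letters, last one first -/
def fullL (n : ℕ) : List (Fin (n + 1)) := Fin.last n :: (List.finRange n).map Fin.castSucc

/-- number of empty active positions -/
def ucnt (τ : St Ω (Fin K)) : ℕ := (S.filter fun p => τ p = none).card

/-- the empty active positions lie in different blocks -/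
def face (τ : St Ω (Fin K)) : Prop := ∀ p ∈ S, ∀ q ∈ S, τ p = none → τ q = none → β p = β q → p = q

/-- indicator that no other position of the block is empty or carries the last letter -/
noncomputable def QQ (p : Ω) (τ : St Ω (Fin K)) : ℝ :=
  if ∀ q ∈ S, q ≠ p → β q = β p → ¬ (τ q = none ∨ τ q = kk hK) then 1 else 0

/-- the cone homotopy -/
noncomputable def hh (N : Type) [AddCommGroup N] [Module ℝ N] :
    Module.End ℝ (St Ω (Fin K) → N) :=
  ∑ p ∈ S, dg N (QQ hK S β p) * fer N p none (kk hK)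

/-- number of singleton blocks -/
noncomputable def nn (τ : St Ω (Fin K)) : ℝ :=
  ∑ p ∈ S, QQ hK S β p τ * if τ p = none ∨ τ p = kk hK then 1 else 0

theorem QQ_update (p p' : Ω) (τ : St Ω (Fin K)) (h : τ p' = kk hK) :
    QQ hK S β p (update τ p' none) = QQ hK S β p τ := by
  unfold QQ
  congr 1
  refine propext (forall_congr' fun q => ?_)
  by_cases h1 : q = p'
  · subst h1; simp [h]
  · rw [update_of_ne h1]

theorem dd_hh (N : Type) [AddCommGroup N] [Module ℝ N] :
    dd N S (Fin.castLE hK (Fin.last n)) * hh hK S β N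
      + hh hK S β N * dd N S (Fin.castLE hK (Fin.last n)) = dg N (nn hK S β) := by
  have hc : ∀ p p', fer N p' (kk hK) none * dg N (QQ hK S β p)
      = dg N (QQ hK S β p) * fer N p' (kk hK) none := by
    intro p p'
    refine LinearMap.ext fun f => funext fun τ => ?_
    simp only [Module.End.mul_apply, fer_apply, dg_apply]
    split_ifs with h
    · rw [QQ_update hK S β p p' τ h, smul_comm]
    · simp
  unfold dd hh
  rw [anti_sum S S _ _ (fun p => dg N (fun τ => QQ hK S β p τ
    * if τ p = none ∨ τ p = kk hK then 1 else 0)) (Subset.refl _)]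
  · refine LinearMap.ext fun f => funext fun τ => ?_
    simp only [LinearMap.sum_apply, Finset.sum_apply, dg_apply, nn, sum_smul]
  · intro p q h
    change fer N p (kk hK) none * _ = -(_ * fer N p (kk hK) none)
    rw [← mul_assoc, hc, mul_assoc, fer_anti h (by simp [kk]) (by simp [kk]), e_mul_neg,
      mul_assoc]
  · intro p _
    change fer N p (kk hK) none * _ + _ * fer N p (kk hK) none = _
    rw [← mul_assoc, hc, mul_assoc, mul_assoc, fer_mul_same, fer_mul_same, if_pos rfl, if_pos rfl]
    refine LinearMap.ext fun f => funext fun τ => ?_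
    simp only [LinearMap.add_apply, Pi.add_apply, Module.End.mul_apply, dg_apply, loc_apply]
    by_cases h1 : τ p = none
    · have h2 : τ p ≠ kk hK := by rw [h1]; simp [kk]
      rw [if_neg h2, if_pos h1, if_pos (Or.inl h1), ← h1, update_eq_self]
      simp
    · by_cases h2 : τ p = kk hK
      · rw [if_pos h2, if_neg h1, if_pos (Or.inr h2), ← h2, update_eq_self]
        simp
      · simp [h1, h2]

theorem nn_nonneg (τ : St Ω (Fin K)) : 0 ≤ nn hK S β τ :=
  sum_nonneg fun p _ => by unfold QQ; split_ifs <;> norm_num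

theorem ucnt_le_cnt (τ : St Ω (Fin K)) (hf : face S β τ) (h0 : nn hK S β τ = 0) :
    ucnt S τ ≤ cnt τ (kk hK) := by
  have h1 := (sum_eq_zero_iff_of_nonneg fun p _ => by
    unfold QQ; split_ifs <;> norm_num).1 h0
  have h2 : ∀ p ∈ S.filter fun p => τ p = none, ∃ q, β q = β p ∧ τ q = kk hK := by
    intro p hp
    rw [mem_filter] at hp
    have h3 := h1 p hp.1
    simp only [hp.2, true_or, if_true, mul_one, QQ, ite_eq_right_iff, one_ne_zero,
      imp_false, not_forall, not_not] at h3
    obtain ⟨q, hq, h4, h5, h6 | h6⟩ := h3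
    · exact absurd (hf q hq p hp.1 h6 hp.2 h5) h4
    · exact ⟨q, h5, h6⟩
  choose! φ hφ using h2
  refine card_le_card_of_injOn φ (fun p hp => ?_) fun p hp q hq h => ?_
  · simp only [coe_filter, mem_univ, true_and, Set.mem_setOf_eq]
    exact (hφ p (mem_coe.1 hp)).2
  · have hp' := mem_filter.1 (mem_coe.1 hp)
    have hq' := mem_filter.1 (mem_coe.1 hq)
    refine hf p hp'.1 q hq'.1 hp'.2 hq'.2 ?_
    rw [← (hφ p (mem_coe.1 hp)).1, h, (hφ q (mem_coe.1 hq)).1]

theorem ucnt_le (τ : St Ω (Fin K)) (hf : face S β τ) : ucnt S τ ≤ n + 1 := by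
  have := card_le_card_of_injOn (s := S.filter fun p => τ p = none) (t := univ) β
    (fun _ _ => mem_univ _) fun p hp q hq h => by
      have hp' := mem_filter.1 (mem_coe.1 hp)
      have hq' := mem_filter.1 (mem_coe.1 hq)
      exact hf p hp'.1 q hq'.1 hp'.2 hq'.2 h
  simpa [ucnt] using this

omit [Fintype Ω] in
theorem ucnt_update (τ : St Ω (Fin K)) (p : Ω) (b : Option (Fin K)) :
    (ucnt S (update τ p b) : ℤ) = ucnt S τ +
      if p ∈ S then (if b = none then 1 else 0) - (if τ p = none then 1 else 0) else 0 := by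
  unfold ucnt
  rw [card_filter, card_filter]
  by_cases hp : p ∈ S
  · rw [← add_sum_erase S _ hp, ← add_sum_erase S (fun x => if τ x = none then 1 else 0) hp]
    have : ∑ x ∈ S.erase p, (if update τ p b x = none then 1 else 0)
        = ∑ x ∈ S.erase p, (if τ x = none then 1 else 0) :=
      sum_congr rfl fun x hx => by rw [update_of_ne (ne_of_mem_erase hx)]
    rw [this, update_self, if_pos hp]
    push_cast
    ring
  · rw [if_neg hp, add_zero]
    congr 1
    exact sum_congr rfl fun x hx => by rw [update_of_ne (ne_of_mem_of_not_mem hx hp)]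

/-- coefficient space -/
abbrev AA (Ω : Type) (K n : ℕ) := TT n → VV Ω K

/-- total space -/
abbrev WW (Ω : Type) (K n : ℕ) := St Ω (Fin K) → AA Ω K n

/-- parity operator -/
def ZZ (Ω : Type) (K n : ℕ) : Module.End ℝ (AA Ω K n) := dg _ fun I => ∏ s, par (I s)

omit [Fintype Ω] [LinearOrder Ω] in
theorem ZZ_sq : ZZ Ω K n * ZZ Ω K n = 1 := by
  unfold ZZ
  rw [dg_mul_dg]
  refine LinearMap.ext fun f => funext fun I => ?_
  rw [dg_apply, ← prod_mul_distrib, prod_eq_one fun s _ => par_mul_self _]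
  simp

omit [Fintype Ω] [LinearOrder Ω] in
theorem fer_ZZ (s : Fin n) (a b : Option Unit) (h : par a * par b = -1) :
    fer (VV Ω K) s a b * ZZ Ω K n = -(ZZ Ω K n * fer (VV Ω K) s a b) := by
  refine LinearMap.ext fun f => funext fun I => ?_
  simp only [ZZ, Module.End.mul_apply, fer_apply, dg_apply, LinearMap.neg_apply, Pi.neg_apply]
  split_ifs with h1
  · have : ∏ x, par (update I s b x) = -∏ x, par (I x) := by
      rw [← mul_prod_erase univ _ (mem_univ s), ← mul_prod_erase univ
        (fun x => par (I x)) (mem_univ s)]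
      have : ∏ x ∈ univ.erase s, par (update I s b x) = ∏ x ∈ univ.erase s, par (I x) :=
        prod_congr rfl fun x hx => by rw [update_of_ne (ne_of_mem_erase hx)]
      rw [this, update_self, h1]
      have := par_mul_self a
      linear_combination (par a * ∏ x ∈ univ.erase s, par (I x)) * h
        - (par b * ∏ x ∈ univ.erase s, par (I x)) * this
    rw [this, neg_smul, smul_neg, smul_comm]
  · simp

/-- lift of coefficient operators -/
abbrev LL : Module.End ℝ (AA Ω K n) →ₐ[ℝ] Module.End ℝ (WW Ω K n) := lft (St Ω (Fin K))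

/-- signed lowering operators -/
def xx (s : Fin (n + 1)) : Module.End ℝ (WW Ω K n) :=
  LL (ZZ Ω K n) * dd _ S (Fin.castLE hK s)

/-- the commuting raising operators on homomorphisms -/
def cc (s : Fin n) : Module.End ℝ (WW Ω K n) :=
  E0 hK _ (Fin.last n) s.castSucc - LL (El hK s.castSucc (Fin.last n))

theorem aux_x {R : Type} [Ring R] {Z d d' θ : R} (h1 : θ * Z = -(Z * θ)) (h2 : θ * d = d * θ)
    (h3 : Z * d = d * Z) (h4 : d * d' = -(d' * d)) (h5 : Z * d' = d' * Z) :
    θ * (Z * d) = -(Z * d * θ) ∧ Z * d * (Z * d') = -(Z * d' * (Z * d)) := by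
  constructor
  · linear_combination (norm := noncomm_ring) h1 * d - Z * h2
  · linear_combination (norm := noncomm_ring) Z * Z * h4 - Z * h3 * d' - Z * h5 * d

theorem aux_c {R : Type} [Ring R] {Z d d' a b : R} (h1 : a * d - d * a = d') (h2 : Z * a = a * Z)
    (h3 : b * d = d * b) (h4 : Z * b = b * Z) :
    (a - b) * (Z * d) - Z * d * (a - b) = Z * d' := by
  linear_combination (norm := noncomm_ring) Z * h1 - h2 * d - Z * h3 + h4 * d

theorem eq_zero_of_neg {M : Type} [AddCommGroup M] [Module ℝ M] {x : M} (h : x = -x) : x = 0 := by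
  have : (2 : ℝ) • x = 0 := by rw [two_smul]; exact eq_neg_iff_add_eq_zero.1 h
  exact (smul_eq_zero.1 this).resolve_left two_ne_zero

theorem cc_xx (s : Fin n) (t : Fin (n + 1)) :
    cc hK s * xx hK S t - xx hK S t * cc hK s
      = if s.castSucc = t then xx hK S (Fin.last n) else 0 := by
  have h1 := EE_dd (N := AA Ω K n) S (Fin.castLE hK (Fin.last n)) (Fin.castLE hK s.castSucc)
    (Fin.castLE hK t)
  have := aux_c (Z := LL (ZZ Ω K n)) (b := LL (El hK s.castSucc (Fin.last n))) h1
    (lft_EE _ _ _) (lft_dd _ _ _)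
    (by rw [← map_mul, ← map_mul]; exact congrArg _ (lft_dg _ _).symm)
  simp only [Fin.castLE_inj, mul_ite, mul_zero] at this
  exact this

theorem tot : Tot (fun s : Fin n => xx hK S s.castSucc) (fun s => LL (th (VV Ω K) s)) (cc hK)
    (xx hK S (Fin.last n)) := by
  have hZ : ∀ s, LL (th (VV Ω K) s) * LL (ZZ Ω K n) = -(LL (ZZ Ω K n) * LL (th (VV Ω K) s)) := by
    intro s
    rw [← map_mul, ← map_mul, ← map_neg]
    exact congrArg _ (fer_ZZ s _ _ (by simp))
  have hx : ∀ (s : Fin n) t, LL (th (VV Ω K) s) * xx hK S t = -(xx hK S t * LL (th (VV Ω K) s)) :=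
    fun s t => (aux_x (hZ s) (lft_dd _ _ _) (lft_dd _ _ _)
      (dd_anti S _ (Fin.castLE hK t)) (lft_dd _ _ _)).1
  have hxx : ∀ s t, xx hK S s * xx hK S t = -(xx hK S t * xx hK S s) := fun s t =>
    (aux_x (θ := 0) (by simp) (by simp) (lft_dd _ _ _).eq (dd_anti S _ _) (lft_dd _ _ _).eq).2
  refine ⟨fun s t => hx s _, fun s => hx s _, fun s => hxx _ _, eq_zero_of_neg (hxx _ _), ?_, ?_,
    ?_, ?_, ?_, ?_⟩
  · intro s t
    rw [← map_mul, ← map_mul, ← map_neg, th_th]
  · intro s
    rw [← map_mul, eq_zero_of_neg (M := Module.End ℝ (AA Ω K n)) (th_th s s), map_zero]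
  · intro s t
    unfold cc
    rw [mul_sub, sub_mul, ← map_mul, ← map_mul, (cliff hK).tE]
    congr 1
    exact lft_EE _ _ _
  · intro s t
    simpa only [Fin.castSucc_inj] using cc_xx hK S s t.castSucc
  · intro s
    have := cc_xx hK S s (Fin.last n)
    rwa [if_neg (Fin.castSucc_lt_last s).ne, sub_eq_zero] at this
  · intro s t
    have h1 := E0_gl (Ω := Ω) hK (AA Ω K n) (Fin.last n) s.castSucc (Fin.last n) t.castSucc
    have h2 := (cliff (Ω := Ω) hK).gl s.castSucc (Fin.last n) t.castSucc (Fin.last n)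
    simp only [(Fin.castSucc_lt_last _).ne, (Fin.castSucc_lt_last _).ne', if_false, sub_zero,
      sub_eq_zero] at h1 h2
    have h3 : ∀ u v : Fin n, LL (El hK u.castSucc (Fin.last n)) * E0 hK (AA Ω K n) (Fin.last n)
      v.castSucc = E0 hK (AA Ω K n) (Fin.last n) v.castSucc
        * LL (El hK u.castSucc (Fin.last n)) := fun u v => lft_EE _ _ _
    unfold cc
    simp only [mul_sub, sub_mul, h1, h3, ← map_mul, h2]
    abel

/-- total differential -/
def DD : Module.End ℝ (WW Ω K n) := xx hK S (Fin.last n) + ∑ s, LL (th (VV Ω K) s) * cc hK s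

/-- the part of the differential acting on the target -/
def dC : Module.End ℝ (WW Ω K n) := ∑ s, LL (th (VV Ω K) s) * E0 hK _ (Fin.last n) s.castSucc

/-- total homotopy -/
noncomputable def HH : Module.End ℝ (WW Ω K n) :=
  LL (ZZ Ω K n) * hh hK S β _ - LL (dels (El hK) (io _))

theorem aux_L {R : Type} [Ring R] {Z d h P Q C : R} (h1 : Z * Z = 1) (h2 : Z * d = d * Z)
    (h3 : Z * h = h * Z) (h4 : P * Z = -(Z * P)) (h5 : Q * Z = -(Z * Q)) (h6 : P * h = h * P)
    (h7 : Q * d = d * Q) :
    (Z * d + (C - P)) * (Z * h - Q) + (Z * h - Q) * (Z * d + (C - P))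
      = (d * h + h * d) + (P * Q + Q * P) + (C * (Z * h - Q) + (Z * h - Q) * C) := by
  linear_combination (norm := noncomm_ring) h1 * d * h + h1 * h * d - Z * h2 * h - Z * h3 * d
    - h5 * d + Z * h7 - h4 * h + Z * h6

theorem DH : DD hK S * HH hK S β + HH hK S β * DD hK S
    = dg _ (nn hK S β) + LL (box (El hK) (th _) (io _))
      + (dC hK * HH hK S β + HH hK S β * dC hK) := by
  have e1 : DD hK S = LL (ZZ Ω K n) * dd _ S (Fin.castLE hK (Fin.last n))
      + (dC hK - LL (del (El hK) (th _))) := by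
    simp only [DD, xx, cc, dC, del, mul_sub, sum_sub_distrib, map_sum, map_mul]
  have hh' : ∀ g : Module.End ℝ (AA Ω K n), Commute (LL g) (hh hK S β _) := fun g =>
    Commute.sum_right _ _ _ fun p _ => (lft_dg g _).mul_right (lft_fer g _ _ _)
  have hZ : ∀ (φ : Fin n → Module.End ℝ (AA Ω K n)) (u v : Fin n → Fin (n + 1)),
      (∀ s, φ s * ZZ Ω K n = -(ZZ Ω K n * φ s)) →
      LL (∑ s, φ s * El hK (u s) (v s)) * LL (ZZ Ω K n)
        = -(LL (ZZ Ω K n) * LL (∑ s, φ s * El hK (u s) (v s))) := by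
    intro φ u v h
    rw [← map_mul, ← map_mul, ← map_neg, sum_mul, mul_sum, ← sum_neg_distrib]
    refine congrArg _ (sum_congr rfl fun s _ => ?_)
    have : El hK (u s) (v s) * ZZ Ω K n = ZZ Ω K n * El hK (u s) (v s) := lft_dg _ _
    rw [mul_assoc, this, ← mul_assoc, h, e_neg_mul, mul_assoc]
  rw [e1, HH, aux_L (P := LL (del (El hK) (th _))) (Q := LL (dels (El hK) (io _)))
    (by rw [← map_mul, ZZ_sq, map_one]) (lft_dd _ _ _).eq (hh' _).eq
    (hZ _ _ _ fun s => fer_ZZ s _ _ (by simp)) (hZ _ _ _ fun s => fer_ZZ s _ _ (by simp))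
    (hh' _).eq (lft_dd _ _ _).eq, dd_hh, box, map_add, map_mul, map_mul]

end Vale.Agent.P197
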