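import Vale.Agent.P197.Kos

namespace Vale.Agent.P197

open Finset Function

section
variable {R ι : Type} [Ring R]

/-- coefficients of the ordered product of `x s + z * θ s` -/
def Pq (x θ : ι → R) : List ι → ℕ → R
  | [], 0 => 1
  | [], _ + 1 => 0
  | s :: l, 0 => x s * Pq x θ l 0
  | s :: l, q + 1 => x s * Pq x θ l (q + 1) + θ s * Pq x θ l q

theorem Pq_zero (x θ : ι → R) (l : List ι) (q : ℕ) (h : l.length < q) : Pq x θ l q = 0 := by
  induction l generalizing q with
  | nil => cases q with
    | zero => simp at h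
    | succ q => rfl
  | cons s l ih => cases q with
    | zero => simp at h
    | succ q =>
      simp only [List.length_cons] at h
      rw [Pq, ih _ (by omega), ih _ (by omega)]
      simp

/-- relations of the total complex -/
structure Tot [DecidableEq ι] (x θ c : ι → R) (y : R) : Prop where
  tx : ∀ s t, θ s * x t = -(x t * θ s)
  ty : ∀ s, θ s * y = -(y * θ s)
  xy : ∀ s, x s * y = -(y * x s)
  yy : y * y = 0
  tt : ∀ s t, θ s * θ t = -(θ t * θ s)
  t0 : ∀ s, θ s * θ s = 0
  tc : ∀ s t, θ s * c t = c t * θ s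
  cx : ∀ s t, c s * x t - x t * c s = if s = t then y else 0
  cy : ∀ s, c s * y = y * c s
  cc : ∀ s t, c s * c t = c t * c s

variable [Fintype ι] [LinearOrder ι] {x θ c : ι → R} {y : R}

theorem Tot.sq (h : Tot x θ c y) :
    (y + ∑ s, θ s * c s) * (y + ∑ s, θ s * c s) = 0 := by
  have h1 : y * (∑ s, θ s * c s) + (∑ s, θ s * c s) * y = 0 := by
    rw [mul_sum, sum_mul, ← sum_add_distrib]
    refine sum_eq_zero fun s _ => ?_
    have a1 := h.ty s
    have a2 := h.cy s
    linear_combination (norm := noncomm_ring) a1 * c s + θ s * a2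
  have h2 : (∑ s, θ s * c s) * (∑ s, θ s * c s) = 0 := by
    rw [sum_mul_sum, sum_tri, add_assoc, ← lsum_add]
    have b1 : ∑ s, θ s * c s * (θ s * c s) = 0 := sum_eq_zero fun s _ => by
      have a1 := h.t0 s
      have a2 := h.tc s s
      linear_combination (norm := noncomm_ring) a1 * c s * c s - θ s * a2 * c s
    rw [b1, zero_add, lsum_congr (G := fun _ _ => 0)]
    · simp [lsum]
    · intro s t _
      have a1 := h.tt s t
      have a2 := h.tc t s
      have a3 := h.tc s t
      have a4 := h.cc s t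
      linear_combination (norm := noncomm_ring) a1 * c s * c t - θ s * a2 * c t - θ t * a3 * c s
        - θ t * θ s * a4
  have h3 := h.yy
  linear_combination (norm := noncomm_ring) h1 + h2 + h3

theorem Tot.del_Pq {A : Type} [AddCommGroup A] [Module R A] (h : Tot x θ c y) (κ : A)
    (hκ : ∀ s, c s • κ = 0) (l : List ι) (q : ℕ) :
    ((∑ s, θ s * c s) * Pq x θ l q) • κ = -((q + 1) • (y * Pq x θ l (q + 1)) • κ) := by
  have hx : ∀ t, (∑ s, θ s * c s) * x t = -(x t * ∑ s, θ s * c s) + θ t * y := by
    intro t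
    have : ∀ s, θ s * c s * x t = -(x t * (θ s * c s)) + if s = t then θ s * y else 0 := by
      intro s
      have a1 := h.tx s t
      have a2 := h.cx s t
      have e : (if s = t then θ s * y else 0) = θ s * (if s = t then y else 0) := by
        split_ifs <;> simp
      rw [e, ← a2]
      linear_combination (norm := noncomm_ring) a1 * c s
    rw [sum_mul, mul_sum]
    simp only [this, sum_add_distrib, sum_neg_distrib, sum_ite_eq', mem_univ, if_true]
  have ht : ∀ t, (∑ s, θ s * c s) * θ t = -(θ t * ∑ s, θ s * c s) := by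
    intro t
    rw [sum_mul, mul_sum, ← sum_neg_distrib]
    refine sum_congr rfl fun s _ => ?_
    have a1 := h.tt s t
    have a2 := h.tc t s
    linear_combination (norm := noncomm_ring) a1 * c s - θ s * a2
  induction l generalizing q with
  | nil => cases q with
    | zero => simp [Pq, sum_smul, mul_smul, hκ]
    | succ q => simp [Pq]
  | cons t l ih =>
    have a1 := h.xy t
    have a2 := h.ty t
    cases q with
    | zero =>
      have i0 := ih 0
      have e1 : (∑ s, θ s * c s) * Pq x θ (t :: l) 0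
          = -(x t * ((∑ s, θ s * c s) * Pq x θ l 0)) + θ t * y * Pq x θ l 0 := by
        rw [Pq, ← mul_assoc, hx]; noncomm_ring
      have e2 : y * Pq x θ (t :: l) (0 + 1)
          = -(x t * (y * Pq x θ l (0 + 1))) - θ t * y * Pq x θ l 0 := by
        rw [Pq]
        linear_combination (norm := noncomm_ring) a1 * Pq x θ l (0 + 1) + a2 * Pq x θ l 0
      rw [e1, e2, add_smul, neg_smul, mul_smul (x t), i0, sub_smul, neg_smul, mul_smul (x t)]
      simp only [zero_add, one_smul, smul_neg]
      abel
    | succ q =>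
      have i0 := ih q
      have i1 := ih (q + 1)
      have e1 : (∑ s, θ s * c s) * Pq x θ (t :: l) (q + 1)
          = -(x t * ((∑ s, θ s * c s) * Pq x θ l (q + 1))) + θ t * (y * Pq x θ l (q + 1))
            - θ t * ((∑ s, θ s * c s) * Pq x θ l q) := by
        rw [Pq, mul_add, ← mul_assoc, hx, ← mul_assoc, ht]; noncomm_ring
      have e2 : y * Pq x θ (t :: l) (q + 1 + 1)
          = -(x t * (y * Pq x θ l (q + 1 + 1))) - θ t * (y * Pq x θ l (q + 1)) := by
        rw [Pq]
        linear_combination (norm := noncomm_ring) a1 * Pq x θ l (q + 1 + 1)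
          + a2 * Pq x θ l (q + 1)
      rw [e1, e2, sub_smul, add_smul, neg_smul, mul_smul (x t), i1, mul_smul (θ t) (_ * _) κ,
        mul_smul (θ t) (_ * _) κ, i0, sub_smul, neg_smul, mul_smul (x t),
        mul_smul (θ t) (_ * _) κ]
      simp only [smul_neg, smul_comm (x t) (q + 1 + 1), smul_comm (θ t) (q + 1), smul_sub]
      simp only [add_smul (q + 1) 1, one_smul]
      abel

theorem Tot.cocycle {A : Type} [AddCommGroup A] [Module R A] (h : Tot x θ c y) (κ : A)
    (hκ : ∀ s, c s • κ = 0) (l : List ι) (h0 : (y * Pq x θ l 0) • κ = 0) :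
    (y + ∑ s, θ s * c s) • (∑ q ∈ range (l.length + 1), q.factorial • Pq x θ l q • κ) = 0 := by
  have key : ∀ m, (y + ∑ s, θ s * c s) • (∑ q ∈ range m, q.factorial • Pq x θ l q • κ)
      = (y * Pq x θ l 0) • κ - m.factorial • (y * Pq x θ l m) • κ := by
    intro m
    induction m with
    | zero => simp
    | succ m ih =>
      rw [sum_range_succ, smul_add, ih, smul_comm _ m.factorial, add_smul, ← mul_smul,
        ← mul_smul, h.del_Pq κ hκ, Nat.factorial_succ, mul_comm (m + 1), mul_smul m.factorial,
        smul_add, smul_neg]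
      abel
  rw [key, h0, Pq_zero _ _ _ _ (Nat.lt_succ_self _)]
  simp

end

theorem exists_proj {ι : Type} [Fintype ι] [DecidableEq ι] (M : Submodule ℝ (ι → ℝ)) :
    ∃ π : ι → ι → ℝ, (∀ i j, π i j = π j i) ∧ (∀ i, π i ∈ M) ∧
      ∀ x ∈ M, ∀ j, ∑ i, π j i * x i = x j := by
  let e := WithLp.linearEquiv 2 ℝ (ι → ℝ)
  let M' : Submodule ℝ (EuclideanSpace ℝ ι) := M.comap e.toLinearMap
  let P := M'.starProjection
  have hin : ∀ (u : EuclideanSpace ℝ ι) (j : ι),
      inner ℝ u (EuclideanSpace.single j (1 : ℝ)) = u j := by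
    intro u j
    simp [EuclideanSpace.inner_single_right]
  have hsym : ∀ u v, inner ℝ (P u) v = inner ℝ u (P v) := fun u v =>
    M'.inner_starProjection_left_eq_right u v
  refine ⟨fun i j => P (EuclideanSpace.single i (1 : ℝ)) j, ?_, ?_, ?_⟩
  · intro i j
    beta_reduce
    rw [← hin, hsym, real_inner_comm, hin]
  · intro i
    exact M'.starProjection_apply_mem _
  · intro x hx j
    have h1 : P (e.symm x) = e.symm x :=
      Submodule.starProjection_eq_self_iff.2 (by simpa [M'] using hx)
    have h2 := hsym (EuclideanSpace.single j (1 : ℝ)) (e.symm x)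
    rw [h1, real_inner_comm (e.symm x) (EuclideanSpace.single j (1 : ℝ)), hin] at h2
    rw [PiLp.inner_apply] at h2
    refine Eq.trans (sum_congr rfl fun i _ => ?_) h2
    simp [e, mul_comm]

theorem loc_adj {Ω Λ : Type} [Fintype Ω] [DecidableEq Ω] [Fintype Λ] [DecidableEq Λ] (p : Ω)
    (a b : Option Λ) (F : St Ω Λ → St Ω Λ → ℝ) :
    ∑ σ, (if σ p = a then F (update σ p b) σ else 0)
      = ∑ σ, (if σ p = b then F σ (update σ p a) else 0) := by
  rw [← sum_filter, ← sum_filter]
  refine sum_nbij' (fun σ => update σ p b) (fun σ => update σ p a) ?_ ?_ ?_ ?_ ?_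
  · intro σ _; simp
  · intro σ _; simp
  · intro σ h
    simp only [mem_filter, mem_univ, true_and] at h
    rw [update_idem, ← h, update_eq_self]
  · intro σ h
    simp only [mem_filter, mem_univ, true_and] at h
    rw [update_idem, ← h, update_eq_self]
  · intro σ h
    simp only [mem_filter, mem_univ, true_and] at h
    rw [update_idem, ← h, update_eq_self]

theorem EE_tr {Ω Λ : Type} [Fintype Ω] [LinearOrder Ω] [Fintype Λ] [DecidableEq Λ] (s t : Λ)
    (F : St Ω Λ → St Ω Λ → ℝ) :
    ∑ σ, EE ℝ s t (fun τ => F τ σ) σ = ∑ σ, EE ℝ t s (F σ) σ := by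
  simp only [EE_apply]
  rw [sum_comm, sum_comm (s := univ) (t := univ)
    (f := fun σ p => if σ p = some t then F σ (update σ p (some s)) else 0)]
  exact sum_congr rfl fun p _ => loc_adj p _ _ F

theorem EE_adj {Ω Λ : Type} [Fintype Ω] [LinearOrder Ω] [Fintype Λ] [DecidableEq Λ] (s t : Λ)
    (u v : St Ω Λ → ℝ) :
    ∑ σ, EE ℝ s t u σ * v σ = ∑ σ, u σ * EE ℝ t s v σ := by
  have := EE_tr s t (fun τ σ => u τ * v σ)
  simp only [EE_apply, sum_mul, mul_sum, ite_mul, mul_ite, zero_mul, mul_zero] at this ⊢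
  exact this

end Vale.Agent.P197
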