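import Vale.Agent.P197.Indep

namespace Vale.Agent.P197

open Finset Function

variable {Ω : Type} [Fintype Ω] [LinearOrder Ω] {K : ℕ}

/-- permutation action on functions of states -/
def act {Λ : Type} (g : Equiv.Perm Ω) : Module.End ℝ (St Ω Λ → ℝ) where
  toFun f σ := f (σ ∘ g)
  map_add' _ _ := rfl
  map_smul' _ _ := rfl

omit [Fintype Ω] [LinearOrder Ω] in
theorem act_apply {Λ : Type} (g : Equiv.Perm Ω) (f : St Ω Λ → ℝ) (σ : St Ω Λ) :
    act g f σ = f (σ ∘ g) := rfl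

theorem act_EE {Λ : Type} [DecidableEq Λ] (g : Equiv.Perm Ω) (s t : Λ) (f : St Ω Λ → ℝ) :
    act g (EE ℝ s t f) = EE ℝ s t (act g f) := by
  funext σ
  simp only [act_apply, EE_apply]
  refine Fintype.sum_equiv g _ _ fun p => ?_
  rw [update_comp_equiv]
  simp

/-- column labelling of staircase type -/
structure Lab (m : ℕ) (S : Finset Ω) (γ : Ω → ℕ) : Prop where
  mem : ∀ p ∈ S, 1 ≤ γ p ∧ γ p ≤ m
  card : ∀ c, 1 ≤ c → c ≤ m → (S.filter fun p => γ p = c).card = c

/-- antisymmetry in the columns -/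
def Anti (S : Finset Ω) (γ : Ω → ℕ) (f : VV Ω K) : Prop :=
  ∀ p ∈ S, ∀ q ∈ S, p ≠ q → γ p = γ q → act (Equiv.swap p q) f = -f

/-- support condition -/
def Supp (S : Finset Ω) (b : Ω → ℕ) (f : VV Ω K) : Prop :=
  ∀ σ, f σ ≠ 0 → (∀ p ∉ S, σ p = none) ∧ ∀ p ∈ S, ∃ s, σ p = some s ∧ s.val < b p

/-- generators of the staircase module -/
def IsGen (m : ℕ) (S : Finset Ω) (γ : Ω → ℕ) (f : VV Ω K) : Prop :=
  Lab m S γ ∧ Anti S γ f ∧ Supp S γ f

omit [Fintype Ω] in
theorem Anti.ne {S : Finset Ω} {γ : Ω → ℕ} {f : VV Ω K} (h : Anti S γ f) {σ : St Ω (Fin K)}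
    (hσ : f σ ≠ 0) {p q : Ω} (hp : p ∈ S) (hq : q ∈ S) (h1 : γ p = γ q) (h2 : σ p = σ q) :
    p = q := by
  by_contra h3
  have h4 := congrFun (h p hp q hq h3 h1) σ
  have : σ ∘ Equiv.swap p q = σ := by
    funext x
    simp only [comp_apply, Equiv.swap_apply_def]
    split_ifs with a1 a2
    · rw [a1, h2]
    · rw [a2, h2]
    · rfl
  rw [act_apply, this, Pi.neg_apply] at h4
  exact hσ (by linarith)

theorem Anti.EE {S : Finset Ω} {γ : Ω → ℕ} {f : VV Ω K} (h : Anti S γ f) (s t : Fin K) :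
    Anti S γ (EE ℝ s t f) := by
  intro p hp q hq h1 h2
  rw [act_EE, h p hp q hq h1 h2, map_neg]

theorem range_sum_le (T : Finset ℕ) :
    ∑ i ∈ range T.card, i + (T \ range T.card).card ≤ ∑ i ∈ T, i := by
  have h1 := sum_inter_add_sum_sdiff T (range T.card) (fun i => i)
  have h2 := sum_inter_add_sum_sdiff (range T.card) T (fun i => i)
  have h3 : (T \ range T.card).card = (range T.card \ T).card :=
    card_sdiff_comm (by simp)
  have h4 : (T \ range T.card).card * T.card ≤ ∑ i ∈ T \ range T.card, i :=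
    card_nsmul_le_sum _ _ _ fun i hi => by simpa using (mem_sdiff.1 hi).2
  have h5 : ∑ i ∈ range T.card \ T, (i + 1) ≤ (range T.card \ T).card * T.card :=
    sum_le_card_nsmul _ _ _ fun i hi => by simpa using (mem_sdiff.1 hi).1
  rw [sum_add_distrib, sum_const, smul_eq_mul, mul_one] at h5
  rw [inter_comm] at h2
  rw [← h3] at h5
  omega

omit [Fintype Ω] [LinearOrder Ω] in
theorem Lab.sum {m : ℕ} {S : Finset Ω} {γ : Ω → ℕ} (h : Lab m S γ) (F : ℕ → ℝ) :
    ∑ p ∈ S, F (γ p) = ∑ c ∈ Icc 1 m, c * F c := by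
  rw [← sum_fiberwise_of_maps_to (g := γ) (t := Icc 1 m) fun p hp => mem_Icc.2 (h.mem p hp)]
  refine sum_congr rfl fun c hc => ?_
  rw [sum_congr rfl fun p hp => by rw [(mem_filter.1 hp).2], sum_const,
    h.card c (mem_Icc.1 hc).1 (mem_Icc.1 hc).2, nsmul_eq_mul]

theorem sum_dl (n : ℕ) (F : ℝ → ℝ) (h : F 0 = 0) :
    ∑ s, F (dl n s) = ∑ c ∈ Icc 1 n, F c := by
  unfold dl
  rw [Fin.sum_univ_eq_sum_range (fun i => F ((n : ℝ) - i)) (n + 1),
    ← sum_range_reflect, sum_range_succ', ← Finset.Ico_add_one_right_eq_Icc, sum_Ico_eq_sum_range]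
  simp only [add_tsub_cancel_right, tsub_zero, sub_self, h, add_zero]
  refine sum_congr rfl fun i hi => ?_
  rw [mem_range] at hi
  rw [Nat.cast_sub (by omega)]
  push_cast
  ring_nf

theorem sq_id (n : ℕ) :
    ∑ c ∈ Icc 1 n, (c : ℝ) * (2 * (n - c) + 1) = ∑ c ∈ Icc 1 n, (c : ℝ) * c := by
  have h1 : ∀ n : ℕ, ∑ c ∈ Icc 1 n, (c : ℝ) = n * (n + 1) / 2 := by
    intro n
    induction n with
    | zero => simp
    | succ n ih => rw [sum_Icc_succ_top (by omega), ih]; push_cast; ring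
  have h2 : ∀ n : ℕ, ∑ c ∈ Icc 1 n, (c : ℝ) * c = n * (n + 1) * (2 * n + 1) / 6 := by
    intro n
    induction n with
    | zero => simp
    | succ n ih => rw [sum_Icc_succ_top (by omega), ih]; push_cast; ring
  have : ∑ c ∈ Icc 1 n, (c : ℝ) * (2 * (n - c) + 1)
      = (2 * n + 1) * ∑ c ∈ Icc 1 n, (c : ℝ) - 2 * ∑ c ∈ Icc 1 n, (c : ℝ) * c := by
    rw [mul_sum, mul_sum, ← sum_sub_distrib]
    exact sum_congr rfl fun c _ => by ring
  rw [this, h1, h2]
  ring

theorem wt_bound {n : ℕ} (hK : n + 1 ≤ K) {S : Finset Ω} {γ : Ω → ℕ} {f : VV Ω K}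
    (h1 : Lab n S γ) (h2 : Anti S γ f) (h3 : Supp S (fun _ => n + 1) f) (σ : St Ω (Fin K))
    (hσ : f σ ≠ 0) : ∑ s, wt hK σ s = ∑ s, dl n s ∧
      ∑ s, wt hK σ s * wt hK σ s ≤ ∑ s, dl n s * dl n s := by
  obtain ⟨a1, a2⟩ := h3 σ hσ
  have key : ∀ F : Ω → ℝ, ∑ s : Fin (n + 1), ∑ p ∈ univ.filter
      (fun p => σ p = some (Fin.castLE hK s)), F p = ∑ p ∈ S, F p := by
    intro F
    simp only [sum_filter]
    rw [sum_comm, ← sum_subset (subset_univ S)]
    · refine sum_congr rfl fun p hp => ?_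
      obtain ⟨s, b1, b2⟩ := a2 p hp
      rw [sum_eq_single ⟨s.val, b2⟩]
      · simp [b1]
      · intro t _ ht
        rw [if_neg]
        rw [b1]
        intro e
        apply ht
        simp only [Option.some.injEq] at e
        exact Fin.ext (by simp [e])
      · simp
    · intro p _ hp
      simp [a1 p hp]
  constructor
  · have := key fun _ => 1
    simp only [sum_const, nsmul_eq_mul, mul_one] at this
    rw [sum_dl n (fun x => x) rfl]
    have h4 := h1.sum fun _ => 1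
    simp only [sum_const, nsmul_eq_mul, mul_one] at h4
    rw [← h4, ← this]
    rfl
  · rw [sum_dl n (fun x => x * x) (by simp), ← sq_id, ← h1.sum fun c => 2 * ((n : ℝ) - c) + 1,
      ← key]
    refine sum_le_sum fun s _ => ?_
    set T := univ.filter (fun p => σ p = some (Fin.castLE hK s)) with hT
    have hS : ∀ p ∈ T, p ∈ S := fun p hp => by
      by_contra h
      have := (mem_filter.1 hp).2
      rw [a1 p h] at this
      cases this
    have hinj : Set.InjOn (fun p => n - γ p) T := by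
      intro p hp q hq e
      have b1 := h1.mem p (hS p hp)
      have b2 := h1.mem q (hS q hq)
      refine h2.ne hσ (hS p hp) (hS q hq) (by simp only at e; omega) ?_
      rw [(mem_filter.1 hp).2, (mem_filter.1 hq).2]
    have h4 := range_sum_le (T.image fun p => n - γ p)
    rw [card_image_of_injOn hinj, sum_image hinj] at h4
    have h5 := sum_range_id_mul_two T.card
    have h6 : T.card * T.card ≤ ∑ p ∈ T, (2 * (n - γ p) + 1) := by
      rw [sum_add_distrib, ← mul_sum, sum_const, smul_eq_mul, mul_one]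
      rcases Nat.eq_zero_or_pos T.card with h | h
      · simp [h]
      · obtain ⟨k, hk⟩ : ∃ k, T.card = k + 1 := ⟨T.card - 1, by omega⟩
        rw [hk] at h4 h5 ⊢
        simp only [add_tsub_cancel_right] at h5
        nlinarith
    have h7 : ((∑ p ∈ T, (2 * (n - γ p) + 1) : ℕ) : ℝ) = ∑ p ∈ T, (2 * ((n : ℝ) - γ p) + 1) := by
      push_cast
      exact sum_congr rfl fun p hp => by rw [Nat.cast_sub (h1.mem p (hS p hp)).2]
    rw [← h7]
    unfold wt cnt
    exact_mod_cast h6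

omit [Fintype Ω] in
theorem IsGen.surj {m : ℕ} {S : Finset Ω} {γ : Ω → ℕ} {f : VV Ω K} (h : IsGen m S γ f)
    {σ : St Ω (Fin K)} (hσ : f σ ≠ 0) {c i : ℕ} (hc : c ≤ m) (hi : i < c) :
    ∃ q ∈ S, γ q = c ∧ ∃ s, σ q = some s ∧ s.val = i := by
  obtain ⟨h1, h2, h3⟩ := h
  obtain ⟨_, a2⟩ := h3 σ hσ
  have := surjOn_of_injOn_of_card_le (s := S.filter fun p => γ p = c) (t := range c)
    (fun p => val (σ p)) ?_ ?_ ?_ (mem_coe.2 (mem_range.2 hi))
  · obtain ⟨q, hq, e⟩ := this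
    obtain ⟨b1, b2⟩ := mem_filter.1 (mem_coe.1 hq)
    obtain ⟨s, c1, _⟩ := a2 q b1
    exact ⟨q, b1, b2, s, c1, by simpa [c1, val] using e⟩
  · intro p hp
    obtain ⟨b1, b2⟩ := mem_filter.1 (mem_coe.1 hp)
    obtain ⟨s, c1, c2⟩ := a2 p b1
    simp [c1, val, ← b2, c2]
  · intro p hp q hq e
    obtain ⟨b1, b2⟩ := mem_filter.1 (mem_coe.1 hp)
    obtain ⟨b3, b4⟩ := mem_filter.1 (mem_coe.1 hq)
    obtain ⟨s, c1, _⟩ := a2 p b1
    obtain ⟨t, c2, _⟩ := a2 q b3
    refine h2.ne hσ b1 b3 (by rw [b2, b4]) ?_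
    simp only [c1, c2, val, Option.elim_some] at e
    rw [c1, c2, Fin.ext e]
  · rw [h1.card c (by omega) hc, card_range]

/-- the triangle of cells -/
def tri (m : ℕ) : Finset (ℕ × ℕ) := (range (m + 1) ×ˢ range (m + 1)).filter fun x => x.2 < x.1

theorem mem_tri {m : ℕ} {x : ℕ × ℕ} : x ∈ tri m ↔ x.2 < x.1 ∧ x.1 ≤ m := by
  simp only [tri, mem_filter, mem_product, mem_range]; omega

omit [Fintype Ω] in
theorem IsGen.bij {m : ℕ} {S : Finset Ω} {γ : Ω → ℕ} {f : VV Ω K} (h : IsGen m S γ f)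
    {σ : St Ω (Fin K)} (hσ : f σ ≠ 0) :
    Set.BijOn (fun p => (γ p, val (σ p))) S (tri m) := by
  obtain ⟨_, a2⟩ := h.2.2 σ hσ
  refine ⟨fun p hp => ?_, fun p hp q hq e => ?_, fun x hx => ?_⟩
  · obtain ⟨s, c1, c2⟩ := a2 p hp
    exact mem_coe.2 (mem_tri.2 ⟨by simpa [c1, val] using c2, (h.1.mem p hp).2⟩)
  · obtain ⟨s, c1, _⟩ := a2 p hp
    obtain ⟨t, c2, _⟩ := a2 q hq
    simp only [c1, c2, val, Option.elim_some, Prod.mk.injEq] at e
    exact h.2.1.ne hσ hp hq e.1 (by rw [c1, c2, Fin.ext e.2])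
  · obtain ⟨b1, b2⟩ := mem_tri.1 (mem_coe.1 hx)
    obtain ⟨q, hq, c1, s, c2, c3⟩ := h.surj hσ b2 b1
    exact ⟨q, hq, by simp [c1, c2, val, c3]⟩

omit [Fintype Ω] in
theorem IsGen.sum {m : ℕ} {S : Finset Ω} {γ : Ω → ℕ} {f : VV Ω K} (h : IsGen m S γ f)
    {σ : St Ω (Fin K)} (hσ : f σ ≠ 0) (F : ℕ × ℕ → ℕ) :
    ∑ p ∈ S, F (γ p, val (σ p)) = ∑ x ∈ tri m, F x :=
  sum_nbij _ (h.bij hσ).1 (h.bij hσ).2.1 (h.bij hσ).2.2 fun _ _ => rfl

theorem IsGen.cas {n : ℕ} (hK : n + 1 ≤ K) {S : Finset Ω} {γ : Ω → ℕ} {f : VV Ω K}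
    (h : IsGen n S γ f) : cas (E0 hK ℝ) f = cv (dl n) • f := by
  have hw : ∀ s t : Fin (n + 1), s < t → E0 hK ℝ s t f = 0 := by
    intro s t hst
    funext σ
    by_contra h0
    have h1 := h0
    simp only [E0, EE_apply] at h1
    obtain ⟨p, _, a1, a2⟩ := exists_of_sum_ne h1
    obtain ⟨b1, b2⟩ := h.2.2 _ a2
    have hp : p ∈ S := by
      by_contra h2
      have := b1 p h2
      simp at this
    obtain ⟨u, b3, b4⟩ := b2 p hp
    simp only [update_self, Option.some.injEq] at b3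
    have hlt : s.val < γ p := by
      have : s.val < t.val := hst
      rw [← b3] at b4
      simp at b4
      omega
    obtain ⟨q, hq, c1, v, c2, c3⟩ := h.surj a2 (h.1.mem p hp).2 hlt
    have hv : v = Fin.castLE hK s := Fin.ext (by simpa using c3)
    have hqp : q ≠ p := by
      rintro rfl
      simp only [update_self, Option.some.injEq, hv, Fin.castLE_inj] at c2
      exact hst.ne' c2
    rw [update_of_ne hqp] at c2
    exact hqp ((h.2.1.EE _ _).ne h0 hq hp c1 (by rw [c2, a1, hv]))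
  have hwt : ∀ σ, f σ ≠ 0 → ∀ s, wt hK σ s = dl n s := by
    intro σ hσ s
    obtain ⟨a1, a2⟩ := h.2.2 σ hσ
    have : cnt σ (some (Fin.castLE hK s)) = (Ioc s.val n).card := by
      refine card_nbij γ (fun p hp => ?_) (fun p hp q hq e => ?_) fun c hc => ?_
      · have b1 : σ p = some (Fin.castLE hK s) := by simpa using hp
        have hp : p ∈ S := by
          by_contra h2
          simp [a1 p h2] at b1
        obtain ⟨u, b3, b4⟩ := a2 p hp
        rw [b1] at b3
        cases b3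
        simpa using ⟨b4, (h.1.mem p hp).2⟩
      · have b1 : σ p = some (Fin.castLE hK s) := by simpa using hp
        have b2 : σ q = some (Fin.castLE hK s) := by simpa using hq
        refine h.2.1.ne hσ ?_ ?_ e (by rw [b1, b2])
        · by_contra h2
          simp [a1 p h2] at b1
        · by_contra h2
          simp [a1 q h2] at b2
      · obtain ⟨b1, b2⟩ := mem_Ioc.1 (mem_coe.1 hc)
        obtain ⟨q, _, c1, v, c2, c3⟩ := h.surj hσ b2 b1
        have hv : v = Fin.castLE hK s := Fin.ext (by simpa using c3)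
        exact ⟨q, by simp [c2, hv], c1⟩
    unfold wt dl
    rw [this, Nat.card_Ioc, Nat.cast_sub (Nat.lt_succ_iff.1 s.2)]
  have hd : ∀ s, E0 hK ℝ s s f = dl n s • f := by
    intro s
    funext σ
    simp only [E0, EE_diag, dg_apply, smul_eq_mul, Pi.smul_apply]
    by_cases hσ : f σ = 0
    · simp [hσ]
    · rw [← hwt σ hσ s]; rfl
  let φ : Module.End ℝ (VV Ω K) →ₗ[ℝ] VV Ω K := LinearMap.applyₗ f
  let ψ : ℝ →ₗ[ℝ] VV Ω K := LinearMap.toSpanSingleton ℝ _ f
  have e1 : φ (lsum fun s t => E0 hK ℝ t s * E0 hK ℝ s t) = 0 := by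
    rw [map_lsum, lsum_congr (G := fun _ _ => 0)]
    · simp [lsum]
    · intro s t hst
      simp [φ, hw s t hst]
  have e2 : φ (lsum fun s t => E0 hK ℝ s s - E0 hK ℝ t t)
      = ψ (lsum fun s t => dl n s - dl n t) := by
    rw [map_lsum, map_lsum]
    exact lsum_congr fun s t _ => by simp [φ, ψ, hd, sub_smul]
  change φ _ = ψ (∑ s, dl n s * dl n s + lsum (fun s t => dl n s - dl n t))
  rw [cas_split (E0_gl hK ℝ), two_mul, map_add, map_add, map_add, e1, e2, map_add, map_sum,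
    map_sum]
  simp [φ, ψ, hd, smul_smul]

section
variable {n : ℕ} (hK : n + 1 ≤ K) (S : Finset Ω)

theorem om_cons (s : Fin (n + 1)) (l : List (Fin (n + 1))) :
    om hK S ℝ (s :: l) = dd ℝ S (Fin.castLE hK s) * om hK S ℝ l := by
  simp [om]

theorem om_ker (s t : Fin (n + 1)) (x : VV Ω K) (hx : om hK S ℝ (fullL n) x = 0) :
    om hK S ℝ (fullL n) (E0 hK ℝ s t x) = 0 := by
  have hd : ∀ u, dd ℝ S u * dd ℝ S u = (0 : Module.End ℝ (VV Ω K)) := fun u =>
    eq_zero_of_neg (M := Module.End ℝ (VV Ω K)) (dd_anti S u u)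
  have hA : ∀ l : List (Fin (n + 1)), s ∈ l → dd ℝ S (Fin.castLE hK s) * om hK S ℝ l = 0 := by
    intro l hl
    induction l with
    | nil => simp at hl
    | cons u l ih =>
      rw [om_cons, ← mul_assoc]
      rcases List.mem_cons.1 hl with h | h
      · rw [h, hd, zero_mul]
      · rw [dd_anti, e_neg_mul, mul_assoc, ih h, mul_zero, neg_zero]
  have hC : ∀ u l, E0 hK ℝ s t * om hK S ℝ (u :: l) - om hK S ℝ (u :: l) * E0 hK ℝ s t
      = (if t = u then dd ℝ S (Fin.castLE hK s) * om hK S ℝ l else 0)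
        + dd ℝ S (Fin.castLE hK u) * (E0 hK ℝ s t * om hK S ℝ l - om hK S ℝ l * E0 hK ℝ s t) := by
    intro u l
    have := EE_dd (N := ℝ) S (Fin.castLE hK s) (Fin.castLE hK t) (Fin.castLE hK u)
    simp only [Fin.castLE_inj] at this
    have e : (if t = u then dd ℝ S (Fin.castLE hK s) * om hK S ℝ l else 0)
        = (if t = u then dd ℝ S (Fin.castLE hK s) else 0) * om hK S ℝ l := by
      split_ifs <;> simp
    rw [e, ← this, om_cons, E0, sub_mul, mul_sub, mul_assoc, mul_assoc, mul_assoc]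
    abel
  have key : ∃ c : ℝ, E0 hK ℝ s t * om hK S ℝ (fullL n) - om hK S ℝ (fullL n) * E0 hK ℝ s t
      = c • om hK S ℝ (fullL n) := by
    by_cases hst : s = t
    · subst hst
      generalize fullL n = l
      induction l with
      | nil => exact ⟨0, by simp [om]⟩
      | cons u l ih =>
        obtain ⟨c, hc⟩ := ih
        refine ⟨(if s = u then 1 else 0) + c, ?_⟩
        rw [hC, hc, om_cons, add_smul, mul_smul_comm]
        split_ifs with h
        · rw [h, one_smul]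
        · rw [zero_smul]
    · have hB : ∀ l, dd ℝ S (Fin.castLE hK s)
          * (E0 hK ℝ s t * om hK S ℝ l - om hK S ℝ l * E0 hK ℝ s t) = 0 := by
        intro l
        induction l with
        | nil => simp [om]
        | cons u l ih =>
          rw [hC, mul_add, ← mul_assoc, dd_anti, e_neg_mul, mul_assoc, ih, mul_zero, neg_zero,
            add_zero]
          split_ifs
          · rw [← mul_assoc, hd, zero_mul]
          · simp
      have hs : s ∈ fullL n := by
        unfold fullL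
        rcases Fin.eq_castSucc_or_eq_last s with ⟨u, rfl⟩ | rfl <;> simp
      refine ⟨0, ?_⟩
      rw [zero_smul]
      generalize fullL n = l at hs
      induction l with
      | nil => simp at hs
      | cons u l ih =>
        rw [hC]
        rcases List.mem_cons.1 hs with h | h
        · rw [← h, hB, if_neg (Ne.symm hst), add_zero]
        · rw [hA l h, ih h]; simp
  obtain ⟨c, hc⟩ := key
  have := congrArg (fun φ => φ x) hc
  simpa [hx] using this

theorem indep (β : Ω → Fin (n + 1)) (y : VV Ω K)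
    (hy : y ∈ Submodule.span ℝ {f : VV Ω K | ∃ B ⊆ S, B.card = n + 1 ∧ Set.InjOn β B ∧
      ∃ γ, IsGen n (S \ B) γ f}) (h0 : om hK S ℝ (fullL n) y = 0) : y = 0 := by
  let D := Submodule.span ℝ {f : VV Ω K | ∃ B ⊆ S, B.card = n + 1 ∧ Set.InjOn β B ∧
      ∃ γ, Lab n (S \ B) γ ∧ Anti (S \ B) γ f ∧ Supp (S \ B) (fun _ => n + 1) f}
  let M := D ⊓ LinearMap.ker (cas (E0 hK ℝ) - cv (dl n) • 1) ⊓ LinearMap.ker (om hK S ℝ (fullL n))
  have hsp : ∀ P : St Ω (Fin K) → Prop, (∀ B ⊆ S, B.card = n + 1 → Set.InjOn β B → ∀ γ f,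
      Lab n (S \ B) γ → Anti (S \ B) γ f → Supp (S \ B) (fun _ => n + 1) f →
      ∀ σ, f σ ≠ 0 → P σ) → ∀ x ∈ M, ∀ σ, x σ ≠ 0 → P σ := by
    intro P hP x hx σ
    refine Submodule.span_induction (p := fun x _ => x σ ≠ 0 → P σ) ?_ ?_ ?_ ?_ hx.1.1
    · rintro f ⟨B, a1, a2, a3, γ, a4, a5, a6⟩
      exact hP B a1 a2 a3 γ f a4 a5 a6 σ
    · exact fun h => absurd rfl h
    · intro f g _ _ hf hg h
      by_cases h1 : f σ = 0
      · exact hg (by simpa [h1] using h)
      · exact hf h1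
    · intro c f _ hf h
      exact hf (right_ne_zero_of_mul h)
  refine core hK S β M ?_ ?_ (hsp _ ?_) (hsp _ ?_) (fun x hx => hx.2) y ⟨⟨?_, ?_⟩, h0⟩
  · rintro s t x ⟨⟨h1, h2⟩, h3⟩
    refine ⟨⟨?_, ?_⟩, om_ker hK S s t x h3⟩
    · refine Submodule.span_induction (p := fun x _ => E0 hK ℝ s t x ∈ D) ?_ ?_ ?_ ?_ h1
      · rintro f ⟨B, a1, a2, a3, γ, a4, a5, a6⟩
        refine Submodule.subset_span ⟨B, a1, a2, a3, γ, a4, a5.EE _ _, fun σ hσ => ?_⟩
        simp only [E0, EE_apply] at hσ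
        obtain ⟨p, _, b1, b2⟩ := exists_of_sum_ne hσ
        obtain ⟨b3, b4⟩ := a6 _ b2
        constructor
        · intro q hq
          have := b3 q hq
          by_cases e : q = p
          · simp [e] at this
          · rwa [update_of_ne e] at this
        · intro q hq
          by_cases e : q = p
          · exact ⟨_, e ▸ b1, s.2⟩
          · simpa [update_of_ne e] using b4 q hq
      · simp
      · intro f g _ _ hf hg
        rw [map_add]; exact D.add_mem hf hg
      · intro c f _ hf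
        rw [map_smul]; exact D.smul_mem c hf
    · have h4 : cas (E0 hK ℝ) x = cv (dl n) • x := by simpa [sub_eq_zero] using h2
      have h5 := congrArg (fun φ => φ x) (cas_comm (E0_gl (Ω := Ω) hK ℝ) s t)
      simp only [Module.End.mul_apply, h4, map_smul] at h5
      simpa [sub_eq_zero] using h5
  · intro x hx
    simpa [sub_eq_zero] using hx.1.2
  · intro B _ _ _ γ f a4 a5 a6 σ hσ
    exact wt_bound hK a4 a5 a6 σ hσ
  · intro B a1 a2 a3 γ f _ _ a6 σ hσ
    obtain ⟨b1, b2⟩ := a6 σ hσ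
    have : ∀ p ∈ S, σ p = none ↔ p ∈ B := by
      intro p hp
      constructor
      · intro h
        by_contra h1
        obtain ⟨s, b3, _⟩ := b2 p (mem_sdiff.2 ⟨hp, h1⟩)
        rw [h] at b3; cases b3
      · intro h
        exact b1 p (by simp [h])
    refine ⟨fun p hp q hq c1 c2 c3 => a3 ((this p hp).1 c1) ((this q hq).1 c2) c3, ?_⟩
    rw [← a2, ucnt]
    congr 1
    ext p
    rw [mem_filter]
    exact ⟨fun h => (this p h.1).1 h.2, fun h => ⟨a1 h, (this p (a1 h)).2 h⟩⟩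
  · refine Submodule.span_mono ?_ hy
    rintro f ⟨B, a1, a2, a3, γ, a4, a5, a6⟩
    refine ⟨B, a1, a2, a3, γ, a4, a5, fun σ hσ => ⟨(a6 σ hσ).1, fun p hp => ?_⟩⟩
    obtain ⟨s, b1, b2⟩ := (a6 σ hσ).2 p hp
    have := (a4.mem p hp).2
    exact ⟨s, b1, by beta_reduce; omega⟩
  · refine Submodule.span_le.2 ?_ hy
    rintro f ⟨B, _, _, _, γ, a4⟩
    simpa [sub_eq_zero] using a4.cas hK

end

end Vale.Agent.P197
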