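import Vale.Agent.P197.Rib

namespace Vale.Agent.P197

open Finset Function

variable {Ω : Type} [Fintype Ω] [LinearOrder Ω] {K : ℕ}

/-- emptying the positions of `B` -/
def clr (B : Finset Ω) (σ : St Ω (Fin K)) : St Ω (Fin K) := fun p => if p ∈ B then none else σ p

theorem card_par (k : ℕ) :
    ((univ : Finset (Fin (2 * k + 1))).filter fun t => t.val % 2 = 0).card = k + 1 ∧
    ((univ : Finset (Fin (2 * k + 1))).filter fun t => t.val % 2 = 1).card = k := by
  simp only [card_filter]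
  rw [Fin.sum_univ_eq_sum_range (fun t => if t % 2 = 0 then 1 else 0),
    Fin.sum_univ_eq_sum_range (fun t => if t % 2 = 1 then 1 else 0)]
  induction k with
  | zero => constructor <;> rfl
  | succ k ih =>
    rw [show 2 * (k + 1) + 1 = 2 * k + 1 + 1 + 1 by ring, sum_range_succ, sum_range_succ,
      sum_range_succ _ (2 * k + 1 + 1), sum_range_succ _ (2 * k + 1), ih.1, ih.2]
    constructor <;> split_ifs <;> omega

section
variable {k : ℕ} {S B : Finset Ω} (e : Fin (2 * k + 1) ≃ {p // p ∈ B})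

/-- enumeration of the ribbon positions -/
def ev (t : Fin (2 * k + 1)) : Ω := (e t).1

omit [Fintype Ω] [LinearOrder Ω] in
theorem ev_inj : Injective (ev e) := fun _ _ h => e.injective (Subtype.ext h)

omit [Fintype Ω] [LinearOrder Ω] in
theorem ev_mem (t : Fin (2 * k + 1)) : ev e t ∈ B := (e t).2

omit [Fintype Ω] [LinearOrder Ω] in
theorem ev_surj {p : Ω} (h : p ∈ B) : ∃ t, ev e t = p := ⟨e.symm ⟨p, h⟩, by simp [ev]⟩

/-- adding two columns -/
def DDf (i : Fin (2 * k + 1) → Fin 2) (f : VV Ω K) : VV Ω K :=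
  fun σ => Dt (σ ∘ ev e) i * f (clr B σ)

omit [Fintype Ω] in
theorem ext_gen (hB : B ⊆ S) {γ : Ω → ℕ} {f : VV Ω K} (hf : IsGen (k - 1) (S \ B) γ f)
    (i : Fin (2 * k + 1) → Fin 2) : DDf e i f = 0 ∨ ∃ γ', IsGen (k + 1) S γ' (DDf e i f) := by
  by_cases h0 : DDf e i f = 0
  · exact Or.inl h0
  right
  have hcode : ∀ σ, DDf e i f σ ≠ 0 → ∃ π : Equiv.Perm (Fin (2 * k + 1)), ∀ t, ∃ v,
      σ (ev e t) = some v ∧ 2 * v.val + (i t).val = (π t).val := by
    intro σ hσ
    obtain ⟨π, hπ⟩ := Dt_ne (left_ne_zero_of_mul hσ)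
    refine ⟨π, fun t => ?_⟩
    have h1 := hπ t
    have h2 := (π t).2
    simp only [code, comp_apply] at h1
    rcases h3 : σ (ev e t) with _ | v
    · simp only [h3, Option.elim_none] at h1; omega
    · exact ⟨v, rfl, by simpa [h3] using h1⟩
  obtain ⟨σ0, hσ0⟩ := Function.ne_iff.1 h0
  obtain ⟨π, hπ⟩ := hcode σ0 hσ0
  let γ' : Ω → ℕ := fun p => if h : p ∈ B then k + 1 - (i (e.symm ⟨p, h⟩)).val else γ p
  have g1 : ∀ t, γ' (ev e t) = k + 1 - (i t).val := fun t => by simp [γ', ev]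
  have g2 : ∀ p ∉ B, γ' p = γ p := fun p hp => by simp [γ', hp]
  have g3 : ∀ t, (i t).val ≤ k ∧ (i t).val = (π t).val % 2 := fun t => by
    obtain ⟨v, _, h⟩ := hπ t
    have := (π t).2
    have := (i t).2
    omega
  have g4 : ∀ p ∈ S, p ∉ B → 1 ≤ γ p ∧ γ p ≤ k - 1 := fun p hp h =>
    hf.1.mem p (mem_sdiff.2 ⟨hp, h⟩)
  refine ⟨γ', ⟨fun p hp => ?_, fun c h1 h2 => ?_⟩, fun p hp q hq h1 h2 => ?_,
    fun σ hσ => ⟨fun p hp => ?_, fun p hp => ?_⟩⟩
  · by_cases h : p ∈ B
    · obtain ⟨t, rfl⟩ := ev_surj e h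
      have := g3 t
      rw [g1]; omega
    · have := g4 p hp h
      rw [g2 p h]; omega
  · by_cases h : k ≤ c
    · have : (S.filter fun p => γ' p = c).card
          = (univ.filter fun t : Fin (2 * k + 1) => t.val % 2 = k + 1 - c).card := by
        symm
        refine card_bij (fun t _ => ev e (π.symm t)) (fun t ht => ?_)
          (fun t _ t' _ h => π.symm.injective (ev_inj e h)) fun p hp => ?_
        · have := g3 (π.symm t)
          simp only [mem_filter, mem_univ, true_and, Equiv.apply_symm_apply] at ht this ⊢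
          exact ⟨hB (ev_mem e _), by rw [g1]; omega⟩
        · obtain ⟨a1, a2⟩ := mem_filter.1 hp
          by_cases h3 : p ∈ B
          · obtain ⟨t, rfl⟩ := ev_surj e h3
            have := g3 t
            rw [g1] at a2
            exact ⟨π t, by simp only [mem_filter, mem_univ, true_and]; omega, by simp⟩
          · have := g4 p a1 h3
            rw [g2 p h3] at a2; omega
      rw [this]
      rcases (by omega : c = k ∨ c = k + 1) with rfl | rfl
      · simpa using (card_par c).2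
      · simpa using (card_par k).1
    · refine Eq.trans (congrArg _ ?_) (hf.1.card c h1 (by omega))
      ext p
      simp only [mem_filter, mem_sdiff]
      by_cases h3 : p ∈ B
      · obtain ⟨t, rfl⟩ := ev_surj e h3
        have := (i t).2
        simp only [g1, h3, not_true, and_false, false_and, iff_false, not_and]
        omega
      · simp [g2 p h3, h3]
  · funext σ
    simp only [act_apply, DDf, Pi.neg_apply]
    by_cases h3 : p ∈ B <;> by_cases h4 : q ∈ B
    · obtain ⟨t, rfl⟩ := ev_surj e h3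
      obtain ⟨t', rfl⟩ := ev_surj e h4
      have hne : t ≠ t' := fun x => h1 (by rw [x])
      have a1 : clr B (σ ∘ Equiv.swap (ev e t) (ev e t')) = clr B σ := by
        funext x
        simp only [clr, comp_apply]
        split_ifs with h5
        · rfl
        · rw [Equiv.swap_apply_of_ne_of_ne (fun y => h5 (by rw [y]; exact h3))
            (fun y => h5 (by rw [y]; exact h4))]
      have a2 : (σ ∘ Equiv.swap (ev e t) (ev e t')) ∘ ev e = (σ ∘ ev e) ∘ Equiv.swap t t' := by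
        funext x
        simp only [comp_apply, (ev_inj e).swap_apply]
      have a3 : i ∘ Equiv.swap t t' = i := by
        have : i t = i t' := by
          have := g3 t
          have := g3 t'
          rw [g1, g1] at h2
          exact Fin.ext (by omega)
        funext x
        simp only [comp_apply, Equiv.swap_apply_def]
        split_ifs with b1 b2
        · rw [b1, this]
        · rw [b2, this]
        · rfl
      have a4 := Dt_perm (σ ∘ ev e) i (Equiv.swap t t')
      rw [a3] at a4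
      rw [a1, a2, a4]
      simp [sn, Equiv.Perm.sign_swap hne]
    · obtain ⟨t, rfl⟩ := ev_surj e h3
      have := g4 q hq h4
      have := (i t).2
      rw [g1, g2 q h4] at h2; omega
    · obtain ⟨t, rfl⟩ := ev_surj e h4
      have := g4 p hp h3
      have := (i t).2
      rw [g1, g2 p h3] at h2; omega
    · have a1 : clr B (σ ∘ Equiv.swap p q) = clr B σ ∘ Equiv.swap p q := by
        funext x
        simp only [clr, comp_apply, Equiv.swap_apply_def]
        split_ifs <;> simp_all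
      have a2 : (σ ∘ Equiv.swap p q) ∘ ev e = σ ∘ ev e := by
        funext x
        simp only [comp_apply]
        rw [Equiv.swap_apply_of_ne_of_ne (fun y => h3 (by rw [← y]; exact ev_mem e x))
          (fun y => h4 (by rw [← y]; exact ev_mem e x))]
      rw [g2 p h3, g2 q h4] at h2
      have a3 := congrFun (hf.2.1 p (mem_sdiff.2 ⟨hp, h3⟩) q (mem_sdiff.2 ⟨hq, h4⟩) h1 h2) (clr B σ)
      rw [act_apply, Pi.neg_apply] at a3
      rw [a1, a2, a3, mul_neg]
  · have := (hf.2.2 _ (right_ne_zero_of_mul hσ)).1 p (by simp [hp])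
    simpa [clr, show p ∉ B from fun h => hp (hB h)] using this
  · by_cases h3 : p ∈ B
    · obtain ⟨t, rfl⟩ := ev_surj e h3
      obtain ⟨π', hπ'⟩ := hcode σ hσ
      obtain ⟨v, a1, a2⟩ := hπ' t
      have := (π' t).2
      have := (i t).2
      exact ⟨v, a1, by rw [g1]; omega⟩
    · have := (hf.2.2 _ (right_ne_zero_of_mul hσ)).2 p (mem_sdiff.2 ⟨hp, h3⟩)
      simpa [clr, h3, g2 p h3] using this

/-- product with the ribbon element -/
def PR (l : Fin (2 * k + 1) → Fin 4) : Module.End ℝ (V2 Ω K) where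
  toFun F σ τ := Phi l (σ ∘ ev e) (τ ∘ ev e) * F (clr B σ) (clr B τ)
  map_add' F G := by funext σ τ; simp [mul_add]
  map_smul' c F := by funext σ τ; simp [mul_left_comm]

omit [Fintype Ω] in
theorem PR_mem (hB : B ⊆ S) (l : Fin (2 * k + 1) → Fin 4) {F : V2 Ω K}
    (hF : F ∈ XX (k - 1) (S \ B)) : PR e l F ∈ XX (k + 1) S := by
  refine (Submodule.span_le (p := (XX (k + 1) S).comap (PR e l))).2 ?_ hF
  rintro _ ⟨f, g, γ, γ', a1, a2, rfl⟩
  have : PR e l (tens f g) = ∑ i, ∑ j, cf l i j • tens (DDf e i f) (DDf e j g) := by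
    funext σ τ
    simp only [PR, LinearMap.coe_mk, AddHom.coe_mk, Phi, tens, DDf, Finset.sum_apply,
      Pi.smul_apply, smul_eq_mul, sum_mul]
    exact sum_congr rfl fun i _ => sum_congr rfl fun j _ => by ring
  rw [SetLike.mem_coe, Submodule.mem_comap, this]
  refine Submodule.sum_mem _ fun i _ => Submodule.sum_mem _ fun j _ => Submodule.smul_mem _ _ ?_
  rcases ext_gen e hB a1 i with h1 | ⟨δ, h1⟩
  · have : tens (DDf e i f) (DDf e j g) = 0 := by funext σ τ; simp [tens, h1]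
    rw [this]; exact Submodule.zero_mem _
  rcases ext_gen e hB a2 j with h2 | ⟨δ', h2⟩
  · have : tens (DDf e i f) (DDf e j g) = 0 := by funext σ τ; simp [tens, h2]
    rw [this]; exact Submodule.zero_mem _
  exact Submodule.subset_span ⟨_, _, _, _, h1, h2, rfl⟩

theorem tilde {g : Equiv.Perm Ω} (hg : ∀ p ∉ B, g p = p) :
    ∃ g' : Equiv.Perm (Fin (2 * k + 1)), (∀ t, g (ev e t) = ev e (g' t)) ∧ sn g = sn g' := by
  refine ⟨e.symm.permCongr (g.subtypePerm (p := fun x => x ∈ B) (pres_of_fix hg)),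
    fun t => by simp [ev], ?_⟩
  unfold sn
  have := Equiv.Perm.sign_subtypePerm g (p := fun x => x ∈ B) (pres_of_fix hg) fun x hx => by
    by_contra h
    exact hx (hg x h)
  rw [Equiv.Perm.sign_permCongr, ← this]
  congr
  exact Subsingleton.elim _ _

end

/-- nonvanishing at a staircase state -/
def Good (K m : ℕ) (S : Finset Ω) (a b : Ω → ℕ) : Prop :=
  ∃ F : V2 Ω K, F ∈ XX m S ∧ ∃ σ τ, (∀ p ∈ S, val (σ p) + val (τ p) < m) ∧ YY S a b F σ τ ≠ 0

theorem step_G {k : ℕ} (hk : k < K) {S T : Finset Ω} (hT : T ⊆ S) (hc : (S \ T).card = 2 * k + 1)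
    (a b : Ω → ℕ) (φ ψ : ℕ → ℤ) (hw : ∀ p ∈ S, p ∈ T ↔ 0 < φ (a p) + ψ (b p))
    (hm : ∀ p ∈ S \ T, ∀ q ∈ S \ T, b p = b q → a p % 4 = a q % 4 → p = q)
    (h : Good K (k - 1) T a b) : Good K (k + 1) S a b := by
  obtain ⟨F, hF, σ, τ, h1, h2⟩ := h
  have hTS : S \ (S \ T) = T := Finset.sdiff_sdiff_eq_self hT
  set B := S \ T with hB
  let e0 : Fin (2 * k + 1) ≃ {p // p ∈ B} := (B.equivFinOfCardEq hc).symm
  let e : Fin (2 * k + 1) ≃ {p // p ∈ B} := (Tuple.sort (b ∘ ev e0)).trans e0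
  have hmono : Monotone (b ∘ ev e) := Tuple.monotone_sort (b ∘ ev e0)
  let x0 : ℕ → ℕ := fun u => if h : u < 2 * k + 1 then a (ev e ⟨u, h⟩) else 0
  let ε := ∑ u ∈ range (2 * k + 1), x0 u
  let l : Fin (2 * k + 1) → Fin 4 := fun t => ⟨(a (ev e t) + ε) % 4, by omega⟩
  have l1 : Phi l (r1 hk) (r2 hk) ≠ 0 := by
    refine Phi_ne hk (fun u => x0 u + ε) l (fun t => ?_) ?_
    · simp only [l, x0, t.2, dif_pos, Fin.eta]; omega
    · rw [sum_add_distrib, sum_const, card_range, smul_eq_mul]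
      change (ε + _) % 2 = 0
      rw [show ε + (2 * k + 1) * ε = 2 * ((k + 1) * ε) by ring]
      omega
  let ex : St (Fin (2 * k + 1)) (Fin K) → St Ω (Fin K) → St Ω (Fin K) :=
    fun r ρ p => if h : p ∈ B then r (e.symm ⟨p, h⟩) else ρ p
  have ex1 : ∀ r ρ t, ex r ρ (ev e t) = r t := fun r ρ t => by simp [ex, ev]
  have ex2 : ∀ r ρ, ∀ p ∉ B, ex r ρ p = ρ p := fun r ρ p hp => by simp [ex, hp]
  have hTB : ∀ p ∈ T, p ∉ B := fun p hp => by simp [hB, hp]
  have h7 := h2
  rw [YY_apply] at h7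
  obtain ⟨c, hc', h7⟩ := exists_ne_zero_of_sum_ne_zero h7
  obtain ⟨r, hr, h7⟩ := exists_ne_zero_of_sum_ne_zero h7
  obtain ⟨f, g, γ, γ', a1, a2, a3, a4⟩ := XX_supp hF (right_ne_zero_of_mul h7)
  have hcr : ∀ p ∉ T, (c * r) p = p := fun p hp => by
    rw [Equiv.Perm.mul_apply, (mem_Stab.1 hr).1 p hp, (mem_Stab.1 hc').1 p hp]
  have base : ∀ {f : VV Ω K} {γ} (ρ : St Ω (Fin K)), IsGen (k - 1) T γ f → f (ρ ∘ ⇑(c * r)) ≠ 0 →
      (∀ p ∉ T, ρ p = none) ∧ ∑ p ∈ T, val (ρ p) = ∑ x ∈ tri (k - 1), x.2 := by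
    intro f γ ρ b1 b2
    refine ⟨fun p hp => ?_, ?_⟩
    · have := (b1.2.2 _ b2).1 p hp
      rwa [comp_apply, hcr p hp] at this
    · rw [← b1.sum b2 Prod.snd]
      exact (sum_equiv (c * r) (fun p => (pres_of_fix hcr p).symm) fun p _ => rfl).symm
  obtain ⟨n1, s1⟩ := base σ a1 a3
  obtain ⟨n2, s2⟩ := base τ a2 a4
  refine ⟨PR e l F, PR_mem e sdiff_subset l (hTS.symm ▸ hF), ex (r1 hk) σ, ex (r2 hk) τ,
    fun p hp => ?_, ?_⟩
  · by_cases h3 : p ∈ B
    · obtain ⟨t, rfl⟩ := ev_surj e h3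
      have := t.2
      simp only [ex1, r1, r2, val, Option.elim_some]; omega
    · have := h1 p (by simpa [hB, hp] using h3)
      rw [ex2 _ _ p h3, ex2 _ _ p h3]; omega
  rw [YY_apply, factor hT a b φ ψ hw fun g => PR e l F (ex (r1 hk) σ ∘ g) (ex (r2 hk) τ ∘ g)]
  · rw [sum_congr rfl (g := fun _ => ∑ _r ∈ Stab B a, Phi l (r1 hk) (r2 hk) * YY T a b F σ τ)]
    · simp only [sum_const, nsmul_eq_mul]
      refine mul_ne_zero ?_ (mul_ne_zero ?_ (mul_ne_zero l1 h2))
      · exact_mod_cast card_ne_zero_of_mem (show (1 : Equiv.Perm Ω) ∈ _ by simp [mem_Stab])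
      · exact_mod_cast card_ne_zero_of_mem (show (1 : Equiv.Perm Ω) ∈ _ by simp [mem_Stab])
    intro c1 hc1
    refine sum_congr rfl fun r1' hr1 => ?_
    obtain ⟨c1', b1, b2⟩ := tilde e (mem_Stab.1 hc1).1
    obtain ⟨r1'', b3, _⟩ := tilde e (mem_Stab.1 hr1).1
    have b5 : Phi l (r1 hk ∘ ⇑(c1' * r1'')) (r2 hk ∘ ⇑(c1' * r1''))
        = sn c1 * Phi l (r1 hk) (r2 hk) := by
      have d1 : l = (l ∘ ⇑c1'⁻¹) ∘ ⇑(c1' * r1'') := by
        funext t
        simp only [comp_apply, Equiv.Perm.mul_apply, Equiv.Perm.coe_inv, Equiv.symm_apply_apply,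
          l, ← b3, (mem_Stab.1 hr1).2]
      nth_rewrite 1 [d1]
      rw [Phi_perm, sort_sign (fun l => Phi l (r1 hk) (r2 hk)) (Phi_adj hk) _ hmono l, sn_inv, b2]
      · intro t t' d2 d3
        refine ev_inj e (hm _ (ev_mem e t) _ (ev_mem e t') d2 ?_)
        simp only [l, Fin.mk.injEq] at d3
        omega
      · intro t
        obtain ⟨u, rfl⟩ := c1'.surjective t
        simp only [Equiv.Perm.coe_inv, Equiv.symm_apply_apply, comp_apply, ← b1,
          (mem_Stab.1 hc1).2]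
    have b6 : ∀ g2 : Equiv.Perm Ω, (∀ p ∉ T, g2 p = p) → ∀ r (ρ : St Ω (Fin K)),
        (∀ p ∉ T, ρ p = none) → (ex r ρ ∘ ⇑(c1 * r1' * g2)) ∘ ev e = r ∘ ⇑(c1' * r1'') ∧
          clr B (ex r ρ ∘ ⇑(c1 * r1' * g2)) = ρ ∘ g2 := by
      intro g2 d1 r ρ d2
      constructor
      · funext t
        simp only [comp_apply, Equiv.Perm.mul_apply]
        rw [d1 _ fun x => hTB _ x (ev_mem e t), b3, b1, ex1]
      · funext p
        simp only [clr, comp_apply, Equiv.Perm.mul_apply]
        split_ifs with d3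
        · rw [d1 p fun x => hTB _ x d3, d2 p fun x => hTB _ x d3]
        · have d4 : g2 p ∉ B := by
            by_cases d5 : p ∈ T
            · exact hTB _ ((pres_of_fix d1 p).2 d5)
            · rwa [d1 p d5]
          rw [(mem_Stab.1 hr1).1 _ d4, (mem_Stab.1 hc1).1 _ d4, ex2 _ _ _ d4]
    rw [YY_apply, mul_sum, mul_sum]
    refine sum_congr rfl fun c2 hc2 => ?_
    rw [mul_sum, mul_sum]
    refine sum_congr rfl fun r2' hr2 => ?_
    have d1 : ∀ p ∉ T, (c2 * r2') p = p := fun p hp => by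
      rw [Equiv.Perm.mul_apply, (mem_Stab.1 hr2).1 p hp, (mem_Stab.1 hc2).1 p hp]
    simp only [PR, LinearMap.coe_mk, AddHom.coe_mk, (b6 _ d1 _ _ n1).1, (b6 _ d1 _ _ n1).2,
      (b6 _ d1 _ _ n2).1, (b6 _ d1 _ _ n2).2, b5]
    have := sn_sq c1
    linear_combination (sn c2 * Phi l (r1 hk) (r2 hk) * F (σ ∘ ⇑(c2 * r2')) (τ ∘ ⇑(c2 * r2')))
      * this
  · intro g hg h3
    obtain ⟨f, f', γ, γ', b1, b2, b3, b4⟩ := XX_supp hF (right_ne_zero_of_mul h3)
    have d1 := b1.sum b3 Prod.snd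
    have d2 := b2.sum b4 Prod.snd
    rw [← s1] at d1
    rw [← s2] at d2
    refine thr hT (fun p => ((k - 1 : ℕ) : ℤ) - val (ex (r1 hk) σ p) - val (ex (r2 hk) τ p))
      (fun p hp => ?_) hg ?_
    · by_cases h4 : p ∈ T
      · have := h1 p h4
        rw [ex2 _ _ p (hTB p h4), ex2 _ _ p (hTB p h4)]
        simp only [h4, true_iff]; omega
      · obtain ⟨t, rfl⟩ := ev_surj e (mem_sdiff.2 ⟨hp, h4⟩)
        have := t.2
        simp only [ex1, r1, r2, val, Option.elim_some, h4, false_iff]; omega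
    · simp only [sum_sub_distrib, ← Nat.cast_sum]
      congr 2
      · congr 1
        refine Eq.trans (sum_congr rfl fun p hp => ?_) (d1.trans (sum_congr rfl fun p hp => ?_))
        · simp [clr, hTB p hp]
        · rw [ex2 _ _ p (hTB p hp)]
      · refine Eq.trans (sum_congr rfl fun p hp => ?_) (d2.trans (sum_congr rfl fun p hp => ?_))
        · simp [clr, hTB p hp]
        · rw [ex2 _ _ p (hTB p hp)]

end Vale.Agent.P197
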