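import Vale.Agent.P197.Core

namespace Vale.Agent.P197

open Finset Function

variable {Ω : Type} [Fintype Ω] [LinearOrder Ω] {K n : ℕ} (hK : n + 1 ≤ K) (S : Finset Ω)
  (β : Ω → Fin (n + 1))

/-- functions with restricted support -/
def Sup (P : St Ω (Fin K) → TT n → St Ω (Fin K) → Prop) : Submodule ℝ (WW Ω K n) where
  carrier := {f | ∀ τ I σ, f τ I σ ≠ 0 → P τ I σ}
  add_mem' := by
    intro f g hf hg τ I σ h
    by_cases h1 : f τ I σ = 0
    · exact hg τ I σ (by simpa [h1] using h)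
    · exact hf τ I σ h1
  zero_mem' := fun _ _ _ h => absurd rfl h
  smul_mem' := by
    intro c f hf τ I σ h
    exact hf τ I σ (right_ne_zero_of_mul h)

/-- functions with values in `M` -/
def Mval (M : Submodule ℝ (VV Ω K)) : Submodule ℝ (WW Ω K n) where
  carrier := {f | ∀ τ I, f τ I ∈ M}
  add_mem' hf hg τ I := M.add_mem (hf τ I) (hg τ I)
  zero_mem' _ _ := M.zero_mem
  smul_mem' c _ hf τ I := M.smul_mem c (hf τ I)

/-- the support conditions -/
def PP (φ : ℤ → ℤ → Prop) (δ : ℤ) : Submodule ℝ (WW Ω K n) :=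
  Sup fun τ I σ => face S β τ ∧ φ (cnt I none) (ucnt S τ)
    ∧ (cnt τ (kk hK) : ℤ) = cnt σ (kk hK) + δ

section
variable {P P' : St Ω (Fin K) → TT n → St Ω (Fin K) → Prop} {f : WW Ω K n}

omit [Fintype Ω] in
theorem sup_loc (p : Ω) (a b : Option (Fin K)) (hf : f ∈ Sup P)
    (h : ∀ τ I σ, τ p = a → P (update τ p b) I σ → P' τ I σ) : loc _ p a b f ∈ Sup P' := by
  intro τ I σ h1
  rw [loc_apply] at h1
  split_ifs at h1 with h2
  · exact h τ I σ h2 (hf _ _ _ h1)
  · exact absurd rfl h1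

omit [Fintype Ω] [LinearOrder Ω] in
theorem sup_dg (w : St Ω (Fin K) → ℝ) (hf : f ∈ Sup P)
    (h : ∀ τ I σ, w τ ≠ 0 → P τ I σ → P' τ I σ) : dg _ w f ∈ Sup P' := by
  intro τ I σ h1
  exact h τ I σ (left_ne_zero_of_mul h1) (hf _ _ _ (right_ne_zero_of_mul h1))

theorem sup_fer (p : Ω) (a b : Option (Fin K)) (hf : f ∈ Sup P)
    (h : ∀ τ I σ, τ p = a → P (update τ p b) I σ → P' τ I σ) : fer _ p a b f ∈ Sup P' :=
  sup_dg _ (sup_loc p a b hf h) fun _ _ _ _ h => h

omit [Fintype Ω] [LinearOrder Ω] in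
theorem sup_th (s : Fin n) (a b : Option Unit) (hf : f ∈ Sup P)
    (h : ∀ τ I σ, I s = a → P τ (update I s b) σ → P' τ I σ) :
    LL (fer (VV Ω K) s a b) f ∈ Sup P' := by
  intro τ I σ h1
  rw [lft_apply, fer_apply] at h1
  split_ifs at h1 with h2
  · exact h τ I σ h2 (hf _ _ _ (right_ne_zero_of_mul h1))
  · exact absurd rfl h1

omit [Fintype Ω] [LinearOrder Ω] in
theorem sup_ZZ (hf : f ∈ Sup P) : LL (ZZ Ω K n) f ∈ Sup P :=
  fun _ _ _ h1 => hf _ _ _ (right_ne_zero_of_mul h1)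

theorem sup_El (s t : Fin (n + 1)) (hf : f ∈ Sup P)
    (h : ∀ τ I σ p, σ p = some (Fin.castLE hK s) →
      P τ I (update σ p (some (Fin.castLE hK t))) → P' τ I σ) : LL (El hK s t) f ∈ Sup P' := by
  intro τ I σ h1
  simp only [El, lft_apply, E0, EE_apply] at h1
  obtain ⟨p, _, a1, a2⟩ := exists_of_sum_ne h1
  exact h τ I σ p a1 (hf _ _ _ a2)

end

omit [Fintype Ω] in
theorem face_update_none {τ : St Ω (Fin K)} {p : Ω} (h : face S β (update τ p none)) :
    face S β τ := by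
  intro x hx y hy h1 h2 h3
  refine h x hx y hy ?_ ?_ h3
  · rw [update_apply]; split_ifs <;> simp [h1]
  · rw [update_apply]; split_ifs <;> simp [h2]

omit [Fintype Ω] in
theorem face_update_some {τ : St Ω (Fin K)} {p : Ω} {s t : Fin K} (hp : τ p = some s)
    (h : face S β (update τ p (some t))) : face S β τ := by
  intro x hx y hy h1 h2 h3
  refine h x hx y hy ?_ ?_ h3
  · rw [update_of_ne (fun e => by rw [e, hp] at h1; cases h1), h1]
  · rw [update_of_ne (fun e => by rw [e, hp] at h2; cases h2), h2]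

section
variable {hK S β} {φ φ' : ℤ → ℤ → Prop} {δ δ' : ℤ} {f : WW Ω K n}

theorem pp_mono (hf : f ∈ PP hK S β φ δ) (h : ∀ q j, φ q j → φ' q j) (h' : δ = δ') :
    f ∈ PP hK S β φ' δ' := fun τ I σ h1 =>
  ⟨(hf τ I σ h1).1, h _ _ (hf τ I σ h1).2.1, h' ▸ (hf τ I σ h1).2.2⟩

theorem pp_xx (s : Fin (n + 1)) (hf : f ∈ PP hK S β φ δ) :
    xx hK S s f ∈ PP hK S β (fun q j => φ q (j + 1)) (δ + if s = Fin.last n then 1 else 0) := by
  refine sup_ZZ ?_
  rw [dd, LinearMap.sum_apply]
  refine Submodule.sum_mem _ fun p hp => sup_fer p _ _ hf ?_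
  rintro τ I σ h1 ⟨a1, a2, a3⟩
  have c1 := ucnt_update S τ p none
  have c2 := cnt_update τ p none (kk hK)
  simp only [hp, h1, kk, if_true, reduceCtorEq, if_false, Option.some.injEq, Fin.castLE_inj,
    sub_zero] at c1 c2
  refine ⟨face_update_none S β a1, by rwa [c1] at a2, ?_⟩
  unfold kk at a3 ⊢
  omega

theorem pp_th (s : Fin n) (hf : f ∈ PP hK S β φ δ) :
    LL (th (VV Ω K) s) f ∈ PP hK S β (fun q j => φ (q - 1) j) δ := by
  refine sup_th s _ _ hf ?_
  rintro τ I σ h1 ⟨a1, a2, a3⟩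
  have c1 := cnt_update I s (some ()) none
  simp only [h1, if_true, reduceCtorEq, if_false, add_zero] at c1
  exact ⟨a1, by rwa [c1] at a2, a3⟩

theorem pp_io (s : Fin n) (hf : f ∈ PP hK S β φ δ) :
    LL (io (VV Ω K) s) f ∈ PP hK S β (fun q j => φ (q + 1) j) δ := by
  refine sup_th s _ _ hf ?_
  rintro τ I σ h1 ⟨a1, a2, a3⟩
  have c1 := cnt_update I s none none
  simp only [h1, if_true, reduceCtorEq, if_false, sub_zero] at c1
  exact ⟨a1, by rwa [c1] at a2, a3⟩

theorem pp_cc (s : Fin n) (hf : f ∈ PP hK S β φ δ) : cc hK s f ∈ PP hK S β φ (δ + 1) := by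
  refine Submodule.sub_mem _ ?_ (sup_El hK _ _ hf ?_)
  · rw [E0, EE, LinearMap.sum_apply]
    refine Submodule.sum_mem _ fun p _ => sup_loc p _ _ hf ?_
    rintro τ I σ h1 ⟨a1, a2, a3⟩
    have c1 := ucnt_update S τ p (some (Fin.castLE hK s.castSucc))
    have c2 := cnt_update τ p (some (Fin.castLE hK s.castSucc)) (kk hK)
    simp only [h1, kk, if_true, reduceCtorEq, if_false, Option.some.injEq, Fin.castLE_inj,
      sub_zero, (Fin.castSucc_lt_last s).ne, ite_self, add_zero] at c1 c2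
    refine ⟨face_update_some S β h1 a1, by rwa [c1] at a2, ?_⟩
    unfold kk at a3 ⊢
    omega
  · rintro τ I σ p h1 ⟨a1, a2, a3⟩
    have c2 := cnt_update σ p (kk hK) (kk hK)
    simp only [h1, kk, if_true, Option.some.injEq, Fin.castLE_inj,
      (Fin.castSucc_lt_last s).ne, if_false] at c2
    refine ⟨a1, a2, ?_⟩
    unfold kk at a3 ⊢
    omega

theorem pp_DD (hf : f ∈ PP hK S β (fun q j => q + 1 = j + δ) δ) :
    DD hK S f ∈ PP hK S β (fun q j => q + 1 = j + (δ + 1)) (δ + 1) := by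
  rw [DD, LinearMap.add_apply, LinearMap.sum_apply]
  refine Submodule.add_mem _ (pp_mono (pp_xx _ hf) (fun q j h => by omega) (by simp)) ?_
  exact Submodule.sum_mem _ fun s _ =>
    pp_mono (pp_th s (pp_cc s hf)) (fun q j h => by omega) rfl

theorem pp_HH (hf : f ∈ PP hK S β (fun q j => q + 1 = j + δ) δ) :
    HH hK S β f ∈ PP hK S β (fun q j => q + 1 = j + (δ - 1)) (δ - 1) := by
  refine Submodule.sub_mem _ (sup_ZZ ?_) ?_
  · rw [hh, LinearMap.sum_apply]
    refine Submodule.sum_mem _ fun p hp => sup_dg _ (P := fun τ I σ => τ p = none ∧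
      face S β (update τ p (kk hK)) ∧ (cnt I none : ℤ) + 1 = ucnt S τ + (δ - 1)
        ∧ (cnt τ (kk hK) : ℤ) = cnt σ (kk hK) + (δ - 1)) (sup_fer p _ _ hf ?_) ?_
    · rintro τ I σ h1 ⟨a1, a2, a3⟩
      have c1 := ucnt_update S τ p (kk hK)
      have c2 := cnt_update τ p (kk hK) (kk hK)
      simp only [hp, h1, kk, if_true, reduceCtorEq, if_false] at c1 c2
      unfold kk at a1 a2 a3 ⊢
      exact ⟨h1, a1, by omega, by omega⟩
    · rintro τ I σ h1 ⟨a0, a1, a2, a3⟩
      refine ⟨?_, a2, a3⟩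
      simp only [QQ, ne_eq, ite_eq_right_iff, one_ne_zero, imp_false, not_not] at h1
      intro x hx y hy b1 b2 b3
      by_cases e1 : x = p <;> by_cases e2 : y = p
      · rw [e1, e2]
      · exact absurd (Or.inl b2) (h1 y hy e2 (by rw [← b3, e1]))
      · exact absurd (Or.inl b1) (h1 x hx e1 (by rw [b3, e2]))
      · exact a1 x hx y hy (by rwa [update_of_ne e1]) (by rwa [update_of_ne e2]) b3
  · rw [dels, map_sum, LinearMap.sum_apply]
    refine Submodule.sum_mem _ fun s _ => ?_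
    rw [map_mul]
    refine pp_mono (pp_io (φ := fun q j => q + 1 = j + δ) (δ := δ - 1) s (sup_El hK _ _ hf ?_))
      (fun q j h => by omega) rfl
    rintro τ I σ p h1 ⟨a1, a2, a3⟩
    have c2 := cnt_update σ p (some (Fin.castLE hK s.castSucc)) (kk hK)
    simp only [h1, kk, if_true, Option.some.injEq, Fin.castLE_inj,
      (Fin.castSucc_lt_last s).ne, if_false] at c2
    refine ⟨a1, a2, ?_⟩
    unfold kk at a3 ⊢
    omega

end

section
variable {M : Submodule ℝ (VV Ω K)} {f : WW Ω K n}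

omit [Fintype Ω] in
theorem mv_loc (p : Ω) (a b : Option (Fin K)) (hf : f ∈ Mval M) : loc _ p a b f ∈ Mval M := by
  intro τ I
  rw [loc_apply]
  split_ifs
  · exact hf _ _
  · exact M.zero_mem

omit [Fintype Ω] [LinearOrder Ω] in
theorem mv_dg (w : St Ω (Fin K) → ℝ) (hf : f ∈ Mval M) : dg _ w f ∈ Mval M :=
  fun _ _ => M.smul_mem _ (hf _ _)

theorem mv_fer (p : Ω) (a b : Option (Fin K)) (hf : f ∈ Mval M) : fer _ p a b f ∈ Mval M :=
  mv_dg _ (mv_loc p a b hf)

omit [Fintype Ω] [LinearOrder Ω] in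
theorem mv_th (s : Fin n) (a b : Option Unit) (hf : f ∈ Mval M) :
    LL (fer (VV Ω K) s a b) f ∈ Mval M := by
  intro τ I
  rw [lft_apply, fer_apply]
  split_ifs
  · exact M.smul_mem _ (hf _ _)
  · exact M.zero_mem

omit [Fintype Ω] [LinearOrder Ω] in
theorem mv_ZZ (hf : f ∈ Mval M) : LL (ZZ Ω K n) f ∈ Mval M :=
  fun _ _ => M.smul_mem _ (hf _ _)

theorem mv_xx (s : Fin (n + 1)) (hf : f ∈ Mval M) : xx hK S s f ∈ Mval M := by
  refine mv_ZZ ?_
  rw [dd, LinearMap.sum_apply]
  exact Submodule.sum_mem _ fun p _ => mv_fer p _ _ hf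

theorem mv_DD (hM : ∀ s t, ∀ x ∈ M, E0 hK ℝ s t x ∈ M) (hf : f ∈ Mval M) :
    DD hK S f ∈ Mval M := by
  rw [DD, LinearMap.add_apply, LinearMap.sum_apply]
  refine Submodule.add_mem _ (mv_xx hK S _ hf) (Submodule.sum_mem _ fun s _ => mv_th s _ _ ?_)
  refine Submodule.sub_mem _ ?_ fun τ I => hM _ _ _ (hf τ I)
  rw [E0, EE, LinearMap.sum_apply]
  exact Submodule.sum_mem _ fun p _ => mv_loc p _ _ hf

theorem mv_HH (hM : ∀ s t, ∀ x ∈ M, E0 hK ℝ s t x ∈ M) (hf : f ∈ Mval M) :
    HH hK S β f ∈ Mval M := by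
  refine Submodule.sub_mem _ (mv_ZZ ?_) ?_
  · rw [hh, LinearMap.sum_apply]
    exact Submodule.sum_mem _ fun p _ => mv_dg _ (mv_fer p _ _ hf)
  · rw [dels, map_sum, LinearMap.sum_apply]
    refine Submodule.sum_mem _ fun s _ => ?_
    rw [map_mul]
    exact mv_th s _ _ fun τ I => hM _ _ _ (hf τ I)

end

/-- the filtration degree -/
def ee (τ : St Ω (Fin K)) : ℕ := cnt τ none + cnt τ (kk hK)

theorem van_HH {b : ℕ} {f : WW Ω K n} (hf : f ∈ Sup fun τ _ _ => b ≤ ee hK τ) :
    HH hK S β f ∈ Sup fun τ _ _ => b ≤ ee hK τ := by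
  refine Submodule.sub_mem _ (sup_ZZ ?_) ?_
  · rw [hh, LinearMap.sum_apply]
    refine Submodule.sum_mem _ fun p hp => sup_dg _ (sup_fer p _ _ hf ?_) fun _ _ _ _ h => h
    intro τ I σ h1 h2
    have c1 := cnt_update τ p (kk hK) none
    have c2 := cnt_update τ p (kk hK) (kk hK)
    simp only [h1, kk, if_true, reduceCtorEq, if_false] at c1 c2
    unfold ee kk at *
    omega
  · rw [dels, map_sum, LinearMap.sum_apply]
    refine Submodule.sum_mem _ fun s _ => ?_
    rw [map_mul]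
    exact sup_th s _ _ (sup_El hK _ _ hf fun _ _ _ _ _ h => h) fun _ _ _ _ h => h

theorem van_dC {b : ℕ} {f : WW Ω K n} (hf : f ∈ Sup fun τ _ _ => b ≤ ee hK τ) :
    dC hK f ∈ Sup fun τ _ _ => b + 1 ≤ ee hK τ := by
  rw [dC, LinearMap.sum_apply]
  refine Submodule.sum_mem _ fun s _ => sup_th s _ _ (P := fun τ _ _ => b + 1 ≤ ee hK τ) ?_
    fun _ _ _ _ h => h
  rw [E0, EE, LinearMap.sum_apply]
  refine Submodule.sum_mem _ fun p _ => sup_loc p _ _ hf ?_
  intro τ I σ h1 h2
  have c1 := cnt_update τ p (some (Fin.castLE hK s.castSucc)) none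
  have c2 := cnt_update τ p (some (Fin.castLE hK s.castSucc)) (kk hK)
  simp only [h1, kk, if_true, reduceCtorEq, if_false, Option.some.injEq, Fin.castLE_inj,
    (Fin.castSucc_lt_last s).ne] at c1 c2
  unfold ee kk at *
  omega

theorem lap_inj (M : Submodule ℝ (VV Ω K)) (hM : ∀ s t, ∀ x ∈ M, E0 hK ℝ s t x ∈ M)
    (hcas : ∀ x ∈ M, cas (E0 hK ℝ) x = cv (dl n) • x)
    (hsupp : ∀ x ∈ M, ∀ σ, x σ ≠ 0 → ∑ s, wt hK σ s = ∑ s, dl n s ∧
      ∑ s, wt hK σ s * wt hK σ s ≤ ∑ s, dl n s * dl n s) (f : WW Ω K n)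
    (h1 : f ∈ PP hK S β (fun q j => q + 1 = j + 0) 0) (h2 : f ∈ Mval M)
    (h3 : (DD hK S * HH hK S β + HH hK S β * DD hK S) f = 0) : f = 0 := by
  have key : ∀ b, f ∈ Sup fun τ _ _ => b ≤ ee hK τ := by
    intro b
    induction b with
    | zero => exact fun _ _ _ _ => Nat.zero_le _
    | succ b ih =>
      intro τ I σ h4
      by_contra h5
      have h6 : (dC (Ω := Ω) hK * HH hK S β + HH hK S β * dC (Ω := Ω) hK) f
          ∈ Sup fun τ _ _ => b + 1 ≤ ee hK τ :=
        Submodule.add_mem _ (van_dC hK (van_HH hK S β ih)) (van_HH hK S β (van_dC hK ih))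
      have h7 : (dC (Ω := Ω) hK * HH hK S β + HH hK S β * dC (Ω := Ω) hK) f τ = 0 := by
        funext I' σ'
        by_contra h8
        exact h5 (h6 τ I' σ' h8)
      rw [DH] at h3
      have h8 := congrFun h3 τ
      rw [LinearMap.add_apply, LinearMap.add_apply, Pi.add_apply, Pi.add_apply, h7, add_zero,
        dg_apply, lft_apply, add_comm] at h8
      obtain ⟨a1, a2, _⟩ := h1 τ I σ h4
      have := kostant hK M hM hcas hsupp (cnt I none) (cnt τ (kk hK)) (nn hK S β τ)
        (nn_nonneg hK S β τ) ?_ (f τ) (h2 τ) ?_ h8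
      · rw [this] at h4
        exact h4 rfl
      · rcases (nn_nonneg hK S β τ).lt_or_eq with h9 | h9
        · exact Or.inl h9
        · have := ucnt_le_cnt hK S β τ a1 h9.symm
          refine Or.inr fun e => ?_
          have : cnt τ (kk hK) = cnt I none := by exact_mod_cast e
          omega
      · intro I' σ' h9
        obtain ⟨_, b2, b3⟩ := h1 τ I' σ' h9
        refine ⟨by omega, ?_⟩
        unfold wt
        have : cnt σ' (kk hK) = cnt τ (kk hK) := by omega
        exact congrArg _ this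
  funext τ I σ
  by_contra h
  exact absurd (key (ee hK τ + 1) τ I σ h) (by omega)

/-- trace functional -/
def trc : WW Ω K n →ₗ[ℝ] ℝ where
  toFun f := ∑ σ, f σ (fun _ => none) σ
  map_add' f g := by simp [sum_add_distrib]
  map_smul' c f := by simp [mul_sum]

theorem EE_ev (s t : Fin K) (f : WW Ω K n) (τ : St Ω (Fin K)) (I : TT n) (σ : St Ω (Fin K)) :
    EE _ s t f τ I σ = EE ℝ s t (fun τ => f τ I σ) τ := by
  simp only [EE_apply, Finset.sum_apply, ite_apply, Pi.zero_apply]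

theorem dd_ev (s : Fin K) (f : WW Ω K n) (τ : St Ω (Fin K)) (I : TT n) (σ : St Ω (Fin K)) :
    dd _ S s f τ I σ = dd ℝ S s (fun τ => f τ I σ) τ := by
  simp only [dd_apply, Finset.sum_apply, ite_apply, Pi.zero_apply, Pi.smul_apply]

theorem om_ev (l : List (Fin (n + 1))) (f : WW Ω K n) (I : TT n) (σ : St Ω (Fin K)) :
    (fun τ => om hK S _ l f τ I σ) = om hK S ℝ l (fun τ => f τ I σ) := by
  induction l with
  | nil => rfl
  | cons s l ih =>
    funext τ
    simp only [om, List.map_cons, List.prod_cons, Module.End.mul_apply] at ih ⊢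
    rw [dd_ev, ih]

theorem trc_DD (f : WW Ω K n) (hf : f ∈ PP hK S β (fun q j => q + 1 = j + (0 - 1)) (0 - 1)) :
    trc (DD hK S f) = 0 := by
  rw [DD, LinearMap.add_apply, LinearMap.sum_apply, map_add, map_sum]
  have h1 : trc (xx hK S (Fin.last n) f) = 0 := by
    refine sum_eq_zero fun σ _ => ?_
    by_contra h
    have h2 : xx hK S (Fin.last n) f ∈ PP hK S β (fun q j => q + 1 = j ∧ j ≤ n) 0 := by
      refine pp_mono (pp_xx (φ := fun q j => q + 2 = j ∧ j ≤ n + 1) (δ := -1) _ ?_)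
        (fun q j h => by omega) (by simp)
      intro τ I σ h3
      obtain ⟨a1, a2, a3⟩ := hf τ I σ h3
      have := ucnt_le S β τ a1
      exact ⟨a1, ⟨by omega, by omega⟩, by omega⟩
    have h3 := (h2 _ _ _ h).2.1
    have h4 : cnt (fun _ => none : TT n) none = n := by simp [cnt]
    omega
  rw [h1, zero_add]
  refine sum_eq_zero fun s _ => ?_
  have := EE_tr (Fin.castLE hK (Fin.last n)) (Fin.castLE hK s.castSucc)
    fun τ σ => f τ (update (fun _ => none) s (some ())) σ
  simp only [trc, LinearMap.coe_mk, AddHom.coe_mk, Module.End.mul_apply, lft_apply, th, fer_apply,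
    if_true, Pi.smul_apply, smul_eq_mul, ← mul_sum, cc, LinearMap.sub_apply, Pi.sub_apply,
    sum_sub_distrib, E0, El, EE_ev]
  rw [this, sub_self, mul_zero]

theorem Pq_top (l : List (Fin n)) (hl : l.Nodup) : ∃ ε : ℝ, ε ≠ 0 ∧ ∀ (f : WW Ω K n) τ σ,
    Pq (fun s : Fin n => xx hK S s.castSucc) (fun s => LL (th (VV Ω K) s)) l l.length f τ
      (fun s => if s ∈ l then none else some ()) σ = ε * f τ (fun _ => some ()) σ := by
  induction l with
  | nil => exact ⟨1, one_ne_zero, fun f τ σ => by simp [Pq]⟩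
  | cons s l ih =>
    obtain ⟨h1, h2⟩ := List.nodup_cons.1 hl
    obtain ⟨ε, h3, h4⟩ := ih h2
    refine ⟨sg (fun t => if t ∈ s :: l then none else some ()) s * ε,
      mul_ne_zero (sg_ne_zero _ _) h3, fun f τ σ => ?_⟩
    have e : update (fun t => if t ∈ s :: l then none else some ()) s (some ())
        = fun t => if t ∈ l then none else some () := by
      funext t
      by_cases h5 : t = s
      · subst h5; simp [h1]
      · simp [h5]
    rw [List.length_cons, Pq, Pq_zero _ _ _ _ (Nat.lt_succ_self _), mul_zero, zero_add,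
      Module.End.mul_apply, lft_apply, th, fer_apply, if_pos (by simp), e, Pi.smul_apply, h4,
      smul_eq_mul, mul_assoc]

theorem Pq_bot (l : List (Fin n)) :
    Pq (fun s : Fin n => xx hK S s.castSucc) (fun s => LL (th (VV Ω K) s)) l 0
      = LL (ZZ Ω K n ^ l.length) * om hK S _ (l.map Fin.castSucc) := by
  induction l with
  | nil => simp [Pq, om]
  | cons s l ih =>
    rw [Pq, ih, xx, List.length_cons, pow_succ', map_mul, mul_assoc, ← mul_assoc (dd _ _ _),
      ← (lft_dd _ _ _).eq]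
    simp only [om, List.map_cons, List.prod_cons, mul_assoc]

theorem core (M : Submodule ℝ (VV Ω K)) (hM : ∀ s t, ∀ x ∈ M, E0 hK ℝ s t x ∈ M)
    (hcas : ∀ x ∈ M, cas (E0 hK ℝ) x = cv (dl n) • x)
    (hsupp : ∀ x ∈ M, ∀ σ, x σ ≠ 0 → ∑ s, wt hK σ s = ∑ s, dl n s ∧
      ∑ s, wt hK σ s * wt hK σ s ≤ ∑ s, dl n s * dl n s)
    (hface : ∀ x ∈ M, ∀ σ, x σ ≠ 0 → face S β σ ∧ ucnt S σ = n + 1)
    (hom : ∀ x ∈ M, om hK S ℝ (fullL n) x = 0) : ∀ x ∈ M, x = 0 := by
  obtain ⟨π, p1, p2, p3⟩ := exists_proj M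
  have eqv : ∀ s t τ σ, EE ℝ (Fin.castLE hK s) (Fin.castLE hK t) (π σ) τ
      = EE ℝ (Fin.castLE hK t) (Fin.castLE hK s) (π τ) σ := by
    intro s t τ σ
    have a1 := p3 _ (hM s t _ (p2 σ)) τ
    have a2 := p3 _ (hM t s _ (p2 τ)) σ
    simp only [E0] at a1 a2
    rw [← a1, ← a2, ← EE_adj _ _ (π σ)]
    exact sum_congr rfl fun _ _ => mul_comm _ _
  let κ : WW Ω K n := fun τ I σ => if I = fun _ => some () then π τ σ else 0
  have k1 : ∀ s, cc (Ω := Ω) hK s • κ = 0 := by
    intro s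
    funext τ I σ
    simp only [Module.End.smul_def, cc, LinearMap.sub_apply, Pi.sub_apply, E0, El, lft_apply,
      EE_ev, Pi.zero_apply, κ]
    by_cases h : I = fun _ => some ()
    · simp only [h, if_true]
      have : (fun τ => π τ σ) = π σ := funext fun τ' => p1 _ _
      rw [← eqv, this, sub_self]
    · simp [h, EE_apply]
  have k2 : κ ∈ Mval M := by
    intro τ I
    by_cases h : I = fun _ => some ()
    · simpa [κ, h] using p2 τ
    · have : κ τ I = 0 := by funext σ; simp [κ, h]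
      rw [this]; exact M.zero_mem
  have k3 : κ ∈ PP hK S β (fun q j => q = 0 ∧ j = n + 1) 0 := by
    intro τ I σ h
    by_cases h1 : I = fun _ => some ()
    swap
    · simp [κ, h1] at h
    simp only [κ, h1, if_true] at h
    obtain ⟨a1, a2⟩ := hface _ (p2 σ) τ (by rwa [p1])
    refine ⟨a1, ⟨by simp [h1, cnt], by exact_mod_cast a2⟩, ?_⟩
    have := eqv (Fin.last n) (Fin.last n) τ σ
    simp only [EE_diag, dg_apply, smul_eq_mul, p1 σ τ] at this
    have := mul_right_cancel₀ h this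
    unfold kk
    rw [add_zero]
    exact_mod_cast this
  let l := List.finRange n
  let Q := Pq (fun s : Fin n => xx hK S s.castSucc) (fun s => LL (th (VV Ω K) s))
  have k4 : ∀ (l : List (Fin n)) (q : ℕ), Q l q κ ∈ Mval M ∧
      Q l q κ ∈ PP hK S β (fun q' j => q' = q ∧ j + l.length = n + 1 + q) 0 := by
    intro l
    induction l with
    | nil =>
      intro q
      cases q with
      | zero => exact ⟨k2, pp_mono k3 (fun q j h => by simpa using h) rfl⟩
      | succ q => exact ⟨Submodule.zero_mem _, Submodule.zero_mem _⟩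
    | cons s l ih =>
      intro q
      have a1 : ∀ q : ℕ, xx hK S s.castSucc (Q l q κ) ∈ PP hK S β
          (fun q' j => q' = q ∧ j + (s :: l).length = n + 1 + q) 0 := fun q =>
        pp_mono (pp_xx _ (ih q).2) (fun q j h => by simp only [List.length_cons]; omega)
          (by simp [(Fin.castSucc_lt_last s).ne])
      cases q with
      | zero => exact ⟨mv_xx hK S _ (ih 0).1, a1 0⟩
      | succ q =>
        refine ⟨Submodule.add_mem _ (mv_xx hK S _ (ih _).1) (mv_th _ _ _ (ih _).1),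
          Submodule.add_mem _ (a1 _) (pp_mono (pp_th s (ih q).2) (fun q j h => ?_) rfl)⟩
        simp only [List.length_cons]; omega
  let ξ := ∑ q ∈ range (l.length + 1), q.factorial • Q l q • κ
  have x1 : DD hK S ξ = 0 := by
    refine (tot hK S).cocycle κ k1 l ?_
    rw [Pq_bot, xx, mul_assoc, ← mul_assoc (dd _ _ _), ← (lft_dd _ _ _).eq, mul_assoc]
    have : (dd (AA Ω K n) S (Fin.castLE hK (Fin.last n))
        * om hK S (AA Ω K n) (l.map Fin.castSucc)) κ = 0 := by
      funext τ I σ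
      have h1 := congrFun (om_ev hK S (fullL n) κ I σ) τ
      refine Eq.trans ?_ (h1.trans ?_)
      · simp only [om, fullL, List.map_cons, List.prod_cons, l]
      · by_cases h : I = fun _ => some ()
        · have : (fun τ => κ τ I σ) = π σ := by funext τ'; simp [κ, h, p1 σ]
          rw [this, hom _ (p2 σ)]; rfl
        · have : (fun τ => κ τ I σ) = 0 := by funext τ'; simp [κ, h]
          rw [this, map_zero]; rfl
    rw [Module.End.smul_def, Module.End.mul_apply, Module.End.mul_apply, this, map_zero, map_zero]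
  let U : Submodule ℝ (WW Ω K n) := PP hK S β (fun q j => q + 1 = j + 0) 0 ⊓ Mval M
    ⊓ LinearMap.ker (DD hK S)
  have x2 : ξ ∈ U := by
    refine ⟨Submodule.sum_mem _ fun q _ =>
      nsmul_mem (Submodule.mem_inf.2 ⟨?_, (k4 l q).1⟩) _, x1⟩
    exact pp_mono (k4 l q).2 (fun q j h => by simp only [l, List.length_finRange] at h; omega) rfl
  have hL : ∀ f ∈ U, (DD hK S * HH hK S β + HH hK S β * DD hK S) f ∈ U := by
    rintro f ⟨⟨h1, h2⟩, h3⟩
    have h4 : DD hK S f = 0 := h3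
    rw [LinearMap.add_apply, Module.End.mul_apply, Module.End.mul_apply, h4, map_zero, add_zero]
    refine ⟨⟨pp_mono (pp_DD (pp_HH h1)) (fun q j h => by omega) (by simp),
      mv_DD hK S hM (mv_HH hK S β hM h2)⟩, ?_⟩
    change DD hK S (DD hK S _) = 0
    rw [← Module.End.mul_apply, DD, (tot hK S).sq]
    rfl
  have hinj : Injective ((DD hK S * HH hK S β + HH hK S β * DD hK S).restrict hL) := by
    rw [injective_iff_map_eq_zero]
    rintro ⟨f, h1⟩ h2
    exact Subtype.ext (lap_inj hK S β M hM hcas hsupp f h1.1.1 h1.1.2 (congrArg Subtype.val h2))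
  obtain ⟨⟨ζ, z1⟩, z2⟩ := LinearMap.injective_iff_surjective.1 hinj ⟨ξ, x2⟩
  have z3 : DD hK S (HH hK S β ζ) = ξ := by
    have h4 : DD hK S ζ = 0 := z1.2
    have := congrArg Subtype.val z2
    rwa [LinearMap.restrict_coe_apply, LinearMap.add_apply, Module.End.mul_apply,
      Module.End.mul_apply, h4, map_zero, add_zero] at this
  have z4 : trc ξ = 0 := by rw [← z3]; exact trc_DD hK S β _ (pp_HH z1.1.1)
  obtain ⟨ε, e1, e2⟩ := Pq_top hK S l (List.nodup_finRange n)
  have z5 : trc ξ = l.length.factorial * (ε * ∑ σ, π σ σ) := by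
    rw [map_sum, sum_range_succ, sum_eq_zero, zero_add, map_nsmul, nsmul_eq_mul, mul_sum]
    · congr 1
      refine sum_congr rfl fun σ _ => ?_
      have := e2 κ σ σ
      simp only [l, List.mem_finRange, if_true, κ] at this
      exact this
    · intro q hq
      rw [map_nsmul, trc, LinearMap.coe_mk, AddHom.coe_mk, sum_eq_zero, smul_zero]
      intro σ _
      by_contra h
      have h3 := ((k4 l q).2 _ _ _ h).2.1.1
      have h4 : cnt (fun _ => none : TT n) none = n := by simp [cnt]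
      simp only [l, List.length_finRange, mem_range] at hq
      omega
  have z6 : ∑ σ, π σ σ = 0 := by
    rw [z4] at z5
    have := (mul_eq_zero.1 z5.symm).resolve_left (by exact_mod_cast Nat.factorial_ne_zero _)
    exact (mul_eq_zero.1 this).resolve_left e1
  have z7 : ∀ σ υ, π σ υ = 0 := by
    have h1 : ∀ σ, π σ σ = ∑ υ, π σ υ * π σ υ := fun σ => (p3 _ (p2 σ) σ).symm
    intro σ υ
    have h2 := (sum_eq_zero_iff_of_nonneg fun σ _ => by
      rw [h1]; exact sum_nonneg fun υ _ => mul_self_nonneg _).1 z6 σ (mem_univ _)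
    rw [h1] at h2
    exact mul_self_eq_zero.1
      ((sum_eq_zero_iff_of_nonneg fun υ _ => mul_self_nonneg _).1 h2 υ (mem_univ _))
  intro x hx
  funext σ
  rw [← p3 x hx σ]
  simp [z7]

end Vale.Agent.P197
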