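import Vale.Agent.P197.Alg

namespace Vale.Agent.P197

open Finset Function

theorem lsum_left {N : ℕ} (f : Fin N → ℝ) :
    lsum (fun s _ => f s) = ∑ s, f s * ((N : ℝ) - 1 - s.val) := by
  refine sum_congr rfl fun s _ => ?_
  rw [← sum_filter, sum_const, filter_lt_eq_Ioi, Fin.card_Ioi, nsmul_eq_mul, mul_comm]
  have := s.2
  rw [Nat.cast_sub (by omega), Nat.cast_sub (by omega)]
  simp

theorem lsum_right {N : ℕ} (f : Fin N → ℝ) :
    lsum (fun _ t => f t) = ∑ t, f t * (t.val : ℝ) := by
  unfold lsum
  rw [sum_comm]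
  refine sum_congr rfl fun t _ => ?_
  rw [← sum_filter, sum_const, filter_gt_eq_Iio, Fin.card_Iio, nsmul_eq_mul, mul_comm]

theorem lsum_sub {N : ℕ} (F G : Fin N → Fin N → ℝ) :
    lsum (fun s t => F s t - G s t) = lsum F - lsum G := by
  rw [eq_sub_iff_add_eq, ← lsum_add]
  simp

theorem lsum_nonneg {N : ℕ} (F : Fin N → Fin N → ℝ) (h : ∀ s t, 0 ≤ F s t) : 0 ≤ lsum F :=
  sum_nonneg fun s _ => sum_nonneg fun t _ => by split_ifs; exacts [h s t, le_rfl]

/-- the staircase weight -/
def dl (n : ℕ) (s : Fin (n + 1)) : ℝ := (n : ℝ) - s.val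

/-- value of the Casimir on a highest weight vector -/
def cv {n : ℕ} (η : Fin (n + 1) → ℝ) : ℝ := ∑ s, η s * η s + lsum (fun s t => η s - η t)

theorem kos_ineq {n : ℕ} (x : Fin n → ℝ) (hx : ∀ s, x s = 0 ∨ x s = 1) (η : Fin (n + 1) → ℝ)
    (h1 : ∑ s, η s = ∑ s, dl n s) (h2 : ∑ s, η s * η s ≤ ∑ s, dl n s * dl n s) :
    (η (Fin.last n) - ∑ s, x s) ^ 2 ≤ 2 * ∑ s, x s * η s.castSucc
      + 2 * lsum (fun s t => x s * (1 - x t)) - 2 * ((∑ s, x s) * η (Fin.last n))
      + cv (dl n) - ∑ s, η s * η s - lsum (fun s t => η s - η t) := by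
  have I1 : ∀ ζ : Fin (n + 1) → ℝ, lsum (fun s t => ζ s - ζ t)
      = 2 * ∑ s, ζ s * dl n s - n * ∑ s, ζ s := by
    intro ζ
    rw [lsum_sub, lsum_left, lsum_right, mul_sum, mul_sum, ← sum_sub_distrib, ← sum_sub_distrib]
    refine sum_congr rfl fun s _ => ?_
    unfold dl; push_cast; ring
  have hxx : ∑ s, x s * x s = ∑ s, x s := sum_congr rfl fun s _ => by
    rcases hx s with h | h <;> simp [h]
  have I3 : (∑ s, x s) * (∑ s, x s) = ∑ s, x s + 2 * lsum (fun s t => x s * x t) := by
    rw [sum_mul_sum, sum_tri, hxx, lsum_congr (F := fun s t => x t * x s)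
      (G := fun s t => x s * x t) fun s t _ => mul_comm _ _]
    ring
  have I2 : lsum (fun s t => x s * (1 - x t))
      = ∑ s, x s * dl n s.castSucc - ∑ s, x s - lsum (fun s t => x s * x t) := by
    simp only [mul_sub, mul_one]
    rw [lsum_sub, lsum_left, ← sum_sub_distrib]
    congr 1
    refine sum_congr rfl fun s _ => ?_
    simp only [dl, Fin.val_castSucc]; ring
  have hP : 0 ≤ lsum (fun s t => x s * (1 - x t)) := lsum_nonneg _ fun s t => by
    rcases hx s with h | h <;> rcases hx t with h' | h' <;> simp [h, h']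
  have hsq : 0 ≤ ∑ s : Fin n, (η s.castSucc - dl n s.castSucc + x s) ^ 2 :=
    sum_nonneg fun s _ => sq_nonneg _
  have hexp : ∑ s : Fin n, (η s.castSucc - dl n s.castSucc + x s) ^ 2
      = ∑ s : Fin n, η s.castSucc * η s.castSucc + ∑ s : Fin n, dl n s.castSucc * dl n s.castSucc
        + ∑ s, x s * x s - 2 * ∑ s : Fin n, η s.castSucc * dl n s.castSucc
        + 2 * ∑ s, x s * η s.castSucc - 2 * ∑ s, x s * dl n s.castSucc := by
    simp only [mul_sum, ← sum_add_distrib, ← sum_sub_distrib]
    exact sum_congr rfl fun s _ => by ring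
  have hl : dl n (Fin.last n) = 0 := by simp [dl]
  unfold cv
  rw [I1, I1, h1]
  rw [Fin.sum_univ_castSucc (f := fun s => η s * η s),
    Fin.sum_univ_castSucc (f := fun s => dl n s * dl n s)] at h2 ⊢
  rw [Fin.sum_univ_castSucc (f := fun s => η s * dl n s)]
  rw [hl] at h2 ⊢
  rw [hexp, hxx] at hsq
  nlinarith

variable {Ω : Type} [Fintype Ω] [LinearOrder Ω] {K n : ℕ} (hK : n + 1 ≤ K)

/-- functions on states -/
abbrev VV (Ω : Type) (K : ℕ) := St Ω (Fin K) → ℝ

/-- index set of the exterior algebra -/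
abbrev TT (n : ℕ) := St (Fin n) Unit

/-- `gl` action on the first rows -/
def E0 (N : Type) [AddCommGroup N] [Module ℝ N] (s t : Fin (n + 1)) :
    Module.End ℝ (St Ω (Fin K) → N) :=
  EE N (Fin.castLE hK s) (Fin.castLE hK t)

theorem E0_gl (N : Type) [AddCommGroup N] [Module ℝ N] :
    IsGl (E0 (Ω := Ω) hK N) := by
  intro s t u v
  unfold E0
  rw [EE_comm]
  simp only [Fin.castLE_inj]

theorem IsGl.map {R R' F ι : Type} [Ring R] [Ring R'] [DecidableEq ι] [FunLike F R R']
    [RingHomClass F R R'] (φ : F) {E : ι → ι → R} (h : IsGl E) :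
    IsGl (fun s t => φ (E s t)) := by
  intro s t u v
  have := congrArg φ (h s t u v)
  simp only [map_sub, map_mul, apply_ite φ, map_zero] at this
  exact this

/-- wedge -/
def th (N : Type) [AddCommGroup N] [Module ℝ N] (s : Fin n) : Module.End ℝ (TT n → N) :=
  fer N s none (some ())

/-- contraction -/
def io (N : Type) [AddCommGroup N] [Module ℝ N] (s : Fin n) : Module.End ℝ (TT n → N) :=
  fer N s (some ()) none

/-- the lifted `gl` action -/
def El (s t : Fin (n + 1)) : Module.End ℝ (TT n → VV Ω K) := lft (TT n) (E0 hK ℝ s t)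

/-- indicator of a wedge factor -/
def xi (I : TT n) (s : Fin n) : ℝ := if I s = none then 1 else 0

section
variable {N : Type} [AddCommGroup N] [Module ℝ N]

theorem th_io_same (s : Fin n) : th N s * io N s = dg N (fun I => xi I s) := by
  unfold th io
  rw [fer_mul_same, if_pos rfl]
  refine LinearMap.ext fun f => funext fun I => ?_
  simp only [loc_apply, dg_apply, xi]
  split_ifs with h
  · rw [← h, update_eq_self, one_smul]
  · simp

theorem io_th_same (s : Fin n) : io N s * th N s = dg N (fun I => 1 - xi I s) := by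
  unfold th io
  rw [fer_mul_same, if_pos rfl]
  refine LinearMap.ext fun f => funext fun I => ?_
  simp only [loc_apply, dg_apply, xi]
  rcases h : I s with _ | u
  · simp
  · simp only [if_true, reduceCtorEq, if_false, sub_zero, one_smul]
    rw [← h, update_eq_self]

theorem th_th (s t : Fin n) : th N s * th N t = -(th N t * th N s) := by
  by_cases h : s = t
  · subst h; simp [th, fer_mul_same]
  · exact fer_anti h (by simp) (by simp)

theorem io_io (s t : Fin n) : io N s * io N t = -(io N t * io N s) := by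
  by_cases h : s = t
  · subst h; simp [io, fer_mul_same]
  · exact fer_anti h (by simp) (by simp)

theorem io_th (s t : Fin n) :
    io N s * th N t = (if s = t then 1 else 0) - th N t * io N s := by
  by_cases h : s = t
  · subst h
    rw [io_th_same, th_io_same, if_pos rfl]
    refine LinearMap.ext fun f => funext fun I => ?_
    simp [dg_apply, sub_smul]
  · rw [if_neg h, zero_sub]
    exact fer_anti h (by simp) (by simp)

end

theorem cliff : Cliff (El (Ω := Ω) hK) (th _) (io _) where
  gl := (E0_gl hK ℝ).map (lft (TT n))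
  tt := th_th
  ii := io_io
  it := io_th
  tE _ _ _ := (lft_fer _ _ _ _).symm
  iE _ _ _ := (lft_fer _ _ _ _).symm

/-- numerical value of a letter -/
def val (a : Option (Fin K)) : ℕ := a.elim 0 Fin.val

theorem sum_upd {Λ : Type} (F : Ω → Option Λ → ℕ) (σ : St Ω Λ) (p : Ω) (b : Option Λ) :
    ∑ x, F x (update σ p b x) + F p (σ p) = ∑ x, F x (σ x) + F p b := by
  rw [← add_sum_erase univ _ (mem_univ p), ← add_sum_erase univ
    (fun x => F x (σ x)) (mem_univ p)]
  have : ∑ x ∈ univ.erase p, F x (update σ p b x) = ∑ x ∈ univ.erase p, F x (σ x) :=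
    sum_congr rfl fun x hx => by rw [update_of_ne (ne_of_mem_erase hx)]
  rw [this, update_self]
  ring

/-- height function -/
def ht (I : TT n) (σ : St Ω (Fin K)) : ℕ :=
  ∑ p, val (σ p) + ∑ s, if I s = none then 0 else s.val

/-- weight of a state -/
def wt (σ : St Ω (Fin K)) (s : Fin (n + 1)) : ℝ := cnt σ (some (Fin.castLE hK s))

theorem exists_of_sum_ne {ι : Type} {S : Finset ι} {P : ι → Prop} [DecidablePred P] {f : ι → ℝ}
    (h : ∑ p ∈ S, (if P p then f p else 0) ≠ 0) : ∃ p ∈ S, P p ∧ f p ≠ 0 := by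
  obtain ⟨p, hp, h1⟩ := exists_ne_zero_of_sum_ne_zero h
  by_cases h2 : P p
  · exact ⟨p, hp, h2, by simpa [h2] using h1⟩
  · simp [h2] at h1

theorem lev_supp (s t : Fin n) (hst : s < t) (g : TT n → VV Ω K) (I : TT n) (σ : St Ω (Fin K))
    (h : lev (El hK) (th _) (io _) s t g I σ ≠ 0) :
    ∃ I' σ', g I' σ' ≠ 0 ∧ cnt I' none = cnt I none ∧
      wt hK σ' (Fin.last n) = wt hK σ (Fin.last n) ∧ ht I σ < ht I' σ' := by
  by_cases h1 : El hK s.castSucc t.castSucc g I σ = 0
  · have h2 : th (VV Ω K) t (io _ s g) I σ ≠ 0 := by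
      intro h2
      apply h
      simp only [lev, LinearMap.sub_apply, Pi.sub_apply, Module.End.mul_apply, h1, h2, sub_zero]
    simp only [th, io, fer_apply] at h2
    by_cases a1 : I t = none
    swap
    · simp [a1] at h2
    by_cases a2 : update I t (some ()) s = some ()
    swap
    · simp [a2] at h2
    simp only [a1, a2, if_true, Pi.smul_apply, smul_eq_mul, ne_eq, mul_eq_zero, not_or] at h2
    refine ⟨_, σ, h2.2.2, ?_, rfl, ?_⟩
    · have c1 := cnt_update (update I t (some ())) s none none
      have c2 := cnt_update I t (some ()) none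
      simp only [a1, a2, if_true, reduceCtorEq, if_false] at c1 c2
      omega
    · have c1 := sum_upd (fun (x : Fin n) (a : Option Unit) => if a = none then 0 else x.val)
        (update I t (some ())) s none
      have c2 := sum_upd (fun (x : Fin n) (a : Option Unit) => if a = none then 0 else x.val)
        I t (some ())
      simp only [a1, a2, if_true, reduceCtorEq, if_false] at c1 c2
      unfold ht
      have : s.val < t.val := hst
      omega
  · simp only [El, lft_apply, E0, EE_apply] at h1
    obtain ⟨p, _, a1, a2⟩ := exists_of_sum_ne h1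
    refine ⟨I, _, a2, rfl, ?_, ?_⟩
    · have c1 := cnt_update σ p (some (Fin.castLE hK t.castSucc))
        (some (Fin.castLE hK (Fin.last n)))
      simp only [a1, Option.some.injEq, Fin.castLE_inj, (Fin.castSucc_lt_last _).ne,
        if_false] at c1
      unfold wt
      have : cnt (update σ p (some (Fin.castLE hK t.castSucc))) (some (Fin.castLE hK (Fin.last n)))
        = cnt σ (some (Fin.castLE hK (Fin.last n))) := by omega
      rw [this]
    · have c1 := sum_upd (fun _ a => val a) σ p (some (Fin.castLE hK t.castSucc))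
      simp only [a1, val, Option.elim_some, Fin.val_castLE, Fin.val_castSucc] at c1
      unfold ht val
      have : s.val < t.val := hst
      omega

theorem sum_xi (I : TT n) : ∑ s, xi I s = cnt I none := by
  simp [xi, cnt]

theorem four_aux {R : Type} [Ring R] (a b c d : R) (b1 : b * d = -(d * b))
    (b2 : d * c = 0 - c * d) : a * b * (c * d) = a * d * (b * c) := by
  linear_combination (norm := noncomm_ring) a * b * b2 - a * b1 * c

theorem kostant (M : Submodule ℝ (VV Ω K)) (hM : ∀ s t, ∀ x ∈ M, E0 hK ℝ s t x ∈ M)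
    (hcas : ∀ x ∈ M, cas (E0 hK ℝ) x = cv (dl n) • x)
    (hsupp : ∀ x ∈ M, ∀ σ, x σ ≠ 0 → ∑ s, wt hK σ s = ∑ s, dl n s ∧
      ∑ s, wt hK σ s * wt hK σ s ≤ ∑ s, dl n s * dl n s)
    (q : ℕ) (D ν : ℝ) (hν : 0 ≤ ν) (h : 0 < ν ∨ D ≠ q) (g : TT n → VV Ω K)
    (hg : ∀ I, g I ∈ M) (hsup : ∀ I σ, g I σ ≠ 0 → cnt I none = q ∧ wt hK σ (Fin.last n) = D)
    (hbox : box (El hK) (th _) (io _) g + ν • g = 0) : g = 0 := by
  obtain ⟨b, hb⟩ : ∃ b, ∀ I σ, g I σ ≠ 0 → ht I σ < b := by
    obtain ⟨b, hb⟩ := (Set.finite_range fun x : TT n × St Ω (Fin K) => ht x.1 x.2).bddAbove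
    exact ⟨b + 1, fun I σ _ => Nat.lt_succ_of_le (hb ⟨(I, σ), rfl⟩)⟩
  induction b generalizing g with
  | zero =>
    funext I σ
    by_contra h0
    exact absurd (hb I σ h0) (Nat.not_lt_zero _)
  | succ b ih =>
    have hw : ∀ s t, s < t → lev (El (Ω := Ω) hK) (th _) (io _) s t • g = 0 := by
      intro s t hst
      refine ih (lev (El hK) (th _) (io _) s t g) ?_ ?_ ?_ ?_
      · intro I
        simp only [lev, LinearMap.sub_apply, Pi.sub_apply, Module.End.mul_apply, th, io,
          fer_apply, El, lft_apply]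
        refine M.sub_mem (hM _ _ _ (hg I)) ?_
        split_ifs
        · exact M.smul_mem _ (M.smul_mem _ (hg _))
        · simp
        · simp
      · intro I σ h1
        obtain ⟨I', σ', a1, a2, a3, _⟩ := lev_supp hK s t hst g I σ h1
        rw [← a2, ← a3]
        exact hsup I' σ' a1
      · rw [← Module.End.mul_apply, ← lev_box (cliff hK), Module.End.mul_apply, ← map_smul,
          ← map_add, hbox, map_zero]
      · intro I σ h1
        obtain ⟨I', σ', a1, _, _, a4⟩ := lev_supp hK s t hst g I σ h1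
        have := hb I' σ' a1
        omega
    have key := box_hw (cliff hK) g hw
    funext I σ
    by_contra h0
    obtain ⟨hq, hD⟩ := hsup I σ h0
    obtain ⟨w1, w2⟩ := hsupp _ (hg I) σ h0
    have ineq := kos_ineq (xi I) (fun s => by unfold xi; split_ifs <;> simp) (wt hK σ) w1 w2
    have k1 := congrFun (congrFun key I) σ
    have k2 := congrFun (congrFun hbox I) σ
    have ediag : ∀ (s : Fin (n + 1)) (f : TT n → VV Ω K), El hK s s f I σ = wt hK σ s * f I σ := by
      intro s f
      simp only [El, lft_apply, E0, EE_diag, dg_apply, smul_eq_mul, wt]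
    have e1 : (∑ s, th (VV Ω K) s * io (VV Ω K) s * El (Ω := Ω) hK s.castSucc s.castSucc) g I σ
        = (∑ s, xi I s * wt hK σ s.castSucc) * g I σ := by
      simp only [LinearMap.sum_apply, Finset.sum_apply, th_io_same, Module.End.mul_apply,
        dg_apply, Pi.smul_apply, smul_eq_mul, ediag, sum_mul, mul_assoc]
    have e2 : lsum (fun s t => th (VV Ω K) s * io (VV Ω K) t * (th (VV Ω K) t * io (VV Ω K) s)) g I σ
        = lsum (fun s t => xi I s * (1 - xi I t)) * g I σ := by
      unfold lsum
      simp only [LinearMap.sum_apply, Finset.sum_apply, sum_mul]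
      refine sum_congr rfl fun s _ => sum_congr rfl fun t _ => ?_
      split_ifs with hst
      · have a1 : th (VV Ω K) s * io _ t * (th _ t * io _ s)
            = th _ s * io _ s * (io _ t * th _ t) := by
          have b1 := io_io (N := VV Ω K) t s
          have b2 := io_th (N := VV Ω K) s t
          rw [if_neg hst.ne] at b2
          exact four_aux _ _ _ _ b1 b2
        rw [a1, th_io_same, io_th_same, dg_mul_dg, dg_apply]
        simp
      · simp
    have e3 : ((∑ s, th (VV Ω K) s * io _ s) * El hK (Fin.last n) (Fin.last n)) g I σ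
        = (∑ s, xi I s) * wt hK σ (Fin.last n) * g I σ := by
      simp only [LinearMap.sum_apply, Finset.sum_apply, th_io_same, Module.End.mul_apply,
        dg_apply, Pi.smul_apply, smul_eq_mul, ediag, sum_mul, mul_assoc]
    have e4 : cas (El hK) g I σ = cv (dl n) * g I σ := by
      have : cas (El (Ω := Ω) hK) = lft (TT n) (cas (E0 hK ℝ)) := by
        simp only [cas, El, map_sum, map_mul]
      rw [this, lft_apply, hcas _ (hg I)]
      simp
    have e5 : (∑ s, El (Ω := Ω) hK s s * El (Ω := Ω) hK s s) g I σ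
        = (∑ s, wt hK σ s * wt hK σ s) * g I σ := by
      simp only [LinearMap.sum_apply, Finset.sum_apply, Module.End.mul_apply, ediag, sum_mul,
        mul_assoc]
    have e6 : lsum (fun s t => El (Ω := Ω) hK s s - El (Ω := Ω) hK t t) g I σ
        = lsum (fun s t => wt hK σ s - wt hK σ t) * g I σ := by
      unfold lsum
      simp only [LinearMap.sum_apply, Finset.sum_apply, sum_mul]
      refine sum_congr rfl fun s _ => sum_congr rfl fun t _ => ?_
      split_ifs with hst
      · simp only [LinearMap.sub_apply, Pi.sub_apply, ediag, sub_mul]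
      · simp
    simp only [Module.End.smul_def, two_mul, LinearMap.add_apply, LinearMap.sub_apply,
      Pi.add_apply, Pi.sub_apply, e1, e2, e3, e4, e5, e6] at k1
    simp only [Pi.add_apply, Pi.smul_apply, smul_eq_mul, Pi.zero_apply] at k2
    rw [sum_xi, hq, hD] at ineq
    rw [sum_xi, hq, hD] at k1
    have k3 : (2 * ν + (2 * ∑ s, xi I s * wt hK σ s.castSucc
      + 2 * lsum (fun s t => xi I s * (1 - xi I t)) - 2 * (q * D) + cv (dl n)
      - ∑ s, wt hK σ s * wt hK σ s - lsum (fun s t => wt hK σ s - wt hK σ t))) * g I σ = 0 := by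
      linear_combination 2 * k2 - k1
    rcases mul_eq_zero.1 k3 with k4 | k4
    · rcases h with h | h
      · nlinarith [sq_nonneg (D - q)]
      · have : 0 < (D - q) ^ 2 := sq_pos_of_ne_zero (sub_ne_zero.2 h)
        linarith
    · exact h0 k4

end Vale.Agent.P197
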