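import Mathlib

namespace Vale.Agent.P197

open Finset Function

/-- states: every position carries a letter or is empty -/
abbrev St (Ω Λ : Type) := Ω → Option Λ

variable {Ω Λ : Type} [Fintype Ω] [LinearOrder Ω] [DecidableEq Λ]
variable (N : Type) [AddCommGroup N] [Module ℝ N]

/-- the local matrix unit at position `p` -/
def loc (p : Ω) (a b : Option Λ) : Module.End ℝ (St Ω Λ → N) where
  toFun f σ := if σ p = a then f (update σ p b) else 0
  map_add' f g := by
    funext σ; simp only [Pi.add_apply]; split_ifs <;> simp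
  map_smul' c f := by
    funext σ; simp only [Pi.smul_apply, RingHom.id_apply]; split_ifs <;> simp

/-- diagonal operator -/
def dg (w : St Ω Λ → ℝ) : Module.End ℝ (St Ω Λ → N) where
  toFun f σ := w σ • f σ
  map_add' f g := by funext σ; simp
  map_smul' c f := by
    funext σ; simp only [Pi.smul_apply, RingHom.id_apply]; rw [smul_comm]

/-- parity of a letter -/
def par (a : Option Λ) : ℝ := if a = none then -1 else 1

/-- Jordan-Wigner sign -/
def sg (σ : St Ω Λ) (p : Ω) : ℝ := ∏ q, if q < p then par (σ q) else 1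

/-- signed local operator -/
def fer (p : Ω) (a b : Option Λ) : Module.End ℝ (St Ω Λ → N) :=
  dg N (fun σ => sg σ p) * loc N p a b

variable {N}

omit [Fintype Ω] in
theorem loc_apply (p : Ω) (a b : Option Λ) (f : St Ω Λ → N) (σ : St Ω Λ) :
    loc N p a b f σ = if σ p = a then f (update σ p b) else 0 := rfl

omit [Fintype Ω] [LinearOrder Ω] [DecidableEq Λ] in
theorem dg_apply (w : St Ω Λ → ℝ) (f : St Ω Λ → N) (σ : St Ω Λ) :
    dg N w f σ = w σ • f σ := rfl

theorem fer_apply (p : Ω) (a b : Option Λ) (f : St Ω Λ → N) (σ : St Ω Λ) :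
    fer N p a b f σ = if σ p = a then sg σ p • f (update σ p b) else 0 := by
  simp only [fer, Module.End.mul_apply, dg_apply, loc_apply]
  split_ifs <;> simp

theorem par_mul_self (a : Option Λ) : par a * par a = 1 := by
  unfold par; split_ifs <;> norm_num

@[simp] theorem par_none : par (none : Option Λ) = -1 := by simp [par]

@[simp] theorem par_some (s : Λ) : par (some s) = 1 := by simp [par]

theorem sg_mul_self (σ : St Ω Λ) (p : Ω) : sg σ p * sg σ p = 1 := by
  unfold sg
  rw [← prod_mul_distrib]
  refine prod_eq_one fun q _ => ?_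
  split_ifs
  · exact par_mul_self _
  · simp

theorem sg_ne_zero (σ : St Ω Λ) (p : Ω) : sg σ p ≠ 0 := by
  intro h
  have := sg_mul_self σ p
  rw [h] at this
  simp at this

theorem sg_update (σ : St Ω Λ) (p q : Ω) (b : Option Λ) :
    sg (update σ p b) q = sg σ q * (if p < q then par (σ p) * par b else 1) := by
  unfold sg
  rw [← mul_prod_erase univ _ (mem_univ p), ← mul_prod_erase univ
    (fun x => if x < q then par (σ x) else 1) (mem_univ p)]
  have : ∏ x ∈ univ.erase p, (if x < q then par (update σ p b x) else 1)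
      = ∏ x ∈ univ.erase p, (if x < q then par (σ x) else 1) :=
    prod_congr rfl fun x hx => by rw [update_of_ne (ne_of_mem_erase hx)]
  rw [this, update_self]
  split_ifs
  · have := par_mul_self (σ p)
    linear_combination (-(par b * ∏ x ∈ univ.erase p, (if x < q then par (σ x) else 1))) * this
  · ring

theorem sg_update_self (σ : St Ω Λ) (p : Ω) (b : Option Λ) :
    sg (update σ p b) p = sg σ p := by
  rw [sg_update]; simp

omit [Fintype Ω] in
theorem loc_mul_same (p : Ω) (a b c d : Option Λ) :
    loc N p a b * loc N p c d = if b = c then loc N p a d else 0 := by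
  ext f σ
  simp only [Module.End.mul_apply, loc_apply, update_self, update_idem]
  split_ifs <;> simp [loc_apply, *]

omit [Fintype Ω] in
theorem loc_comm {p q : Ω} (h : p ≠ q) (a b c d : Option Λ) :
    loc N p a b * loc N q c d = loc N q c d * loc N p a b := by
  ext f σ
  simp only [Module.End.mul_apply, loc_apply, update_of_ne h, update_of_ne h.symm,
    update_comm h]
  split_ifs <;> rfl

theorem fer_mul_same (p : Ω) (a b c d : Option Λ) :
    fer N p a b * fer N p c d = if b = c then loc N p a d else 0 := by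
  ext f σ
  simp only [Module.End.mul_apply, fer_apply, update_self, update_idem, sg_update_self]
  split_ifs <;> simp [loc_apply, smul_smul, sg_mul_self, *]

theorem loc_fer_same (p : Ω) (a b c d : Option Λ) :
    loc N p a b * fer N p c d = if b = c then fer N p a d else 0 := by
  ext f σ
  simp only [Module.End.mul_apply, fer_apply, loc_apply, update_self, update_idem, sg_update_self]
  split_ifs <;> simp [fer_apply, *]

theorem fer_loc_same (p : Ω) (a b c d : Option Λ) :
    fer N p a b * loc N p c d = if b = c then fer N p a d else 0 := by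
  ext f σ
  simp only [Module.End.mul_apply, fer_apply, loc_apply, update_self, update_idem]
  split_ifs <;> simp [fer_apply, *]

theorem fer_anti {p q : Ω} (h : p ≠ q) {a b c d : Option Λ} (hab : par a * par b = -1)
    (hcd : par c * par d = -1) :
    fer N p a b * fer N q c d = -(fer N q c d * fer N p a b) := by
  ext f σ
  simp only [Module.End.mul_apply, fer_apply, update_of_ne h, update_of_ne h.symm,
    update_comm h, LinearMap.neg_apply, Pi.neg_apply, sg_update]
  by_cases h1 : σ p = a <;> by_cases h2 : σ q = c <;> simp only [h1, h2, if_true, if_false,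
    smul_zero, neg_zero, hab, hcd, smul_smul]
  rw [← neg_smul]
  congr 1
  rcases lt_or_gt_of_ne h with h3 | h3
  · simp [h3, h3.not_gt]; ring
  · simp [h3, h3.not_gt]; ring

theorem loc_fer_comm {p q : Ω} (h : p ≠ q) (s t : Λ) (c d : Option Λ) :
    loc N p (some s) (some t) * fer N q c d = fer N q c d * loc N p (some s) (some t) := by
  ext f σ
  simp only [Module.End.mul_apply, fer_apply, loc_apply, update_of_ne h, update_of_ne h.symm,
    update_comm h, sg_update]
  by_cases h1 : σ p = some s <;> by_cases h2 : σ q = c <;> simp [h1, h2]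

omit [Fintype Ω] [LinearOrder Ω] [DecidableEq Λ] in
theorem dg_mul_dg (w w' : St Ω Λ → ℝ) :
    dg N w * dg N w' = dg N (fun σ => w σ * w' σ) := by
  ext f σ
  simp [dg_apply, smul_smul]

/-- matrix units of `gl` -/
def EE (N : Type) [AddCommGroup N] [Module ℝ N] (s t : Λ) : Module.End ℝ (St Ω Λ → N) :=
  ∑ p, loc N p (some s) (some t)

/-- odd lowering operators -/
def dd (N : Type) [AddCommGroup N] [Module ℝ N] (S : Finset Ω) (s : Λ) :
    Module.End ℝ (St Ω Λ → N) :=
  ∑ p ∈ S, fer N p (some s) none

theorem EE_apply (s t : Λ) (f : St Ω Λ → N) (σ : St Ω Λ) :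
    EE N s t f σ = ∑ p, if σ p = some s then f (update σ p (some t)) else 0 := by
  simp [EE, LinearMap.sum_apply, Finset.sum_apply, loc_apply]

theorem dd_apply (S : Finset Ω) (s : Λ) (f : St Ω Λ → N) (σ : St Ω Λ) :
    dd N S s f σ = ∑ p ∈ S, if σ p = some s then sg σ p • f (update σ p none) else 0 := by
  simp [dd, LinearMap.sum_apply, Finset.sum_apply, fer_apply]

theorem comm_sum {R : Type} [Ring R] (S T : Finset Ω) (x y z : Ω → R) (hST : T ⊆ S)
    (hne : ∀ p q, p ≠ q → x p * y q = y q * x p)
    (heq : ∀ p, x p * y p - y p * x p = z p) :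
    (∑ p ∈ S, x p) * (∑ p ∈ T, y p) - (∑ p ∈ T, y p) * (∑ p ∈ S, x p) = ∑ p ∈ T, z p := by
  rw [mul_sum, sum_mul, ← sum_sub_distrib]
  refine sum_congr rfl fun q hq => ?_
  rw [sum_mul, mul_sum, ← sum_sub_distrib, sum_eq_single q]
  · exact heq q
  · intro p _ hp
    rw [hne p q hp, sub_self]
  · intro h; exact absurd (hST hq) h

theorem anti_sum {R : Type} [Ring R] (S T : Finset Ω) (x y z : Ω → R) (hST : T ⊆ S)
    (hne : ∀ p q, p ≠ q → x p * y q = -(y q * x p))
    (heq : ∀ p ∈ T, x p * y p + y p * x p = z p) :
    (∑ p ∈ S, x p) * (∑ p ∈ T, y p) + (∑ p ∈ T, y p) * (∑ p ∈ S, x p) = ∑ p ∈ T, z p := by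
  rw [mul_sum, sum_mul, ← sum_add_distrib]
  refine sum_congr rfl fun q hq => ?_
  rw [sum_mul, mul_sum, ← sum_add_distrib, sum_eq_single q]
  · exact heq q hq
  · intro p _ hp
    rw [hne p q hp, neg_add_cancel]
  · intro h; exact absurd (hST hq) h

theorem EE_comm (s t u v : Λ) :
    (EE N s t * EE N u v - EE N u v * EE N s t : Module.End ℝ (St Ω Λ → N))
      = (if t = u then EE N s v else 0) - (if v = s then EE N u t else 0) := by
  unfold EE
  rw [comm_sum univ univ _ _ (fun p => (if t = u then loc N p (some s) (some v) else 0)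
    - (if v = s then loc N p (some u) (some t) else 0)) (Subset.refl _)
    (fun p q h => loc_comm h _ _ _ _) (fun p => by simp [loc_mul_same])]
  rw [sum_sub_distrib]
  congr 1 <;> split_ifs <;> simp

theorem EE_dd (S : Finset Ω) (s t v : Λ) :
    (EE N s t * dd N S v - dd N S v * EE N s t : Module.End ℝ (St Ω Λ → N))
      = if t = v then dd N S s else 0 := by
  unfold EE dd
  rw [comm_sum univ S _ _ (fun p => if t = v then fer N p (some s) none else 0) (subset_univ _)
    (fun p q h => loc_fer_comm h _ _ _ _) (fun p => by simp [loc_fer_same, fer_loc_same])]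
  split_ifs <;> simp

theorem dd_anti (S : Finset Ω) (s t : Λ) :
    (dd N S s * dd N S t : Module.End ℝ (St Ω Λ → N)) = -(dd N S t * dd N S s) := by
  rw [eq_neg_iff_add_eq_zero]
  unfold dd
  rw [anti_sum S S _ _ (fun _ => 0) (Subset.refl _)
    (fun p q h => fer_anti h (by simp) (by simp)) (fun p _ => by simp [fer_mul_same])]
  simp

/-- number of positions carrying the letter `a` -/
def cnt (σ : St Ω Λ) (a : Option Λ) : ℕ := (univ.filter fun p => σ p = a).card

theorem EE_diag (s : Λ) :
    (EE N s s : Module.End ℝ (St Ω Λ → N)) = dg N (fun σ => (cnt σ (some s) : ℝ)) := by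
  ext f σ
  rw [EE_apply, dg_apply, cnt, card_filter]
  push_cast
  rw [sum_smul]
  refine sum_congr rfl fun p _ => ?_
  split_ifs with h
  · rw [← h, update_eq_self, one_smul]
  · simp

theorem cnt_update (σ : St Ω Λ) (p : Ω) (b a : Option Λ) :
    (cnt (update σ p b) a : ℤ)
      = cnt σ a + (if b = a then 1 else 0) - (if σ p = a then 1 else 0) := by
  unfold cnt
  rw [card_filter, card_filter, ← add_sum_erase univ _ (mem_univ p), ← add_sum_erase univ
    (fun x => if σ x = a then 1 else 0) (mem_univ p)]
  have : ∑ x ∈ univ.erase p, (if update σ p b x = a then 1 else 0)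
      = ∑ x ∈ univ.erase p, (if σ x = a then 1 else 0) :=
    sum_congr rfl fun x hx => by rw [update_of_ne (ne_of_mem_erase hx)]
  rw [this, update_self]
  push_cast
  ring

/-- lifting an endomorphism of the coefficients -/
def lft {N : Type} [AddCommGroup N] [Module ℝ N] (ι : Type) :
    Module.End ℝ N →ₐ[ℝ] Module.End ℝ (ι → N) where
  toFun g := g.compLeft ι
  map_one' := by ext f; rfl
  map_mul' g h := by ext f; rfl
  map_zero' := by ext f; rfl
  map_add' g h := by ext f; rfl
  commutes' c := by ext f; rfl

theorem lft_apply {ι : Type} (g : Module.End ℝ N) (f : ι → N) (i : ι) :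
    lft ι g f i = g (f i) := rfl

omit [Fintype Ω] in
theorem lft_loc (g : Module.End ℝ N) (p : Ω) (a b : Option Λ) :
    Commute (lft (St Ω Λ) g) (loc N p a b) := by
  ext f σ
  simp only [Module.End.mul_apply, lft_apply, loc_apply]
  split_ifs <;> simp

omit [Fintype Ω] [LinearOrder Ω] [DecidableEq Λ] in
theorem lft_dg (g : Module.End ℝ N) (w : St Ω Λ → ℝ) :
    Commute (lft (St Ω Λ) g) (dg N w) := by
  ext f σ
  simp [lft_apply, dg_apply]

theorem lft_fer (g : Module.End ℝ N) (p : Ω) (a b : Option Λ) :
    Commute (lft (St Ω Λ) g) (fer N p a b) :=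
  (lft_dg g _).mul_right (lft_loc g p a b)

theorem lft_EE (g : Module.End ℝ N) (s t : Λ) :
    Commute (lft (St Ω Λ) g) (EE N s t) :=
  Commute.sum_right _ _ _ fun p _ => lft_loc g p _ _

theorem lft_dd (g : Module.End ℝ N) (S : Finset Ω) (s : Λ) :
    Commute (lft (St Ω Λ) g) (dd N S s) :=
  Commute.sum_right _ _ _ fun p _ => lft_fer g p _ _

end Vale.Agent.P197
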