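import Vale.Agent.P197.Good

namespace Vale.Agent.P197

open Finset Function

variable {Ω : Type} [Fintype Ω] [LinearOrder Ω] {K : ℕ}

/-- `S` is labelled by the cells of a top-justified shape with column heights `h` -/
structure Shape (S : Finset Ω) (a b : Ω → ℕ) (h : ℕ → ℕ) : Prop where
  inj : ∀ p ∈ S, ∀ q ∈ S, a p = a q → b p = b q → p = q
  mem : ∀ p ∈ S, a p < h (b p)
  surj : ∀ i c, i < h c → ∃ p ∈ S, a p = i ∧ b p = c

section
omit [Fintype Ω] [LinearOrder Ω]
variable {S : Finset Ω} {a b : Ω → ℕ} {h : ℕ → ℕ}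

theorem Shape.card (hS : Shape S a b h) {I : Finset ℕ} (hI : ∀ p ∈ S, b p ∈ I) :
    S.card = ∑ c ∈ I, h c := by
  rw [card_eq_sum_card_fiberwise hI]
  refine sum_congr rfl fun c _ => ?_
  rw [← card_range (h c)]
  refine card_nbij a (fun p hp => ?_) (fun p hp q hq e => ?_) fun i hi => ?_
  · obtain ⟨a1, a2⟩ := mem_filter.1 (mem_coe.1 hp)
    simpa [← a2] using hS.mem p a1
  · obtain ⟨a1, a2⟩ := mem_filter.1 (mem_coe.1 hp)
    obtain ⟨a3, a4⟩ := mem_filter.1 (mem_coe.1 hq)
    exact hS.inj p a1 q a3 e (by rw [a2, a4])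
  · obtain ⟨p, a1, a2, a3⟩ := hS.surj i c (by simpa using hi)
    exact ⟨p, mem_coe.2 (mem_filter.2 ⟨a1, a3⟩), a2⟩

theorem Shape.sub (hS : Shape S a b h) (k : ℕ → ℕ) :
    Shape (S.filter fun p => a p < h (b p) - k (b p)) a b fun c => h c - k c := by
  refine ⟨fun p hp q hq => hS.inj p (mem_filter.1 hp).1 q (mem_filter.1 hq).1,
    fun p hp => (mem_filter.1 hp).2, fun i c hi => ?_⟩
  obtain ⟨p, a1, a2, a3⟩ := hS.surj i c (by omega)
  exact ⟨p, mem_filter.2 ⟨a1, by rw [a2, a3]; exact hi⟩, a2, a3⟩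

theorem Shape.card_sub (hS : Shape S a b h) (k : ℕ → ℕ) {I : Finset ℕ} (hI : ∀ p ∈ S, b p ∈ I)
    (hk : ∀ c ∈ I, k c ≤ h c) :
    (S.filter fun p => a p < h (b p) - k (b p)).card + ∑ c ∈ I, k c = S.card := by
  rw [hS.card hI, (hS.sub k).card fun p hp => hI p (mem_filter.1 hp).1, ← sum_add_distrib]
  exact sum_congr rfl fun c hc => by have := hk c hc; omega

end

theorem ivt (lo hi : ℕ → ℕ) (I : Finset ℕ) (h : ∀ c ∈ I, lo c ≤ hi c) (n : ℕ)
    (h1 : ∑ c ∈ I, lo c ≤ n) (h2 : n ≤ ∑ c ∈ I, hi c) :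
    ∃ k : ℕ → ℕ, (∀ c ∈ I, lo c ≤ k c ∧ k c ≤ hi c) ∧ ∑ c ∈ I, k c = n := by
  induction I using Finset.induction_on generalizing n with
  | empty => exact ⟨fun _ => 0, by simp, by simpa using (Nat.le_zero.1 h2).symm⟩
  | insert c I hc ih =>
    rw [sum_insert hc] at h1 h2
    have h3 : ∑ c ∈ I, lo c ≤ ∑ c ∈ I, hi c := sum_le_sum fun x hx => h x (mem_insert_of_mem hx)
    have h4 := h c (mem_insert_self _ _)
    obtain ⟨k, a1, a2⟩ := ih (fun x hx => h x (mem_insert_of_mem hx))
      (n - max (lo c) (n - ∑ c ∈ I, hi c)) (by omega) (by omega)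
    refine ⟨update k c (max (lo c) (n - ∑ c ∈ I, hi c)), fun x hx => ?_, ?_⟩
    · rcases mem_insert.1 hx with rfl | hx
      · rw [update_self]; omega
      · rw [update_of_ne fun e => hc (by rw [← e]; exact hx)]; exact a1 x hx
    · rw [sum_update_of_mem (mem_insert_self _ _), insert_sdiff_of_mem _ (mem_singleton_self _),
        sdiff_singleton_eq_erase, erase_eq_of_notMem hc, a2]
      omega

theorem good_zero (a b : Ω → ℕ) : Good K 0 ∅ a b := by
  classical
  let f : VV Ω K := fun σ => if σ = fun _ => none then 1 else 0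
  have hf : IsGen 0 ∅ (fun _ => 0) f := by
    refine ⟨⟨by simp, fun c h1 h2 => by omega⟩, fun p hp => by simp at hp, fun σ hσ => ?_⟩
    have : σ = fun _ => none := by simpa [f] using hσ
    simp [this]
  have hs : ∀ a : Ω → ℕ, Stab ∅ a = {1} := fun a => by
    ext g
    simp only [mem_Stab, mem_singleton]
    exact ⟨fun x => Equiv.ext fun p => x.1 p (by simp), fun x => by simp [x]⟩
  refine ⟨_, Submodule.subset_span ⟨f, f, _, _, hf, hf, rfl⟩, fun _ => none, fun _ => none,
    by simp, ?_⟩
  simp [YY_apply, hs, tens, f, sn_one]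

theorem good_all (m : ℕ) (hK : m ≤ K) (S : Finset Ω) (a b : Ω → ℕ) (h : ℕ → ℕ)
    (hS : Shape S a b h) (hh : ∀ c, h c ≤ m + 1) (hc : 2 * S.card = m * (m + 1)) :
    Good K m S a b := by
  induction m using Nat.strong_induction_on generalizing S h with
  | _ m ih =>
    rcases m with _ | k
    · have : S = ∅ := card_eq_zero.1 (by omega)
      rw [this]; exact good_zero a b
    have hI : ∀ p ∈ S, b p ∈ S.image b := fun p hp => mem_image_of_mem _ hp
    have h1 := hS.card hI
    set I := S.image b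
    have l1 : ∑ c ∈ I, (h c - k) ≤ 2 * k + 1 := by
      have : (k + 2) * ∑ c ∈ I, (h c - k) ≤ 2 * ∑ c ∈ I, h c := by
        rw [mul_sum, mul_sum]
        refine sum_le_sum fun c _ => ?_
        have := hh c
        rcases (by omega : h c ≤ k ∨ h c = k + 1 ∨ h c = k + 2) with x | x | x
        · rw [Nat.sub_eq_zero_of_le x]; omega
        · rw [x, Nat.add_sub_cancel_left]; omega
        · rw [x, Nat.add_sub_cancel_left]; omega
      rw [← h1, hc, mul_comm (k + 1)] at this
      have := Nat.le_of_mul_le_mul_left this (by omega)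
      omega
    have l2 : 2 * k + 1 ≤ ∑ c ∈ I, min (h c) 4 := by
      by_cases hk : k ≤ 2
      · rw [sum_congr rfl (g := h) fun c _ => by have := hh c; omega, ← h1]
        interval_cases k <;> omega
      · have : 4 * ∑ c ∈ I, h c ≤ (k + 2) * ∑ c ∈ I, min (h c) 4 := by
          rw [mul_sum, mul_sum]
          refine sum_le_sum fun c _ => ?_
          have := hh c
          rcases le_total (h c) 4 with x | x
          · rw [min_eq_left x]; exact Nat.mul_le_mul_right _ (by omega)
          · rw [min_eq_right x]; omega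
        rw [← h1, show 4 * S.card = (k + 2) * (2 * k + 2) by nlinarith] at this
        have := Nat.le_of_mul_le_mul_left this (by omega)
        omega
    obtain ⟨κ, a1, a2⟩ := ivt (fun c => h c - k) (fun c => min (h c) 4) I
      (fun c _ => by have := hh c; omega) _ l1 l2
    have a3 := hS.card_sub κ hI fun c hc => ((a1 c hc).2.trans (min_le_left _ _))
    have a4 := hS.sub κ
    set T := S.filter fun p => a p < h (b p) - κ (b p) with hT
    have a5 : T ⊆ S := filter_subset _ _
    have a6 := card_sdiff_add_card_eq_card a5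
    refine step_G (by omega) a5 (by omega) a b (fun i => -i) (fun c => (h c - κ c : ℕ))
      (fun p hp => by simp only [hT, mem_filter, hp, true_and]; omega) (fun p hp q hq e1 e2 => ?_)
      (ih (k - 1) (by omega) (by omega) T _ a4 (fun c => ?_) ?_)
    · simp only [hT, mem_sdiff, mem_filter, not_and, not_lt] at hp hq
      have b1 := hS.mem p hp.1
      have b2 := hS.mem q hq.1
      have b3 := hp.2 hp.1
      have b4 := hq.2 hq.1
      have b5 := (a1 _ (hI p hp.1)).2
      rw [← e1] at b2 b4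
      exact hS.inj p hp.1 q hq.1 (by omega) e1
    · by_cases x : c ∈ I
      · have := (a1 c x).1
        omega
      · rcases Nat.eq_zero_or_pos (h c) with y | y
        · omega
        · obtain ⟨p, b1, _, b3⟩ := hS.surj 0 c y
          exact absurd (b3 ▸ hI p b1) x
    · rcases k with _ | k
      · omega
      · rw [Nat.add_sub_cancel]; nlinarith

end Vale.Agent.P197
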