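import Vale.Agent.P197.Two

namespace Vale.Agent.P197

open Finset Function

variable {K N : ℕ}

/-- cell code of a position -/
def code (s : St (Fin N) (Fin K)) (i : Fin N → Fin 2) (t : Fin N) : ℕ :=
  (s t).elim N fun v => 2 * v.val + (i t).val

/-- product of two column determinants -/
def Dt (s : St (Fin N) (Fin K)) (i : Fin N → Fin 2) : ℝ :=
  Matrix.det (Matrix.of fun t t' : Fin N => if code s i t = t'.val then 1 else 0)

theorem Dt_perm (s : St (Fin N) (Fin K)) (i : Fin N → Fin 2) (g : Equiv.Perm (Fin N)) :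
    Dt (s ∘ g) (i ∘ g) = sn g * Dt s i :=
  Matrix.det_permute g (Matrix.of fun t t' : Fin N => if code s i t = t'.val then (1 : ℝ) else 0)

theorem Dt_ne {s : St (Fin N) (Fin K)} {i : Fin N → Fin 2} (h : Dt s i ≠ 0) :
    ∃ π : Equiv.Perm (Fin N), ∀ t, code s i t = (π t).val := by
  rw [Dt, Matrix.det_apply] at h
  obtain ⟨σ, _, h1⟩ := exists_ne_zero_of_sum_ne_zero h
  have h2 := prod_ne_zero_iff.1 (right_ne_zero_of_smul h1)
  refine ⟨σ.symm, fun t => ?_⟩
  have := h2 (σ.symm t) (mem_univ _)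
  simpa using this

theorem Dt_ne_of {s : St (Fin N) (Fin K)} {i : Fin N → Fin 2} (h1 : ∀ t, code s i t < N)
    (h2 : Injective (code s i)) : Dt s i ≠ 0 := by
  let π : Equiv.Perm (Fin N) := Equiv.ofBijective (fun t => ⟨code s i t, h1 t⟩)
    (Finite.injective_iff_bijective.1 fun t t' e => h2 (by simpa using e))
  have h3 := Dt_perm s i π.symm
  have h4 : Dt (s ∘ π.symm) (i ∘ π.symm) = 1 := by
    rw [Dt, ← Matrix.det_one (n := Fin N)]
    congr 1
    ext t t'
    have : code (s ∘ π.symm) (i ∘ π.symm) t = t.val := by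
      change (π (π.symm t)).val = _
      rw [Equiv.apply_symm_apply]
    simp [this, Matrix.one_apply, Fin.ext_iff]
  intro h
  rw [h4, h] at h3
  simp at h3

theorem Dt_swap (s : St (Fin N) (Fin K)) (i : Fin N → Fin 2) {t t' : Fin N} (h : t ≠ t')
    (h1 : s t = s t') : Dt s (i ∘ Equiv.swap t t') = -Dt s i := by
  have h2 : s ∘ Equiv.swap t t' = s := by
    funext x
    simp only [comp_apply, Equiv.swap_apply_def]
    split_ifs with a1 a2
    · rw [a1, h1]
    · rw [a2, h1]
    · rfl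
  have := Dt_perm s i (Equiv.swap t t')
  rw [h2] at this
  simp [this, sn, Equiv.Perm.sign_swap h]

/-- four anticommuting two by two matrices -/
def X4 (l : Fin 4) (i j : Fin 2) : ℤ :=
  if j.val = (i.val + l.val) % 2 then (if l.val / 2 = 1 ∧ i.val = 1 then -1 else 1) else 0

theorem X4_row : ∀ l l' : Fin 4, l ≠ l' → ∀ i i' j j' : Fin 2,
    X4 l' i' j * X4 l i j' + X4 l i' j * X4 l' i j'
      = X4 l' i j * X4 l i' j' + X4 l i j * X4 l' i' j' := by decide

theorem X4_col : ∀ l l' : Fin 4, l ≠ l' → ∀ i i' j j' : Fin 2,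
    X4 l' i j' * X4 l i' j + X4 l i j' * X4 l' i' j
      = X4 l' i j * X4 l i' j' + X4 l i j * X4 l' i' j' := by decide

theorem X4_ne : ∀ (l : Fin 4) (i j : Fin 2), X4 l i j ≠ 0 ↔ j.val = (i.val + l.val) % 2 := by
  decide

/-- coefficient of a pair of column assignments -/
def cf (l : Fin N → Fin 4) (i j : Fin N → Fin 2) : ℝ := ∏ t, (X4 (l t) (i t) (j t) : ℝ)

/-- the ribbon element -/
def Phi (l : Fin N → Fin 4) (s1 s2 : St (Fin N) (Fin K)) : ℝ :=
  ∑ i, ∑ j, cf l i j * (Dt s1 i * Dt s2 j)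

theorem sum_comp_perm {α : Type} [Fintype α] (g : Equiv.Perm (Fin N)) (F : (Fin N → α) → ℝ) :
    ∑ i, F i = ∑ i, F (i ∘ g) :=
  (Fintype.sum_equiv (Equiv.arrowCongr g.symm (Equiv.refl α)) _ _ fun _ => rfl).symm

theorem Phi_perm (l : Fin N → Fin 4) (s1 s2 : St (Fin N) (Fin K)) (g : Equiv.Perm (Fin N)) :
    Phi (l ∘ g) (s1 ∘ g) (s2 ∘ g) = Phi l s1 s2 := by
  unfold Phi
  rw [sum_comp_perm g]
  refine sum_congr rfl fun i _ => ?_
  rw [sum_comp_perm g]
  refine sum_congr rfl fun j _ => ?_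
  have : cf (l ∘ g) (i ∘ g) (j ∘ g) = cf l i j :=
    Equiv.prod_comp g fun t => (X4 (l t) (i t) (j t) : ℝ)
  rw [this, Dt_perm, Dt_perm]
  have := sn_sq g
  linear_combination (cf l i j * (Dt s1 i * Dt s2 j)) * this

theorem prod2 (F : Fin N → ℝ) {t t' : Fin N} (h : t ≠ t') :
    ∏ u, F u = F t * F t' * ∏ u ∈ (univ.erase t).erase t', F u := by
  rw [mul_assoc, mul_prod_erase _ _ (mem_erase.2 ⟨h.symm, mem_univ _⟩),
    mul_prod_erase _ _ (mem_univ _)]

theorem cf_gen (l : Fin N → Fin 4) (i j : Fin N → Fin 2) {t t' : Fin N} (h : t ≠ t')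
    (g1 g2 g3 : Equiv.Perm (Fin N)) (h1 : ∀ u, u ≠ t → u ≠ t' → g1 u = u ∧ g2 u = u ∧ g3 u = u) :
    cf (l ∘ g1) (i ∘ g2) (j ∘ g3) = X4 (l (g1 t)) (i (g2 t)) (j (g3 t))
      * X4 (l (g1 t')) (i (g2 t')) (j (g3 t'))
      * ∏ u ∈ (univ.erase t).erase t', (X4 (l u) (i u) (j u) : ℝ) := by
  rw [cf, prod2 _ h]
  congr 1
  refine prod_congr rfl fun u hu => ?_
  simp only [mem_erase] at hu
  obtain ⟨a1, a2, a3⟩ := h1 u hu.2.1 hu.1
  simp only [comp_apply, a1, a2, a3]

theorem Phi_swap (l : Fin N → Fin 4) (s1 s2 : St (Fin N) (Fin K)) {t t' : Fin N} (h : t ≠ t')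
    (h1 : s1 t = s1 t' ∨ s2 t = s2 t') (h2 : l t ≠ l t') :
    Phi (l ∘ Equiv.swap t t') s1 s2 = -Phi l s1 s2 := by
  rw [eq_neg_iff_add_eq_zero]
  have e : Phi (l ∘ Equiv.swap t t') s1 s2 + Phi l s1 s2
      = ∑ i, ∑ j, (cf (l ∘ Equiv.swap t t') i j + cf l i j) * (Dt s1 i * Dt s2 j) := by
    simp only [Phi, add_mul, sum_add_distrib]
  have hs : ∀ u, u ≠ t → u ≠ t' → Equiv.swap t t' u = u := fun u a b =>
    Equiv.swap_apply_of_ne_of_ne a b
  have c1 := fun i j => cf_gen l i j h (Equiv.swap t t') 1 1 fun u a b => ⟨hs u a b, rfl, rfl⟩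
  have c2 := fun i j => cf_gen l i j h 1 1 1 fun u a b => ⟨rfl, rfl, rfl⟩
  have c3 := fun i j => cf_gen l i j h (Equiv.swap t t') (Equiv.swap t t') 1
    fun u a b => ⟨hs u a b, hs u a b, rfl⟩
  have c4 := fun i j => cf_gen l i j h 1 (Equiv.swap t t') 1 fun u a b => ⟨rfl, hs u a b, rfl⟩
  have c5 := fun i j => cf_gen l i j h (Equiv.swap t t') 1 (Equiv.swap t t')
    fun u a b => ⟨hs u a b, rfl, hs u a b⟩
  have c6 := fun i j => cf_gen l i j h 1 1 (Equiv.swap t t') fun u a b => ⟨rfl, rfl, hs u a b⟩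
  simp only [Equiv.Perm.coe_one, comp_id, id_eq, Equiv.swap_apply_left,
    Equiv.swap_apply_right] at c1 c2 c3 c4 c5 c6
  rw [e]
  refine eq_zero_of_neg ?_
  rcases h1 with h1 | h1
  · nth_rewrite 1 [sum_comp_perm (Equiv.swap t t')]
    rw [← sum_neg_distrib]
    refine sum_congr rfl fun i _ => ?_
    rw [← sum_neg_distrib]
    refine sum_congr rfl fun j _ => ?_
    have := congrArg (Int.cast (R := ℝ)) (X4_row _ _ h2 (i t) (i t') (j t) (j t'))
    push_cast at this
    rw [Dt_swap _ _ h h1, c3 i j, c4 i j, c1 i j, c2 i j, ← add_mul, ← add_mul, this]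
    ring
  · rw [← sum_neg_distrib]
    refine sum_congr rfl fun i _ => ?_
    nth_rewrite 1 [sum_comp_perm (Equiv.swap t t')]
    rw [← sum_neg_distrib]
    refine sum_congr rfl fun j _ => ?_
    have := congrArg (Int.cast (R := ℝ)) (X4_col _ _ h2 (i t) (i t') (j t) (j t'))
    push_cast at this
    rw [Dt_swap _ _ h h1, c5 i j, c6 i j, c1 i j, c2 i j, ← add_mul, ← add_mul, this]
    ring

theorem sort_sign (Φ : (Fin N → Fin 4) → ℝ)
    (hΦ : ∀ l (t t' : Fin N), t'.val = t.val + 1 → l t ≠ l t' → Φ (l ∘ Equiv.swap t t') = -Φ l)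
    (b : Fin N → ℕ) (hb : Monotone b) (l : Fin N → Fin 4)
    (hl : ∀ t t', b t = b t' → l t = l t' → t = t') (c : Equiv.Perm (Fin N))
    (hc : ∀ t, b (c t) = b t) : Φ (l ∘ c) = sn c * Φ l := by
  induction h : ∑ t, t.val * (N - (c t).val) using Nat.strong_induction_on generalizing c with
  | _ μ ih =>
    by_cases h1 : ∃ t t' : Fin N, t'.val = t.val + 1 ∧ c t' < c t
    · obtain ⟨t, t', a1, a2⟩ := h1
      have hne : t ≠ t' := fun e => by rw [e] at a1; omega
      have hb1 : b t = b t' := by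
        refine le_antisymm (hb (by rw [Fin.le_def]; omega)) ?_
        rw [← hc t, ← hc t']
        exact hb a2.le
      have hc' : ∀ u, b ((c * Equiv.swap t t') u) = b u := by
        intro u
        rw [Equiv.Perm.mul_apply, hc, Equiv.swap_apply_def]
        split_ifs with b1 b2
        · rw [b1, hb1]
        · rw [b2, hb1]
        · rfl
      have hlt : ∑ u, u.val * (N - ((c * Equiv.swap t t') u).val) < μ := by
        have e : ∀ F : Fin N → ℕ, ∑ u, F u = F t + F t' + ∑ u ∈ (univ.erase t).erase t', F u := by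
          intro F
          rw [add_assoc, add_sum_erase _ _ (mem_erase.2 ⟨hne.symm, mem_univ _⟩),
            add_sum_erase _ _ (mem_univ _)]
        rw [← h, e, e fun u => u.val * (N - (c u).val)]
        have : ∑ u ∈ (univ.erase t).erase t', u.val * (N - ((c * Equiv.swap t t') u).val)
            = ∑ u ∈ (univ.erase t).erase t', u.val * (N - (c u).val) :=
          sum_congr rfl fun u hu => by
            simp only [mem_erase] at hu
            rw [Equiv.Perm.mul_apply, Equiv.swap_apply_of_ne_of_ne hu.2.1 hu.1]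
        rw [this]
        simp only [Equiv.Perm.mul_apply, Equiv.swap_apply_left, Equiv.swap_apply_right, a1,
          add_mul, one_mul]
        have b1 := (c t).2
        have b2 : (c t').val < (c t).val := a2
        omega
      have h2 := ih _ hlt _ hc' rfl
      have h3 := hΦ (l ∘ c) t t' a1 fun e => hne
        (c.injective (hl _ _ (by rw [hc, hc, hb1]) e))
      rw [Equiv.Perm.coe_mul, ← comp_assoc, h3, sn_mul] at h2
      simp only [sn, Equiv.Perm.sign_swap hne] at h2 ⊢
      simp at h2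
      linarith
    · have h2 : StrictMono c := by
        cases N with
        | zero => exact fun t => t.elim0
        | succ N =>
          refine Fin.strictMono_iff_lt_succ.2 fun t => ?_
          refine lt_of_le_of_ne (not_lt.1 fun e => h1 ⟨_, _, by simp, e⟩) fun e => ?_
          exact (Fin.castSucc_lt_succ (i := t)).ne (c.injective e)
      have h3 : c = 1 := by
        ext t
        have h4 := Subsingleton.elim (h2.orderIsoOfSurjective c c.surjective) (OrderIso.refl _)
        exact congrArg (fun φ : Fin N ≃o Fin N => (φ t).val) h4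
      rw [h3, sn_one, one_mul]
      rfl

section
variable {k : ℕ} (hk : k < K)

/-- rows of the ribbon cells -/
def r1 : St (Fin (2 * k + 1)) (Fin K) := fun t => some ⟨k - (t.val + 1) / 2, by omega⟩

/-- columns of the ribbon cells -/
def r2 : St (Fin (2 * k + 1)) (Fin K) := fun t => some ⟨t.val / 2, by omega⟩

theorem Phi_adj (l : Fin (2 * k + 1) → Fin 4) (t t' : Fin (2 * k + 1)) (h : t'.val = t.val + 1)
    (h2 : l t ≠ l t') :
    Phi (l ∘ Equiv.swap t t') (r1 hk) (r2 hk) = -Phi l (r1 hk) (r2 hk) := by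
  refine Phi_swap l _ _ (fun e => by rw [e] at h; omega) ?_ h2
  simp only [r1, r2, Option.some.injEq, Fin.mk.injEq]
  omega

theorem Phi_ne (x : ℕ → ℕ) (l : Fin (2 * k + 1) → Fin 4) (hl : ∀ t, (l t).val % 2 = x t % 2)
    (hx : (∑ u ∈ range (2 * k + 1), x u) % 2 = 0) : Phi l (r1 hk) (r2 hk) ≠ 0 := by
  let z : ℕ → ℕ := fun t => t + ∑ u ∈ range (t + 1), x u
  have z0 : z 0 = x 0 := by simp [z]
  have zs : ∀ t, z (t + 1) = z t + 1 + x (t + 1) := fun t => by
    simp only [z, sum_range_succ _ (t + 1)]; ring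
  have zl : z (2 * k) % 2 = 0 := by simp only [z]; omega
  let i0 : Fin (2 * k + 1) → Fin 2 := fun t =>
    ⟨(z t + if t.val % 2 = 0 then x t else 0) % 2, by omega⟩
  let j0 : Fin (2 * k + 1) → Fin 2 := fun t =>
    ⟨(z t + if t.val % 2 = 0 then 0 else x t) % 2, by omega⟩
  have uniq : ∀ i j, cf l i j * (Dt (r1 hk) i * Dt (r2 hk) j) ≠ 0 → i = i0 ∧ j = j0 := by
    intro i j h
    have a1 := prod_ne_zero_iff.1 (left_ne_zero_of_mul h)
    have a2 : ∀ t, (j t).val = ((i t).val + (l t).val) % 2 := fun t =>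
      (X4_ne _ _ _).1 (by exact_mod_cast a1 t (mem_univ _))
    obtain ⟨π, a3⟩ := Dt_ne (left_ne_zero_of_mul (right_ne_zero_of_mul h))
    obtain ⟨π', a4⟩ := Dt_ne (right_ne_zero_of_mul (right_ne_zero_of_mul h))
    simp only [code, r1, r2, Option.elim_some] at a3 a4
    have key : ∀ (t : ℕ) (ht : t < 2 * k + 1), (i ⟨t, ht⟩).val = (i0 ⟨t, ht⟩).val
        ∧ (j ⟨t, ht⟩).val = (j0 ⟨t, ht⟩).val := by
      intro t
      induction t with
      | zero =>
        intro ht
        have b1 := a3 ⟨0, ht⟩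
        have b2 := (π ⟨0, ht⟩).2
        have b3 := a2 ⟨0, ht⟩
        have b4 := hl ⟨0, ht⟩
        simp only [i0, j0, z0, if_true] at b1 b4 ⊢
        omega
      | succ t ih =>
        intro ht
        obtain ⟨c1, c2⟩ := ih (by omega)
        have hne : (⟨t, by omega⟩ : Fin (2 * k + 1)) ≠ ⟨t + 1, ht⟩ := by simp
        have b1 : (π ⟨t, by omega⟩).val ≠ (π ⟨t + 1, ht⟩).val :=
          fun e => hne (π.injective (Fin.ext e))
        have b2 : (π' ⟨t, by omega⟩).val ≠ (π' ⟨t + 1, ht⟩).val :=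
          fun e => hne (π'.injective (Fin.ext e))
        rw [← a3, ← a3] at b1
        rw [← a4, ← a4] at b2
        have b3 := a2 ⟨t + 1, ht⟩
        have b4 := hl ⟨t + 1, ht⟩
        have b5 := (i ⟨t + 1, ht⟩).2
        have b6 := (j ⟨t + 1, ht⟩).2
        simp only [i0, j0, zs] at b1 b2 b4 c1 c2 ⊢
        split_ifs at c1 c2 ⊢ <;> omega
    exact ⟨funext fun t => Fin.ext (key t.1 t.2).1, funext fun t => Fin.ext (key t.1 t.2).2⟩
  have hz : ∀ t t' : Fin (2 * k + 1), t'.val = t.val + 1 → z t' = z t + 1 + x t' :=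
    fun t t' h => by rw [h, zs]
  rw [Phi, sum_eq_single i0, sum_eq_single j0]
  · refine mul_ne_zero (prod_ne_zero_iff.2 fun t _ => ?_) (mul_ne_zero ?_ ?_)
    · have := hl t
      have h1 : X4 (l t) (i0 t) (j0 t) ≠ 0 := (X4_ne _ _ _).2 (by
        simp only [i0, j0]; split_ifs <;> omega)
      exact_mod_cast h1
    · refine Dt_ne_of (fun t => ?_) fun t t' e => ?_
      · simp only [code, r1, Option.elim_some, i0]
        rcases Nat.eq_zero_or_pos t.val with h | h
        · simp only [h, z0, if_true]; omega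
        · omega
      · simp only [code, r1, Option.elim_some, i0] at e
        have b1 := hz t t'
        have b2 := hz t' t
        have := t.2
        have := t'.2
        refine Fin.ext ?_
        split_ifs at e <;> omega
    · refine Dt_ne_of (fun t => ?_) fun t t' e => ?_
      · simp only [code, r2, Option.elim_some, j0]
        have := t.2
        by_cases h : t.val = 2 * k
        · simp only [h]; split_ifs <;> omega
        · omega
      · simp only [code, r2, Option.elim_some, j0] at e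
        have b1 := hz t t'
        have b2 := hz t' t
        refine Fin.ext ?_
        split_ifs at e <;> omega
  · intro j _ hj
    by_contra h
    exact hj (uniq _ _ h).2
  · simp
  · intro i _ hi
    refine sum_eq_zero fun j _ => ?_
    by_contra h
    exact hi (uniq _ _ h).1
  · simp

end

end Vale.Agent.P197
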