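import Vale.Agent.P197.Gen

namespace Vale.Agent.P197

open Finset Function

variable {Ω : Type} [Fintype Ω] [LinearOrder Ω] {K : ℕ}

/-- sign of a permutation on the empty positions -/
def chi (g : Equiv.Perm Ω) (σ : St Ω (Fin K)) : ℝ :=
  ∏ x, ∏ y, if σ x = none ∧ σ y = none ∧ x < y ∧ g.symm y < g.symm x then -1 else 1

theorem chi_congr (g : Equiv.Perm Ω) {σ τ : St Ω (Fin K)} (h : ∀ x, σ x = none ↔ τ x = none) :
    chi g σ = chi g τ := by
  simp only [chi, h]

theorem chi_one (g : Equiv.Perm Ω) {σ : St Ω (Fin K)} (h : ∀ x, σ x = none → g.symm x = x) :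
    chi g σ = 1 := by
  refine prod_eq_one fun x _ => prod_eq_one fun y _ => if_neg ?_
  rintro ⟨a1, a2, a3, a4⟩
  rw [h x a1, h y a2] at a4
  exact a3.not_gt a4

theorem chi_sq (g : Equiv.Perm Ω) (σ : St Ω (Fin K)) : chi g σ * chi g σ = 1 := by
  unfold chi
  rw [← prod_mul_distrib]
  refine prod_eq_one fun x _ => ?_
  rw [← prod_mul_distrib]
  refine prod_eq_one fun y _ => ?_
  split_ifs <;> norm_num

theorem chi_update (g : Equiv.Perm Ω) (σ : St Ω (Fin K)) (p : Ω) (hp : σ p ≠ none) :
    chi g (update σ p none) = chi g σ * sg σ p * sg (σ ∘ g) (g.symm p) := by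
  have h1 : ∀ x y, (if update σ p none x = none ∧ update σ p none y = none ∧ x < y
        ∧ g.symm y < g.symm x then (-1 : ℝ) else 1)
      = (if σ x = none ∧ σ y = none ∧ x < y ∧ g.symm y < g.symm x then -1 else 1)
        * (if x = p then (if σ y = none ∧ p < y ∧ g.symm y < g.symm p then -1 else 1) else 1)
        * (if y = p then (if σ x = none ∧ x < p ∧ g.symm p < g.symm x then -1 else 1) else 1) := by
    intro x y
    by_cases hx : x = p <;> by_cases hy : y = p
    · simp [hx, hy]
    · simp [hx, hy, hp]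
    · simp [hx, hy, hp]
    · simp [hx, hy]
  have h2 : sg (σ ∘ g) (g.symm p) = ∏ y, if g.symm y < g.symm p then par (σ y) else 1 :=
    Fintype.prod_equiv g _ _ fun q => by simp
  unfold chi
  simp only [h1, prod_mul_distrib, prod_ite_eq', mem_univ, if_true]
  rw [prod_comm (f := fun x y => if x = p then
    (if σ y = none ∧ p < y ∧ g.symm y < g.symm p then (-1 : ℝ) else 1) else 1)]
  simp only [prod_ite_eq', mem_univ, if_true]
  rw [h2, sg, mul_assoc, mul_assoc]
  congr 1
  rw [← prod_mul_distrib, ← prod_mul_distrib]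
  refine prod_congr rfl fun y _ => ?_
  by_cases hy : σ y = none
  · have hyp : y ≠ p := fun e => hp (e ▸ hy)
    have hg : g.symm y ≠ g.symm p := fun e => hyp (g.symm.injective e)
    rcases lt_or_gt_of_ne hyp with a | a <;> rcases lt_or_gt_of_ne hg with b | b <;>
      simp [hy, a, b, a.not_gt, b.not_gt]
  · simp [hy, par]

theorem chi_swap {p q : Ω} (hpq : p ≠ q) (σ : St Ω (Fin K)) (hp : σ p = none) (hq : σ q = none)
    (s : Fin K) : chi (Equiv.swap p q) σ = -1 := by
  let τ := update (update σ p (some s)) q (some s)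
  have t1 : τ p = some s := by simp [τ, hpq]
  have t2 : τ q = some s := by simp [τ]
  have e : σ = update (update τ p none) q none := by
    funext x
    by_cases h1 : x = q
    · simp [h1, hq]
    · by_cases h2 : x = p
      · simp [h2, hp, hpq]
      · simp [τ, h1, h2]
  have h0 : chi (Equiv.swap p q) τ = 1 := chi_one _ fun x hx => by
    rw [Equiv.symm_swap, Equiv.swap_apply_of_ne_of_ne]
    · rintro rfl; rw [t1] at hx; cases hx
    · rintro rfl; rw [t2] at hx; cases hx
  have h1 : τ ∘ Equiv.swap p q = τ := by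
    funext x
    simp only [comp_apply, Equiv.swap_apply_def]
    split_ifs with a1 a2
    · rw [a1, t1, t2]
    · rw [a2, t1, t2]
    · rfl
  rw [e, chi_update _ _ _ (by simp [hpq.symm, t2]), chi_update _ _ _ (by simp [t1]), h0, h1,
    update_comp_equiv, h1, sg_update τ, Equiv.symm_swap, Equiv.swap_apply_left,
    Equiv.swap_apply_right, sg_update τ, t1, t2]
  have a1 := sg_mul_self τ p
  have a2 := sg_mul_self τ q
  rcases lt_or_gt_of_ne hpq with a | a
  · simp only [a, a.not_gt, if_true, if_false, par_some, par_none]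
    linear_combination (-(sg τ q * sg τ q)) * a1 - a2
  · simp only [a, a.not_gt, if_true, if_false, par_some, par_none]
    linear_combination (-(sg τ q * sg τ q)) * a1 - a2

theorem UU_dd (g : Equiv.Perm Ω) (S : Finset Ω) (hg : ∀ p, g p ∈ S ↔ p ∈ S) (s : Fin K) :
    dg ℝ (chi g) * act g * dd ℝ S s = dd ℝ S s * (dg ℝ (chi g) * act g) := by
  refine LinearMap.ext fun f => funext fun σ => ?_
  simp only [Module.End.mul_apply, dg_apply, act_apply, dd_apply, smul_eq_mul, mul_sum]
  refine sum_equiv g (fun p => (hg p).symm) fun p _ => ?_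
  simp only [comp_apply]
  split_ifs with h
  · rw [chi_update _ _ _ (by simp [h]), update_comp_equiv, Equiv.symm_apply_apply]
    have := sg_mul_self σ (g p)
    linear_combination (-(chi g σ * sg (σ ∘ g) p * f (update (σ ∘ g) p none))) * this
  · simp

variable {n : ℕ} (hK : n + 1 ≤ K) (S : Finset Ω)

theorem UU_om (g : Equiv.Perm Ω) (hg : ∀ p, g p ∈ S ↔ p ∈ S) (l : List (Fin (n + 1))) :
    dg ℝ (chi g) * act g * om hK S ℝ l = om hK S ℝ l * (dg ℝ (chi g) * act g) := by
  induction l with
  | nil => simp [om]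
  | cons s l ih => rw [om_cons, ← mul_assoc, UU_dd g S hg, mul_assoc, ih, mul_assoc]

theorem om_supp (l : List (Fin (n + 1))) (f : VV Ω K) (σ : St Ω (Fin K))
    (h : om hK S ℝ l f σ ≠ 0) : ∃ τ, f τ ≠ 0 ∧ ucnt S τ = ucnt S σ + l.length ∧
      ∀ p, σ p = τ p ∨ (p ∈ S ∧ τ p = none ∧ ∃ s, σ p = some (Fin.castLE hK s)) := by
  induction l generalizing σ with
  | nil => exact ⟨σ, h, rfl, fun _ => Or.inl rfl⟩
  | cons s l ih =>
    rw [om_cons, Module.End.mul_apply, dd_apply] at h
    obtain ⟨p, hp, a1, a2⟩ := exists_of_sum_ne h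
    obtain ⟨τ, b1, b2, b3⟩ := ih _ (right_ne_zero_of_mul a2)
    have c1 := ucnt_update S σ p none
    simp only [hp, a1, if_true, reduceCtorEq, if_false] at c1
    refine ⟨τ, b1, by simp only [List.length_cons]; omega, fun q => ?_⟩
    by_cases e : q = p
    · subst e
      rcases b3 q with b4 | ⟨_, _, _, b4⟩
      · exact Or.inr ⟨hp, by simpa using b4.symm, s, a1⟩
      · simp at b4
    · simpa [update_of_ne e] using b3 q

theorem om_full_supp {B : Finset Ω} (hB : B ⊆ S) (hc : B.card = n + 1) {b : Ω → ℕ} {f : VV Ω K}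
    (hf : Supp (S \ B) b f) :
    Supp S (fun p => if p ∈ B then n + 1 else b p) (om hK S ℝ (fullL n) f) := by
  intro σ hσ
  obtain ⟨τ, a1, a2, a3⟩ := om_supp hK S _ f σ hσ
  obtain ⟨b1, b2⟩ := hf τ a1
  have h1 : ucnt S τ ≤ n + 1 := by
    rw [← hc]
    refine card_le_card fun p hp => ?_
    by_contra h
    obtain ⟨s, b3, _⟩ := b2 p (mem_sdiff.2 ⟨(mem_filter.1 hp).1, h⟩)
    rw [(mem_filter.1 hp).2] at b3
    cases b3
  have h2 : ucnt S σ = 0 := by
    simp only [fullL, List.length_cons, List.length_map, List.length_finRange] at a2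
    omega
  rw [ucnt, card_eq_zero, filter_eq_empty_iff] at h2
  constructor
  · intro p hp
    rcases a3 p with h | h
    · rw [h, b1 p (by simp [hp])]
    · exact absurd h.1 hp
  · intro p hp
    by_cases h3 : p ∈ B
    · rcases a3 p with h | ⟨_, _, s, h⟩
      · exact absurd (h.trans (b1 p (by simp [h3]))) (h2 hp)
      · exact ⟨_, h, by simpa [h3] using s.2⟩
    · obtain ⟨s, b3, b4⟩ := b2 p (mem_sdiff.2 ⟨hp, h3⟩)
      rcases a3 p with h | ⟨_, h, _⟩
      · exact ⟨s, h.trans b3, by simpa [h3] using b4⟩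
      · rw [h] at b3; cases b3

/-- a state whose empty positions are the complement of `T` -/
def st0 (T : Finset Ω) : St Ω (Fin K) := fun x => if x ∈ T then some (Fin.castLE hK 0) else none

omit [Fintype Ω] in
theorem Supp.none_iff {T : Finset Ω} {b : Ω → ℕ} {f : VV Ω K} (hf : Supp T b f)
    {σ : St Ω (Fin K)} (h : f σ ≠ 0) (p : Ω) : σ p = none ↔ p ∉ T := by
  refine ⟨fun h1 h2 => ?_, (hf σ h).1 p⟩
  obtain ⟨s, b3, _⟩ := (hf σ h).2 p h2
  rw [h1] at b3; cases b3

theorem act_om {B : Finset Ω} (hB : B ⊆ S) (hc : B.card = n + 1) {b : Ω → ℕ} {f : VV Ω K}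
    (hf : Supp (S \ B) b f) (g : Equiv.Perm Ω) (hg : ∀ p ∉ S, g p = p) :
    act g (om hK S ℝ (fullL n) f)
      = chi g (st0 hK (S \ B) ∘ g.symm) • om hK S ℝ (fullL n) (act g f) := by
  have hg' : ∀ p, g p ∈ S ↔ p ∈ S := by
    intro p
    constructor
    · intro h
      by_contra h1
      exact h1 (hg p h1 ▸ h)
    · intro h
      by_contra h1
      exact h1 ((g.injective (hg _ h1)).symm ▸ h)
  have h1 := congrArg (fun φ => φ f) (UU_om hK S g hg' (fullL n))
  simp only [Module.End.mul_apply] at h1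
  have h2 : dg ℝ (chi g) (act g f) = chi g (st0 hK (S \ B) ∘ g.symm) • act g f := by
    funext σ
    simp only [dg_apply, act_apply, Pi.smul_apply, smul_eq_mul]
    by_cases h : f (σ ∘ g) = 0
    · simp [h]
    · congr 1
      refine chi_congr g fun x => ?_
      have := hf.none_iff h (g.symm x)
      simp only [comp_apply, Equiv.apply_symm_apply] at this
      rw [this]
      simp [st0]
  rw [h2, map_smul] at h1
  rw [← h1]
  funext σ
  simp only [dg_apply, act_apply, smul_eq_mul]
  by_cases h : om hK S ℝ (fullL n) f (σ ∘ g) = 0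
  · simp [h]
  · rw [chi_one, one_mul]
    intro x hx
    have := ((om_full_supp hK S hB hc hf).none_iff h (g.symm x)).1 (by simpa using hx)
    have h3 := hg _ this
    rw [Equiv.apply_symm_apply] at h3
    exact h3.symm

theorem om_gen {B : Finset Ω} (hB : B ⊆ S) (hc : B.card = n + 1) {γ : Ω → ℕ} {f : VV Ω K}
    (hf : IsGen n (S \ B) γ f) :
    IsGen (n + 1) S (fun p => if p ∈ B then n + 1 else γ p) (om hK S ℝ (fullL n) f) := by
  refine ⟨⟨fun p hp => ?_, fun c h1 h2 => ?_⟩, fun p hp q hq h1 h2 => ?_,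
    om_full_supp hK S hB hc hf.2.2⟩
  · by_cases h : p ∈ B
    · simp [h]
    · have := hf.1.mem p (mem_sdiff.2 ⟨hp, h⟩)
      simp only [h, if_false]; omega
  · by_cases h : c = n + 1
    · rw [h]
      refine Eq.trans (congrArg _ ?_) hc
      ext p
      rw [mem_filter]
      refine ⟨fun a => ?_, fun a => ⟨hB a, by simp [a]⟩⟩
      by_contra h3
      have := hf.1.mem p (mem_sdiff.2 ⟨a.1, h3⟩)
      simp only [h3, if_false] at a; omega
    · refine Eq.trans (congrArg _ ?_) (hf.1.card c h1 (by omega))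
      ext p
      by_cases h3 : p ∈ B <;> simp [h3, Ne.symm h]
  · rw [act_om hK S hB hc hf.2.2 _ fun x hx => Equiv.swap_apply_of_ne_of_ne
      (fun e => hx (e ▸ hp)) (fun e => hx (e ▸ hq))]
    by_cases h3 : p ∈ B <;> by_cases h4 : q ∈ B
    · have : act (Equiv.swap p q) f = f := by
        have key : ∀ σ : St Ω (Fin K), f σ ≠ 0 → σ ∘ Equiv.swap p q = σ := by
          intro σ hσ
          have a1 := (hf.2.2 σ hσ).1 p (by simp [h3])
          have a2 := (hf.2.2 σ hσ).1 q (by simp [h4])
          funext x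
          simp only [comp_apply, Equiv.swap_apply_def]
          split_ifs with b1 b2
          · rw [b1, a1, a2]
          · rw [b2, a1, a2]
          · rfl
        funext σ
        rw [act_apply]
        by_cases h5 : f σ = 0
        · by_contra h6
          have := key _ (h5 ▸ h6)
          rw [comp_assoc, ← Equiv.Perm.coe_mul, Equiv.swap_mul_self, Equiv.Perm.coe_one,
            comp_id] at this
          exact h6 (by rw [← this])
        · rw [key σ h5]
      rw [this, chi_swap h1 _ (by simp [st0, h4]) (by simp [st0, h3]) (Fin.castLE hK 0),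
        neg_one_smul]
    · have := hf.1.mem q (mem_sdiff.2 ⟨hq, h4⟩)
      simp only [h3, h4, if_true, if_false] at h2; omega
    · have := hf.1.mem p (mem_sdiff.2 ⟨hp, h3⟩)
      simp only [h3, h4, if_true, if_false] at h2; omega
    · simp only [h3, h4, if_false] at h2
      rw [hf.2.1 p (mem_sdiff.2 ⟨hp, h3⟩) q (mem_sdiff.2 ⟨hq, h4⟩) h1 h2, map_neg, chi_one,
        one_smul]
      intro x hx
      rw [Equiv.symm_swap, Equiv.swap_apply_of_ne_of_ne]
      · rintro rfl; simp [st0, hq, h4] at hx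
      · rintro rfl; simp [st0, hp, h3] at hx

end Vale.Agent.P197
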