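import Vale.Agent.P197.Peel

namespace Vale.Agent.P197

open Finset Function

variable {Ω : Type} [Fintype Ω] [LinearOrder Ω] {K : ℕ}

section
variable {S : Finset Ω} {a : Ω → ℕ} {g h : Equiv.Perm Ω}

theorem Stab_one : (1 : Equiv.Perm Ω) ∈ Stab S a := by simp [mem_Stab]

theorem Stab_mul (hg : g ∈ Stab S a) (hh : h ∈ Stab S a) : g * h ∈ Stab S a := by
  obtain ⟨a1, a2⟩ := mem_Stab.1 hg
  obtain ⟨a3, a4⟩ := mem_Stab.1 hh
  exact mem_Stab.2 ⟨fun p hp => by rw [Equiv.Perm.mul_apply, a3 p hp, a1 p hp],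
    fun p => by rw [Equiv.Perm.mul_apply, a2, a4]⟩

theorem Stab_inv (hg : g ∈ Stab S a) : g⁻¹ ∈ Stab S a := by
  obtain ⟨a1, a2⟩ := mem_Stab.1 hg
  refine mem_Stab.2 ⟨fun p hp => ?_, fun p => ?_⟩
  · rw [Equiv.Perm.inv_eq_iff_eq, a1 p hp]
  · rw [← a2]; simp

theorem Stab_zero (hg : g ∈ Stab S a) : g ∈ Stab S fun _ => 0 :=
  mem_Stab.2 ⟨(mem_Stab.1 hg).1, fun _ => rfl⟩

theorem card_Stab : ((Stab S a).card : ℝ) ≠ 0 := by
  exact_mod_cast card_ne_zero_of_mem Stab_one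

variable {M : Type} [AddCommMonoid M]

theorem sum_left (hh : h ∈ Stab S a) (F : Equiv.Perm Ω → M) :
    ∑ g ∈ Stab S a, F (h * g) = ∑ g ∈ Stab S a, F g :=
  sum_equiv (Equiv.mulLeft h) (fun g => ⟨Stab_mul hh, fun x => by
    simpa using Stab_mul (Stab_inv hh) x⟩) fun _ _ => rfl

theorem sum_right (hh : h ∈ Stab S a) (F : Equiv.Perm Ω → M) :
    ∑ g ∈ Stab S a, F (g * h) = ∑ g ∈ Stab S a, F g :=
  sum_equiv (Equiv.mulRight h) (fun g => ⟨fun x => Stab_mul x hh, fun x => by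
    simpa using Stab_mul x (Stab_inv hh)⟩) fun _ _ => rfl

theorem sum_inv (F : Equiv.Perm Ω → M) : ∑ g ∈ Stab S a, F g⁻¹ = ∑ g ∈ Stab S a, F g :=
  sum_equiv (Equiv.inv _) (fun g => ⟨Stab_inv, fun x => by simpa using Stab_inv x⟩) fun _ _ => rfl

end

omit [Fintype Ω] [LinearOrder Ω] in
theorem act_mul (g h : Equiv.Perm Ω) (f : VV Ω K) : act (g * h) f = act g (act h f) := rfl

theorem sn_swap {p q : Ω} (h : p ≠ q) : sn (Equiv.swap p q) = -1 := by
  simp [sn, Equiv.Perm.sign_swap h]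

theorem swap_Stab {S : Finset Ω} {γ : Ω → ℕ} {p q : Ω} (hp : p ∈ S) (hq : q ∈ S)
    (h : γ p = γ q) : Equiv.swap p q ∈ Stab S γ := by
  refine mem_Stab.2 ⟨fun x hx => Equiv.swap_apply_of_ne_of_ne (fun e => hx (by rw [e]; exact hp))
    fun e => hx (by rw [e]; exact hq), fun x => ?_⟩
  rw [Equiv.swap_apply_def]
  split_ifs with a1 a2
  · rw [a1, h]
  · rw [a2, h]
  · rfl

theorem Anti.act {S : Finset Ω} {γ : Ω → ℕ} {f : VV Ω K} (h : Anti S γ f) {c : Equiv.Perm Ω}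
    (hc : c ∈ Stab S γ) : act c f = sn c • f := by
  induction hn : c.support.card using Nat.strong_induction_on generalizing c with
  | _ n ih =>
    by_cases h1 : ∃ p, c p ≠ p
    · obtain ⟨p, hp⟩ := h1
      obtain ⟨a1, a2⟩ := mem_Stab.1 hc
      have b1 : p ∈ S := by_contra fun x => hp (a1 p x)
      have b2 := (pres_of_fix a1 p).2 b1
      have b3 := ih _ (hn ▸ Equiv.Perm.card_support_swap_mul hp)
        (Stab_mul (swap_Stab b1 b2 (a2 p).symm) hc) rfl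
      have b4 : c = Equiv.swap p (c p) * (Equiv.swap p (c p) * c) := by
        rw [Equiv.swap_mul_self_mul]
      nth_rewrite 1 [b4]
      rw [act_mul, b3, map_smul, h p b1 _ b2 hp.symm (a2 p).symm, sn_mul, sn_swap hp.symm]
      simp
    · have : c = 1 := Equiv.ext fun p => by_contra fun x => h1 ⟨p, x⟩
      rw [this, sn_one, one_smul]; rfl

/-- indicator of a state -/
def dlt (v : St Ω (Fin K)) : VV Ω K := fun σ => if σ = v then 1 else 0

/-- symmetrizer -/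
def sy (S : Finset Ω) (a : Ω → ℕ) : Module.End ℝ (VV Ω K) := ∑ r ∈ Stab S a, act r

/-- antisymmetrizer -/
def an (S : Finset Ω) (b : Ω → ℕ) : Module.End ℝ (VV Ω K) := ∑ c ∈ Stab S b, sn c • act c

theorem sy_apply (S : Finset Ω) (a : Ω → ℕ) (f : VV Ω K) (σ : St Ω (Fin K)) :
    sy S a f σ = ∑ r ∈ Stab S a, f (σ ∘ r) := by
  simp only [sy, LinearMap.sum_apply, Finset.sum_apply, act_apply]

theorem an_apply (S : Finset Ω) (b : Ω → ℕ) (f : VV Ω K) (σ : St Ω (Fin K)) :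
    an S b f σ = ∑ c ∈ Stab S b, sn c * f (σ ∘ c) := by
  simp only [an, LinearMap.sum_apply, Finset.sum_apply, LinearMap.smul_apply, Pi.smul_apply,
    smul_eq_mul, act_apply]

theorem an_anti (S : Finset Ω) (γ : Ω → ℕ) (f : VV Ω K) : Anti S γ (an S γ f) := by
  intro p hp q hq h1 h2
  funext σ
  rw [act_apply, Pi.neg_apply, an_apply, an_apply, ← sum_left (swap_Stab hp hq h2) fun c =>
    sn c * f (σ ∘ c), ← sum_neg_distrib]
  exact sum_congr rfl fun c _ => by rw [sn_mul, sn_swap h1]; simp [comp_assoc]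

/-- a state filling the staircase bijectively -/
structure Tab (m : ℕ) (S : Finset Ω) (γ : Ω → ℕ) (v : St Ω (Fin K)) : Prop where
  out : ∀ p ∉ S, v p = none
  ins : ∀ p ∈ S, ∃ s, v p = some s
  bij : Set.BijOn (fun p => (γ p, val (v p))) S (tri m)

section
variable {m : ℕ} {S : Finset Ω} {γ γ' : Ω → ℕ} {v v' : St Ω (Fin K)} {f e : VV Ω K}

omit [Fintype Ω] in
theorem IsGen.tab (h : IsGen m S γ f) (hv : f v ≠ 0) : Tab m S γ v :=
  ⟨(h.2.2 v hv).1, fun p hp => ((h.2.2 v hv).2 p hp).imp fun _ x => x.1, h.bij hv⟩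

omit [Fintype Ω] in
theorem IsGen.congr (h : IsGen m S γ f) (h1 : ∀ p ∈ S, γ' p = γ p) : IsGen m S γ' f := by
  refine ⟨⟨fun p hp => h1 p hp ▸ h.1.mem p hp, fun c a1 a2 => ?_⟩, fun p hp q hq a1 a2 =>
    h.2.1 p hp q hq a1 (by rwa [h1 p hp, h1 q hq] at a2), fun σ hσ =>
    ⟨(h.2.2 σ hσ).1, fun p hp => h1 p hp ▸ (h.2.2 σ hσ).2 p hp⟩⟩
  rw [filter_congr fun p hp => by rw [h1 p hp], h.1.card c a1 a2]

omit [Fintype Ω] [LinearOrder Ω] in
theorem Tab.mem (h : Tab m S γ v) {p : Ω} (hp : p ∈ S) : val (v p) < γ p ∧ γ p ≤ m :=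
  mem_tri.1 (mem_coe.1 (h.bij.1 hp))

omit [Fintype Ω] [LinearOrder Ω] in
theorem Tab.lab (h : Tab m S γ v) : Lab m S γ := by
  refine ⟨fun p hp => by have := h.mem hp; omega, fun c h1 h2 => ?_⟩
  refine Eq.trans (card_nbij (fun p => val (v p)) (fun p hp => ?_) (fun p hp q hq x => ?_)
    fun i hi => ?_) (card_range c)
  · obtain ⟨a1, a2⟩ := mem_filter.1 (mem_coe.1 hp)
    simpa [← a2] using (h.mem a1).1
  · obtain ⟨a1, a2⟩ := mem_filter.1 (mem_coe.1 hp)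
    obtain ⟨a3, a4⟩ := mem_filter.1 (mem_coe.1 hq)
    exact h.bij.2.1 a1 a3 (Prod.ext (a2.trans a4.symm) x)
  · obtain ⟨p, a1, a2⟩ := h.bij.2.2 (mem_coe.2 ((mem_tri (x := (c, i))).2 ⟨by simpa using hi, h2⟩))
    exact ⟨p, mem_coe.2 (mem_filter.2 ⟨a1, congrArg Prod.fst a2⟩), congrArg Prod.snd a2⟩

theorem Tab.gen (h : Tab m S γ v) : IsGen m S γ (an S γ (dlt v)) ∧ an S γ (dlt v) v = 1 := by
  refine ⟨⟨h.lab, an_anti _ _ _, fun σ hσ => ?_⟩, ?_⟩
  · rw [an_apply] at hσ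
    obtain ⟨c, hc, h1⟩ := exists_ne_zero_of_sum_ne_zero hσ
    have h2 : σ ∘ c = v := by simpa [dlt] using right_ne_zero_of_mul h1
    obtain ⟨a1, a2⟩ := mem_Stab.1 hc
    refine ⟨fun p hp => by rw [← h.out p hp, ← h2, comp_apply, a1 p hp], fun p hp => ?_⟩
    obtain ⟨q, rfl⟩ := c.surjective p
    have hq := (pres_of_fix a1 q).1 hp
    obtain ⟨s, hs⟩ := h.ins q hq
    refine ⟨s, by rw [← hs, ← h2]; rfl, ?_⟩
    simpa [hs, val, a2] using (h.mem hq).1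
  · rw [an_apply, sum_eq_single 1]
    · simp [dlt, sn_one]
    · intro c hc h1
      rw [dlt, if_neg, mul_zero]
      intro h2
      obtain ⟨a1, a2⟩ := mem_Stab.1 hc
      refine h1 (Equiv.ext fun p => ?_)
      by_cases hp : p ∈ S
      · exact h.bij.2.1 ((pres_of_fix a1 p).2 hp) hp
          (Prod.ext (a2 p) (congrArg val (congrFun h2 p)))
      · exact a1 p hp
    · exact fun x => absurd Stab_one x

omit [Fintype Ω] in
theorem Tab.perm (h : Tab m S γ v) (h' : Tab m S γ' v') : ∃ g : Equiv.Perm Ω,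
    (∀ p ∉ S, g p = p) ∧ (∀ p ∈ S, γ' (g p) = γ p) ∧ v' ∘ g = v := by
  let π : Equiv.Perm {p // p ∈ S} := (h.bij.equiv _).trans (h'.bij.equiv _).symm
  have a1 : ∀ p (hp : p ∈ S), Equiv.Perm.ofSubtype π p = π ⟨p, hp⟩ :=
    fun p hp => Equiv.Perm.ofSubtype_apply_of_mem π hp
  have a2 : ∀ p ∉ S, Equiv.Perm.ofSubtype π p = p :=
    fun p hp => Equiv.Perm.ofSubtype_apply_of_not_mem π hp
  have a3 : ∀ x : {p // p ∈ S}, (γ' (π x), val (v' (π x))) = (γ x, val (v x)) := fun x =>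
    congrArg Subtype.val ((h'.bij.equiv _).apply_symm_apply (h.bij.equiv _ x))
  refine ⟨Equiv.Perm.ofSubtype π, a2, fun p hp => ?_, funext fun p => ?_⟩
  · rw [a1 p hp]; exact congrArg Prod.fst (a3 ⟨p, hp⟩)
  · by_cases hp : p ∈ S
    · have := congrArg Prod.snd (a3 ⟨p, hp⟩)
      obtain ⟨s, hs⟩ := h.ins p hp
      obtain ⟨t, ht⟩ := h'.ins _ (π ⟨p, hp⟩).2
      simp only [hs, ht, val, Option.elim_some] at this
      rw [comp_apply, a1 p hp, hs, ht, Fin.ext this]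
    · rw [comp_apply, a2 p hp, h.out p hp, h'.out p hp]

theorem gen_prop (he : IsGen m S γ e) (hv : e v ≠ 0) (hf : IsGen m S γ' f) :
    ∃ g : Equiv.Perm Ω, (∀ p ∉ S, g p = p) ∧ ∃ t : ℝ, f = t • act g e := by
  by_cases h0 : f = 0
  · exact ⟨1, fun _ _ => rfl, 0, by simp [h0]⟩
  obtain ⟨σ1, h1⟩ := Function.ne_iff.1 h0
  obtain ⟨g, a1, a2, a3⟩ := (he.tab hv).perm (hf.tab h1)
  have b1 : IsGen m S γ' (act g e) := by
    have := he.act g
    rw [map_fix a1] at this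
    refine this.congr fun p hp => ?_
    obtain ⟨q, rfl⟩ := g.surjective p
    simpa using a2 q ((pres_of_fix a1 q).1 hp)
  refine ⟨g, a1, f σ1 / e v, funext fun σ => ?_⟩
  by_cases h2 : f σ = 0 ∧ act g e σ = 0
  · simp [h2.1, h2.2]
  have b2 : Tab m S γ' σ := by
    by_cases h3 : f σ = 0
    · exact b1.tab fun x => h2 ⟨h3, x⟩
    · exact hf.tab h3
  obtain ⟨c, c1, c2, c3⟩ := b2.perm (hf.tab h1)
  have hc : c ∈ Stab S γ' := mem_Stab.2 ⟨c1, fun p => by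
    by_cases hp : p ∈ S
    · exact c2 p hp
    · rw [c1 p hp]⟩
  have d1 := congrFun (hf.2.1.act hc) σ1
  have d2 := congrFun (b1.2.1.act hc) σ1
  rw [act_apply, c3, Pi.smul_apply] at d1 d2
  rw [Pi.smul_apply, d1, d2, act_apply, a3]
  simp only [smul_eq_mul]
  field_simp

theorem tri_sum (m : ℕ) : ∑ x ∈ tri m, x.2 = ∑ c ∈ Icc 1 m, ∑ i ∈ range c, i := by
  rw [← sum_fiberwise_of_maps_to (g := Prod.fst) (t := Icc 1 m) fun x hx => by
    have := mem_tri.1 hx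
    rw [mem_Icc]; omega]
  refine sum_congr rfl fun c hc => sum_nbij' Prod.snd (fun i => (c, i)) ?_ ?_ ?_ ?_ fun _ _ => rfl
  · intro x hx
    obtain ⟨a1, a2⟩ := mem_filter.1 hx
    rw [mem_range, ← a2]; exact (mem_tri.1 a1).1
  · intro i hi
    exact mem_filter.2 ⟨mem_tri.2 ⟨mem_range.1 hi, (mem_Icc.1 hc).2⟩, rfl⟩
  · intro x hx
    rw [← (mem_filter.1 hx).2]
  · exact fun _ _ => rfl

omit [Fintype Ω] in
theorem content (h1 : Lab m S γ) (h2 : Anti S γ f)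
    (h3 : ∀ σ, f σ ≠ 0 → ∃ g : Equiv.Perm Ω, (∀ p ∉ S, g p = p) ∧ ∃ δ, Tab m S δ (σ ∘ g)) :
    IsGen m S γ f := by
  refine ⟨h1, h2, fun σ hσ => ?_⟩
  obtain ⟨g, a1, δ, a2⟩ := h3 σ hσ
  have b1 : ∀ p ∈ S, ∃ s, σ p = some s := fun p hp => by
    obtain ⟨q, rfl⟩ := g.surjective p
    exact a2.ins q ((pres_of_fix a1 q).1 hp)
  refine ⟨fun p hp => by rw [← a2.out p hp, comp_apply, a1 p hp], fun p hp => ?_⟩
  have b2 : ∑ p ∈ S, val (σ p) = ∑ x ∈ tri m, x.2 := by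
    rw [← sum_nbij (f := fun p => val (σ (g p))) _ a2.bij.1 a2.bij.2.1 a2.bij.2.2 fun _ _ => rfl]
    exact (sum_equiv g (fun p => (pres_of_fix a1 p).symm) fun p _ => rfl).symm
  rw [tri_sum, ← sum_fiberwise_of_maps_to (g := γ) (t := Icc 1 m)
    fun p hp => mem_Icc.2 (h1.mem p hp)] at b2
  have b3 : ∀ c ∈ Icc 1 m, ∑ i ∈ range c, i
      + (((S.filter fun p => γ p = c).image fun p => val (σ p)) \ range c).card
      ≤ ∑ p ∈ S.filter fun p => γ p = c, val (σ p) := by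
    intro c hc
    have hinj : Set.InjOn (fun p => val (σ p)) (S.filter fun p => γ p = c) := by
      intro p hp q hq x
      obtain ⟨c1, c2⟩ := mem_filter.1 (mem_coe.1 hp)
      obtain ⟨c3, c4⟩ := mem_filter.1 (mem_coe.1 hq)
      obtain ⟨s, hs⟩ := b1 p c1
      obtain ⟨t, ht⟩ := b1 q c3
      simp only [hs, ht, val, Option.elim_some] at x
      exact h2.ne hσ c1 c3 (c2.trans c4.symm) (by rw [hs, ht, Fin.ext x])
    have := range_sum_le ((S.filter fun p => γ p = c).image fun p => val (σ p))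
    rwa [card_image_of_injOn hinj, sum_image hinj,
      h1.card c (mem_Icc.1 hc).1 (mem_Icc.1 hc).2] at this
  have b4 := sum_le_sum b3
  rw [sum_add_distrib, b2, add_le_iff_nonpos_right, Nat.le_zero, sum_eq_zero_iff] at b4
  have b5 := sdiff_eq_empty_iff_subset.1 (card_eq_zero.1 (b4 _ (mem_Icc.2 (h1.mem p hp))))
    (mem_image_of_mem (fun p => val (σ p)) (mem_filter.2 ⟨hp, rfl⟩))
  obtain ⟨s, hs⟩ := b1 p hp
  exact ⟨s, hs, by simpa [hs, val] using b5⟩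

end

end Vale.Agent.P197
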