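import Vale.Agent.P197.Tab

namespace Vale.Agent.P197

open Finset Function

variable {Ω : Type} [Fintype Ω] [LinearOrder Ω] {K : ℕ}

theorem sum_st (g : Equiv.Perm Ω) (F : St Ω (Fin K) → ℝ) : ∑ σ, F σ = ∑ σ, F (σ ∘ g) :=
  (Fintype.sum_equiv (Equiv.arrowCongr g.symm (Equiv.refl _)) _ _ fun _ => rfl).symm

omit [Fintype Ω] [LinearOrder Ω] in
theorem comp_inv (g : Equiv.Perm Ω) (σ : St Ω (Fin K)) : (σ ∘ ⇑g⁻¹) ∘ g = σ := by
  funext x; simp

theorem sum_st' (g : Equiv.Perm Ω) (f h : VV Ω K) :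
    ∑ σ, f σ * h (σ ∘ g) = ∑ σ, f (σ ∘ ⇑g⁻¹) * h σ := by
  rw [sum_st g⁻¹]; simp only [comp_inv]

/-- the sign twisting map -/
def Psi (S : Finset Ω) (w : St Ω (Fin K)) (e : VV Ω K) : Module.End ℝ (VV Ω K) where
  toFun f σ := ∑ g ∈ Stab S fun _ => 0, sn g * f (w ∘ g) * e (σ ∘ ⇑g⁻¹)
  map_add' f h := by funext σ; simp [mul_add, add_mul, sum_add_distrib]
  map_smul' c f := by funext σ; simp [mul_sum, mul_left_comm, mul_assoc]

theorem Psi_apply (S : Finset Ω) (w : St Ω (Fin K)) (e f : VV Ω K) (σ : St Ω (Fin K)) :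
    Psi S w e f σ = ∑ g ∈ Stab S fun _ => 0, sn g * f (w ∘ g) * e (σ ∘ ⇑g⁻¹) := rfl

theorem Psi_act {S : Finset Ω} (w : St Ω (Fin K)) (e f : VV Ω K) {h : Equiv.Perm Ω}
    (hh : ∀ p ∉ S, h p = p) : Psi S w e (act h f) = sn h • act h (Psi S w e f) := by
  funext σ
  rw [Pi.smul_apply, act_apply, Psi_apply, Psi_apply, smul_eq_mul, mul_sum,
    ← sum_right (mem_Stab.2 ⟨hh, fun _ => rfl⟩) fun g =>
      sn h * (sn g * f (w ∘ g) * e ((σ ∘ h) ∘ ⇑g⁻¹))]
  refine sum_congr rfl fun g _ => ?_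
  have : (σ ∘ h) ∘ ⇑(g * h)⁻¹ = σ ∘ ⇑g⁻¹ := by funext x; simp
  rw [this, sn_mul]
  change _ = sn h * (sn g * sn h * act h f (w ∘ g) * _)
  linear_combination (-(sn g * act h f (w ∘ g) * e (σ ∘ ⇑g⁻¹))) * sn_sq h

/-- the staircase module -/
def X1 (m : ℕ) (S : Finset Ω) : Submodule ℝ (VV Ω K) :=
  Submodule.span ℝ {f | ∃ γ, IsGen m S γ f}

omit [Fintype Ω] in
theorem X1_act {m : ℕ} {S : Finset Ω} {f : VV Ω K} (hf : f ∈ X1 m S) {g : Equiv.Perm Ω}
    (hg : ∀ p ∉ S, g p = p) : act g f ∈ X1 m S := by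
  refine (Submodule.span_le (p := (X1 m S).comap (act g))).2 ?_ hf
  rintro f ⟨γ, h⟩
  have := h.act g
  rw [map_fix hg] at this
  exact Submodule.subset_span ⟨_, this⟩

theorem an_sy_ne {S : Finset Ω} {γ δ : Ω → ℕ} {e : VV Ω K} (he : Anti S γ e)
    (h : sy S δ e ≠ 0) : an S γ (sy S δ e) ≠ 0 := by
  intro h0
  have h1 : ∑ σ, e σ * an S γ (sy S δ e) σ
      = (Stab S γ).card * ∑ σ, e σ * sy S δ e σ := by
    simp only [an_apply, mul_sum]
    rw [sum_comm, sum_congr rfl (g := fun _ => ∑ σ, e σ * sy S δ e σ), sum_const, nsmul_eq_mul,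
      mul_sum]
    intro c hc
    simp only [mul_left_comm (e _), ← mul_sum]
    rw [sum_st', mul_sum]
    refine sum_congr rfl fun σ _ => ?_
    have := congrFun (he.act (Stab_inv hc)) σ
    rw [act_apply, sn_inv, Pi.smul_apply, smul_eq_mul] at this
    rw [this]
    linear_combination (e σ * sy S δ e σ) * sn_sq c
  have h2 : ∑ σ, sy S δ e σ * sy S δ e σ = (Stab S δ).card * ∑ σ, e σ * sy S δ e σ := by
    simp only [mul_comm (e _)]
    rw [sum_congr rfl fun σ _ => (by rw [← mul_sum, ← sy_apply] : sy S δ e σ * sy S δ e σ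
      = ∑ r ∈ Stab S δ, sy S δ e σ * e (σ ∘ r)), sum_comm,
      sum_congr rfl (g := fun _ => ∑ σ, sy S δ e σ * e σ), sum_const, nsmul_eq_mul]
    intro r hr
    rw [sum_st']
    refine sum_congr rfl fun σ _ => ?_
    rw [sy_apply, sy_apply, ← sum_left (Stab_inv hr) fun g => e (σ ∘ g)]
    rfl
  simp only [h0, Pi.zero_apply, mul_zero, sum_const_zero] at h1
  rw [(mul_eq_zero.1 h1.symm).resolve_left card_Stab, mul_zero,
    sum_eq_zero_iff_of_nonneg fun _ _ => mul_self_nonneg _] at h2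
  exact h (funext fun σ => mul_self_eq_zero.1 (h2 σ (mem_univ _)))

theorem Psi_surj {m : ℕ} (hK : m ≤ K) {S : Finset Ω} {γ : Ω → ℕ} {e : VV Ω K} {v : St Ω (Fin K)}
    (he : IsGen m S γ e) (hv : e v ≠ 0) :
    ∃ w, ∀ δ f, IsGen m S δ f → ∃ x ∈ X1 m S, Psi S w e x = f := by
  have ht := he.tab hv
  let w : St Ω (Fin K) := fun p =>
    if h : p ∈ S then some ⟨m - γ p, by have := ht.mem h; omega⟩ else none
  let γ' : Ω → ℕ := fun p => m - val (v p)
  have w1 : ∀ p ∈ S, val (w p) = m - γ p := fun p hp => by simp [w, hp, val]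
  have hw : Tab m S γ' w := by
    refine ⟨fun p hp => by simp [w, hp], fun p hp => by simp [w, hp], fun p hp => ?_,
      fun p hp q hq x => ?_, fun x hx => ?_⟩
    · have := ht.mem hp
      refine mem_coe.2 (mem_tri.2 ?_)
      simp only [w1 p hp, γ']; omega
    · have := ht.mem hp
      have := ht.mem hq
      simp only [w1 p hp, w1 q hq, γ', Prod.mk.injEq] at x
      exact ht.bij.2.1 hp hq (Prod.ext (by simp only; omega) (by simp only; omega))
    · have := mem_tri.1 (mem_coe.1 hx)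
      obtain ⟨p, a1, a2⟩ := ht.bij.2.2 (mem_coe.2 ((mem_tri (m := m) (x := (m - x.2, m - x.1))).2
        (by simp only; omega)))
      simp only [Prod.mk.injEq] at a2
      exact ⟨p, a1, Prod.ext (by simp only [γ']; omega) (by simp only [w1 p a1]; omega)⟩
  have h1 : Psi S w e (dlt w) = ((Stab S γ).card : ℝ) • e := by
    funext σ
    rw [Psi_apply, ← sum_subset (s₁ := Stab S γ) fun g hg => Stab_zero hg, sum_congr rfl
      (g := fun _ => e σ), sum_const, nsmul_eq_mul, Pi.smul_apply, smul_eq_mul]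
    · intro c hc
      have a1 := congrFun (he.2.1.act (Stab_inv hc)) σ
      rw [act_apply, sn_inv, Pi.smul_apply, smul_eq_mul] at a1
      have a2 : w ∘ c = w := funext fun p => by
        simp only [w, comp_apply, pres_of_fix (mem_Stab.1 hc).1, (mem_Stab.1 hc).2]
      rw [a1, a2, dlt, if_pos rfl]
      linear_combination (e σ) * sn_sq c
    · intro g a1 a2
      rw [dlt, if_neg, mul_zero, zero_mul]
      intro a3
      refine a2 (mem_Stab.2 ⟨(mem_Stab.1 a1).1, fun p => ?_⟩)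
      by_cases hp : p ∈ S
      · have hq := (pres_of_fix (mem_Stab.1 a1).1 p).2 hp
        have b1 := congrArg val (congrFun a3 p)
        have := ht.mem hp
        have := ht.mem hq
        rw [comp_apply, w1 _ hp, w1 _ hq] at b1
        omega
      · rw [(mem_Stab.1 a1).1 p hp]
  have h2 : ∀ δ f, Psi S w e (an S δ f) = sy S δ (Psi S w e f) := fun δ f => by
    simp only [an, sy, LinearMap.sum_apply, LinearMap.smul_apply, map_sum, map_smul]
    exact sum_congr rfl fun c hc => by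
      rw [Psi_act _ _ _ (mem_Stab.1 hc).1, smul_smul, sn_sq, one_smul]
  have h3 : ∀ δ f, Psi S w e (sy S δ f) = an S δ (Psi S w e f) := fun δ f => by
    simp only [an, sy, LinearMap.sum_apply, LinearMap.smul_apply, map_sum]
    exact sum_congr rfl fun c hc => Psi_act _ _ _ (mem_Stab.1 hc).1
  have h4 : sy S γ (an S γ' (dlt w)) ∈ X1 m S := by
    simp only [sy, LinearMap.sum_apply]
    exact Submodule.sum_mem _ fun r hr =>
      X1_act (Submodule.subset_span ⟨_, hw.gen.1⟩) (mem_Stab.1 hr).1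
  have h5 : IsGen m S γ (an S γ (sy S γ' e)) := by
    refine content he.1 (an_anti _ _ _) fun σ hσ => ?_
    rw [an_apply] at hσ
    obtain ⟨c, hc, a1⟩ := exists_ne_zero_of_sum_ne_zero hσ
    have a2 := right_ne_zero_of_mul a1
    rw [sy_apply] at a2
    obtain ⟨r, hr, a3⟩ := exists_ne_zero_of_sum_ne_zero a2
    exact ⟨c * r, (mem_Stab.1 (Stab_mul (Stab_zero hc) (Stab_zero hr))).1, γ, he.tab a3⟩
  have h6 : an S γ (sy S γ' e) ≠ 0 := by
    refine an_sy_ne he.2.1 fun x => ?_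
    have a1 := congrFun x v
    rw [sy_apply, sum_congr rfl (g := fun _ => e v), sum_const, nsmul_eq_mul] at a1
    · exact mul_ne_zero card_Stab hv a1
    · intro r hr
      obtain ⟨b1, b2⟩ := mem_Stab.1 hr
      congr 1
      funext p
      by_cases hp : p ∈ S
      · have hq := (pres_of_fix b1 p).2 hp
        obtain ⟨s, hs⟩ := ht.ins p hp
        obtain ⟨t, ht'⟩ := ht.ins _ hq
        have c1 := ht.mem hp
        have c2 := ht.mem hq
        have c3 := b2 p
        simp only [γ', hs, ht', val, Option.elim_some] at c1 c2 c3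
        rw [comp_apply, hs, ht', Fin.ext (a := t) (b := s) (by omega)]
      · rw [comp_apply, b1 p hp]
  obtain ⟨u, hu⟩ := Function.ne_iff.1 h6
  refine ⟨w, fun δ f hf => ?_⟩
  obtain ⟨g, a1, t, a2⟩ := gen_prop h5 hu hf
  refine ⟨(t * sn g / (Stab S γ).card) • act g (sy S γ (an S γ' (dlt w))),
    Submodule.smul_mem _ _ (X1_act h4 a1), ?_⟩
  rw [map_smul, Psi_act _ _ _ a1, h3, h2, h1, map_smul, map_smul, map_smul, smul_smul, smul_smul,
    a2]
  congr 1
  have := card_Stab (S := S) (a := γ)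
  field_simp
  linear_combination t * sn_sq g

/-- the adjoint Young symmetrizer -/
def ZY (S : Finset Ω) (a b : Ω → ℕ) : Module.End ℝ (V2 Ω K) :=
  ∑ r ∈ Stab S a, ∑ c ∈ Stab S b, sn c • A2 (r * c)

theorem ZY_adj (S : Finset Ω) (a b : Ω → ℕ) (F G : V2 Ω K) :
    ∑ σ, ∑ τ, G σ τ * ZY S a b F σ τ = ∑ σ, ∑ τ, YY S a b G σ τ * F σ τ := by
  have key : ∀ g : Equiv.Perm Ω, ∑ σ, ∑ τ, G σ τ * F (σ ∘ g) (τ ∘ g)
      = ∑ σ, ∑ τ, G (σ ∘ ⇑g⁻¹) (τ ∘ ⇑g⁻¹) * F σ τ := fun g => by
    rw [sum_st g⁻¹]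
    exact sum_congr rfl fun σ _ => by rw [comp_inv, sum_st']
  have e1 : ∀ H : St Ω (Fin K) → St Ω (Fin K) → Equiv.Perm Ω → Equiv.Perm Ω → ℝ,
      ∀ A B : Finset (Equiv.Perm Ω), ∑ σ, ∑ τ, ∑ x ∈ A, ∑ y ∈ B, H σ τ x y
        = ∑ x ∈ A, ∑ y ∈ B, ∑ σ, ∑ τ, H σ τ x y := fun H A B => by
    simp only [sum_comm (s := univ) (t := A), sum_comm (s := univ) (t := B)]
  simp only [ZY, YY_apply, LinearMap.sum_apply, Finset.sum_apply, LinearMap.smul_apply,
    Pi.smul_apply, smul_eq_mul, A2_apply, mul_sum, sum_mul]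
  rw [e1, e1, sum_comm, ← sum_inv]
  refine sum_congr rfl fun c _ => ?_
  rw [← sum_inv]
  refine sum_congr rfl fun r _ => ?_
  simp only [mul_left_comm (G _ _), mul_assoc, ← mul_sum]
  rw [key, sn_inv, mul_inv_rev, inv_inv, inv_inv]

theorem twist {m : ℕ} (hK : m ≤ K) {S : Finset Ω} {a b : Ω → ℕ} {F : V2 Ω K} (hF : F ∈ XX m S)
    (h : YY S b a F ≠ 0) : ∃ G : V2 Ω K, G ∈ XX m S ∧ YY S a b G ≠ 0 := by
  by_contra h1
  simp only [not_exists, not_and, not_not] at h1
  have h2 : ∀ G : V2 Ω K, G ∈ XX m S → ZY S a b G = 0 := by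
    intro G hG
    have a1 : ZY S a b G ∈ XX m S := by
      simp only [ZY, LinearMap.sum_apply, LinearMap.smul_apply]
      refine Submodule.sum_mem _ fun r hr => Submodule.sum_mem _ fun c hc =>
        Submodule.smul_mem _ _ ?_
      have := XX_act hG (r * c)
      rwa [map_fix (mem_Stab.1 (Stab_mul (Stab_zero hr) (Stab_zero hc))).1] at this
    have a2 := ZY_adj S a b G (ZY S a b G)
    simp only [h1 _ a1, Pi.zero_apply, zero_mul, sum_const_zero] at a2
    rw [sum_eq_zero_iff_of_nonneg fun _ _ => sum_nonneg fun _ _ => mul_self_nonneg _] at a2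
    funext σ τ
    exact mul_self_eq_zero.1
      ((sum_eq_zero_iff_of_nonneg fun _ _ => mul_self_nonneg _).1 (a2 σ (mem_univ _)) τ (mem_univ _))
  obtain ⟨σ, h3⟩ := Function.ne_iff.1 (fun x => h (by rw [x, map_zero]) : F ≠ 0)
  obtain ⟨τ, h3⟩ := Function.ne_iff.1 h3
  obtain ⟨e, _, γ, _, he, _, hv, _⟩ := XX_supp hF h3
  obtain ⟨w, hw⟩ := Psi_surj hK he hv
  have h4 : ∀ G, YY S b a (lft _ (Psi S w e) G) = lft _ (Psi S w e) (ZY S a b G) := by
    intro G
    simp only [YY, ZY, LinearMap.sum_apply, LinearMap.smul_apply, map_sum, map_smul]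
    refine sum_congr rfl fun r hr => sum_congr rfl fun c hc => funext fun σ => ?_
    have := Psi_act w e (G (σ ∘ ⇑(r * c))) (mem_Stab.1 (Stab_mul (Stab_zero hr) (Stab_zero hc))).1
    change sn r • act (r * c) (Psi S w e (G (σ ∘ ⇑(r * c))))
      = sn c • Psi S w e (act (r * c) (G (σ ∘ ⇑(r * c))))
    rw [this, smul_smul, sn_mul, mul_left_comm, sn_sq, mul_one]
  refine h ((Submodule.span_le (p := LinearMap.ker (YY S b a))).2 ?_ hF)
  rintro _ ⟨f, g, δ, δ', a1, a2, rfl⟩
  obtain ⟨x, b1, rfl⟩ := hw _ _ a2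
  have b2 : tens f (Psi S w e x) = lft _ (Psi S w e) (tens f x) :=
    funext fun σ => (map_smul (Psi S w e) (f σ) x).symm
  rw [SetLike.mem_coe, LinearMap.mem_ker, b2, h4, h2, map_zero]
  refine Submodule.span_induction (p := fun x _ => tens f x ∈ XX m S) ?_ ?_ ?_ ?_ b1
  · rintro y ⟨δ', c⟩
    exact Submodule.subset_span ⟨_, _, _, _, a1, c, rfl⟩
  · have : tens f 0 = 0 := by funext σ τ; simp [tens]
    rw [this]; exact Submodule.zero_mem _
  · intro y z _ _ c1 c2
    have : tens f (y + z) = tens f y + tens f z := by funext σ τ; simp [tens, mul_add]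
    rw [this]; exact Submodule.add_mem _ c1 c2
  · intro t y _ c
    have : tens f (t • y) = t • tens f y := by funext σ τ; simp [tens, mul_left_comm]
    rw [this]; exact Submodule.smul_mem _ _ c

theorem main (m : ℕ) (hK : m ≤ K) (S : Finset Ω) (a b : Ω → ℕ) (h : ℕ → ℕ)
    (hS : Shape S a b h) (hh : Antitone h) (hc : 2 * S.card = m * (m + 1)) :
    ∃ G : V2 Ω K, G ∈ XX m S ∧ YY S a b G ≠ 0 := by
  induction m generalizing S h with
  | zero =>
    have : S = ∅ := card_eq_zero.1 (by omega)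
    obtain ⟨F, a1, σ, τ, _, a2⟩ := good_zero (Ω := Ω) (K := K) a b
    rw [this]
    exact ⟨F, a1, fun x => a2 (by rw [x]; rfl)⟩
  | succ n ih =>
    by_cases h0 : h n = 0
    · have ex : ∀ i, ∃ c, h c ≤ i := fun i => ⟨n, by omega⟩
      have key : ∀ i c, c < Nat.find (ex i) ↔ i < h c := fun i c => by
        rw [Nat.lt_find_iff]
        exact ⟨fun x => not_le.1 (x c le_rfl), fun x k hk => not_le.2 (x.trans_le (hh hk))⟩
      obtain ⟨F, a1, σ, τ, _, a2⟩ := good_all (n + 1) hK S b a (fun i => Nat.find (ex i))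
        ⟨fun p hp q hq x y => hS.inj p hp q hq y x, fun p hp => (key _ _).2 (hS.mem p hp),
          fun c i x => (hS.surj i c ((key _ _).1 x)).imp fun p y => ⟨y.1, y.2.2, y.2.1⟩⟩
        (fun i => (Nat.find_min' (ex i) (show h n ≤ i by omega)).trans (by omega)) hc
      exact twist hK a1 fun x => a2 (by rw [x]; rfl)
    · have ex : ∃ c, h c = 0 := by
        refine ⟨S.sup b + 1, by_contra fun x => ?_⟩
        obtain ⟨p, a1, _, a2⟩ := hS.surj 0 _ (Nat.pos_of_ne_zero x)
        have := le_sup (f := b) a1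
        omega
      have key : ∀ c, c < Nat.find ex ↔ h c ≠ 0 := fun c => by
        rw [Nat.lt_find_iff]
        exact ⟨fun x => x c le_rfl, fun x k hk => by have := hh hk; omega⟩
      have hL := (key n).2 h0
      set L := Nat.find ex
      let κ : ℕ → ℕ := fun c => if L - (n + 1) ≤ c then 1 else 0
      have hI : ∀ p ∈ S, b p ∈ range L := fun p hp =>
        mem_range.2 ((key _).2 (by have := hS.mem p hp; omega))
      have a3 := hS.card_sub κ hI fun c hc => by
        have := (key c).1 (mem_range.1 hc)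
        simp only [κ]; split_ifs <;> omega
      have a2 : ∑ c ∈ range L, κ c = n + 1 := by
        rw [← card_filter, show (range L).filter (fun c => L - (n + 1) ≤ c) = Ico (L - (n + 1)) L
          by ext c; simp [and_comm], Nat.card_Ico]
        omega
      have a4 := hS.sub κ
      set T := S.filter fun p => a p < h (b p) - κ (b p) with hT
      have a5 : T ⊆ S := filter_subset _ _
      have a6 := card_sdiff_add_card_eq_card a5
      obtain ⟨F, b1, b2⟩ := ih (by omega) T _ a4 (fun c d hcd => by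
        have := hh hcd
        simp only [κ]; split_ifs <;> omega) (by nlinarith)
      refine step_T hK S a5 (by omega) a b (fun i => -i) (fun c => (h c - κ c : ℕ))
        (fun p hp => by simp only [hT, mem_filter, hp, true_and]; omega) (fun p hp q hq e1 => ?_)
        b1 b2
      simp only [hT, coe_sdiff, Set.mem_diff, mem_coe, mem_filter, not_and, not_lt] at hp hq
      have c1 := hS.mem p hp.1
      have c2 := hS.mem q hq.1
      have c3 := hp.2 hp.1
      have c4 := hq.2 hq.1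
      have c5 : κ (b p) ≤ 1 := by simp only [κ]; split_ifs <;> omega
      rw [← e1] at c2 c4
      exact hS.inj p hp.1 q hq.1 (by omega) e1

theorem main' {m : ℕ} (hK : m ≤ K) {a b : Ω → ℕ} {h : ℕ → ℕ} (hS : Shape univ a b h)
    (hh : Antitone h) (hc : 2 * Fintype.card Ω = m * (m + 1)) {γ : Ω → ℕ} {v : St Ω (Fin K)}
    (hv : Tab m univ γ v) : ∃ g g' : Equiv.Perm Ω, YY univ a b
      (tens (act g (an univ γ (dlt v))) (act g' (an univ γ (dlt v)))) ≠ 0 := by
  obtain ⟨G, a1, a2⟩ := main m hK univ a b h hS hh hc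
  by_contra h1
  simp only [not_exists, not_not] at h1
  refine a2 ((Submodule.span_le (p := LinearMap.ker (YY univ a b))).2 ?_ a1)
  rintro _ ⟨f, f', δ, δ', b1, b2, rfl⟩
  have b3 : an univ γ (dlt v) v ≠ 0 := by rw [hv.gen.2]; exact one_ne_zero
  obtain ⟨g, _, t, rfl⟩ := gen_prop hv.gen.1 b3 b1
  obtain ⟨g', _, t', rfl⟩ := gen_prop hv.gen.1 b3 b2
  have : ∀ x y : VV Ω K, tens (t • x) (t' • y) = (t * t') • tens x y := fun x y => by
    funext σ τ; simp only [tens, Pi.smul_apply, smul_eq_mul]; ring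
  rw [SetLike.mem_coe, LinearMap.mem_ker, this, map_smul, h1, smul_zero]

end Vale.Agent.P197
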