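import Vale.Agent.P197.Sign

namespace Vale.Agent.P197

open Finset Function

variable {Ω : Type} [Fintype Ω] [LinearOrder Ω] {K : ℕ}

/-- functions of two states -/
abbrev V2 (Ω : Type) (K : ℕ) := St Ω (Fin K) → VV Ω K

/-- pure tensors -/
def tens (f g : VV Ω K) : V2 Ω K := fun σ τ => f σ * g τ

/-- the tensor square of the staircase module -/
def XX (m : ℕ) (S : Finset Ω) : Submodule ℝ (V2 Ω K) :=
  Submodule.span ℝ {F | ∃ f g γ γ', IsGen m S γ f ∧ IsGen m S γ' g ∧ F = tens f g}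

/-- diagonal action -/
def A2 : Equiv.Perm Ω →* Module.End ℝ (V2 Ω K) where
  toFun g :=
    { toFun := fun F σ τ => F (σ ∘ g) (τ ∘ g)
      map_add' := fun _ _ => rfl
      map_smul' := fun _ _ => rfl }
  map_one' := rfl
  map_mul' _ _ := rfl

omit [Fintype Ω] [LinearOrder Ω] in
theorem A2_apply (g : Equiv.Perm Ω) (F : V2 Ω K) (σ τ : St Ω (Fin K)) :
    A2 g F σ τ = F (σ ∘ g) (τ ∘ g) := rfl

/-- stabiliser of a labelling, supported on `S` -/
def Stab (S : Finset Ω) (a : Ω → ℕ) : Finset (Equiv.Perm Ω) :=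
  univ.filter fun g => (∀ p ∉ S, g p = p) ∧ ∀ p, a (g p) = a p

theorem mem_Stab {S : Finset Ω} {a : Ω → ℕ} {g : Equiv.Perm Ω} :
    g ∈ Stab S a ↔ (∀ p ∉ S, g p = p) ∧ ∀ p, a (g p) = a p := by
  simp [Stab]

/-- real sign -/
def sn (g : Equiv.Perm Ω) : ℝ := ((Equiv.Perm.sign g : ℤ) : ℝ)

theorem sn_mul (g h : Equiv.Perm Ω) : sn (g * h) = sn g * sn h := by simp [sn]

theorem sn_one : sn (1 : Equiv.Perm Ω) = 1 := by simp [sn]

theorem sn_inv (g : Equiv.Perm Ω) : sn g⁻¹ = sn g := by simp [sn]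

theorem sn_sq (g : Equiv.Perm Ω) : sn g * sn g = 1 := by
  rw [← sn_inv g]; nth_rewrite 2 [sn_inv]; rw [← sn_mul, inv_mul_cancel, sn_one]

/-- Young symmetrizer -/
def YY (S : Finset Ω) (a b : Ω → ℕ) : Module.End ℝ (V2 Ω K) :=
  ∑ c ∈ Stab S b, ∑ r ∈ Stab S a, sn c • A2 (c * r)

theorem YY_apply (S : Finset Ω) (a b : Ω → ℕ) (F : V2 Ω K) (σ τ : St Ω (Fin K)) :
    YY S a b F σ τ = ∑ c ∈ Stab S b, ∑ r ∈ Stab S a, sn c * F (σ ∘ (c * r)) (τ ∘ (c * r)) := by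
  simp only [YY, LinearMap.sum_apply, Finset.sum_apply, LinearMap.smul_apply, Pi.smul_apply,
    smul_eq_mul, A2_apply]

omit [Fintype Ω] [LinearOrder Ω] in
theorem pres_of_fix {S : Finset Ω} {g : Equiv.Perm Ω} (hg : ∀ p ∉ S, g p = p) (p : Ω) :
    g p ∈ S ↔ p ∈ S := by
  constructor
  · intro h
    by_contra h1
    exact h1 (hg p h1 ▸ h)
  · intro h
    by_contra h1
    exact h1 ((g.injective (hg _ h1)).symm ▸ h)

omit [Fintype Ω] in
theorem thr {S T : Finset Ω} (hT : T ⊆ S) (w : Ω → ℤ) (hw : ∀ p ∈ S, p ∈ T ↔ 0 < w p)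
    {g : Equiv.Perm Ω} (hg : ∀ p ∉ S, g p = p) (h : ∑ p ∈ T, w (g p) = ∑ p ∈ T, w p) (p : Ω) :
    g p ∈ T ↔ p ∈ T := by
  set L := T.map g.toEmbedding with hL
  have h1 : ∑ p ∈ L, w p = ∑ p ∈ T, w p := by rw [hL, sum_map]; exact h
  have h2 := sum_inter_add_sum_sdiff L T w
  have h3 := sum_inter_add_sum_sdiff T L w
  have h4 : ∑ p ∈ L \ T, w p ≤ 0 := sum_nonpos fun q hq => by
    obtain ⟨a1, a2⟩ := mem_sdiff.1 hq
    obtain ⟨x, b1, rfl⟩ := mem_map.1 a1
    exact not_lt.1 fun h5 => a2 ((hw _ ((pres_of_fix hg x).2 (hT b1))).2 h5)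
  have h5 : T \ L = ∅ := by
    by_contra h6
    have := sum_pos (s := T \ L) (f := w)
      (fun q hq => (hw q (hT (mem_sdiff.1 hq).1)).1 (mem_sdiff.1 hq).1) (nonempty_iff_ne_empty.2 h6)
    rw [inter_comm] at h3
    omega
  have h6 : T = L := eq_of_subset_of_card_le (sdiff_eq_empty_iff_subset.1 h5) (by simp [hL])
  nth_rewrite 1 [h6]
  simp [hL]

theorem split_sum {S T : Finset Ω} (hT : T ⊆ S) (a : Ω → ℕ) (F : Equiv.Perm Ω → ℝ)
    (h : ∀ g ∈ Stab S a, F g ≠ 0 → ∀ p, g p ∈ T ↔ p ∈ T) :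
    ∑ g ∈ Stab S a, F g = ∑ g1 ∈ Stab (S \ T) a, ∑ g2 ∈ Stab T a, F (g1 * g2) := by
  rw [← sum_product', ← sum_filter_of_ne (p := fun g => ∀ p, g p ∈ T ↔ p ∈ T) h]
  symm
  refine sum_bij (fun x _ => x.1 * x.2) ?_ ?_ ?_ fun _ _ => rfl
  · rintro ⟨g1, g2⟩ hx
    simp only [mem_product, mem_Stab] at hx
    obtain ⟨⟨a1, a2⟩, a3, a4⟩ := hx
    simp only [mem_filter, mem_Stab, Equiv.Perm.mul_apply]
    refine ⟨⟨fun p hp => ?_, fun p => by rw [a2, a4]⟩, fun p => ?_⟩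
    · rw [a3 p fun e => hp (hT e), a1 p (by simp [hp])]
    · rw [← pres_of_fix a3 p]
      by_cases e : g2 p ∈ T
      · rw [a1 _ (by simp [e])]
      · by_cases e' : g2 p ∈ S
        · have := (pres_of_fix a1 (g2 p)).2 (mem_sdiff.2 ⟨e', e⟩)
          simp [e, (mem_sdiff.1 this).2]
        · rw [a1 _ (by simp [e'])]
  · rintro ⟨g1, g2⟩ hx ⟨g3, g4⟩ hy e
    simp only [mem_product, mem_Stab] at hx hy
    have e1 : g2 = g4 := by
      ext p
      by_cases hp : p ∈ T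
      · have := congrArg (fun g : Equiv.Perm Ω => g p) e
        simp only [Equiv.Perm.mul_apply] at this
        rwa [hx.1.1 _ (by simp [(pres_of_fix hx.2.1 p).2 hp]),
          hy.1.1 _ (by simp [(pres_of_fix hy.2.1 p).2 hp])] at this
      · rw [hx.2.1 p hp, hy.2.1 p hp]
    simp only [e1, mul_left_inj] at e
    rw [e, e1]
  · intro g hg
    obtain ⟨a1, a2⟩ := mem_filter.1 hg
    obtain ⟨a3, a4⟩ := mem_Stab.1 a1
    let g2 := Equiv.Perm.ofSubtype (g.subtypePerm (p := fun x => x ∈ T) a2)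
    have b1 : ∀ p ∈ T, g2 p = g p := fun p hp => Equiv.Perm.ofSubtype_apply_of_mem _ hp
    have b2 : ∀ p ∉ T, g2 p = p := fun p hp => Equiv.Perm.ofSubtype_apply_of_not_mem _ hp
    have b3 : ∀ p, a (g2 p) = a p := fun p => by
      by_cases hp : p ∈ T
      · rw [b1 p hp, a4]
      · rw [b2 p hp]
    refine ⟨(g * g2⁻¹, g2), ?_, by simp⟩
    simp only [mem_product, mem_Stab]
    refine ⟨⟨fun p hp => ?_, fun p => ?_⟩, b2, b3⟩
    · obtain ⟨q, rfl⟩ := g2.surjective p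
      simp only [Equiv.Perm.mul_apply, Equiv.Perm.coe_inv, Equiv.symm_apply_apply]
      by_cases hq : q ∈ T
      · rw [b1 q hq]
      · rw [b2 q hq] at hp ⊢
        exact a3 q fun e => hp (mem_sdiff.2 ⟨e, hq⟩)
    · obtain ⟨q, rfl⟩ := g2.surjective p
      simp only [Equiv.Perm.mul_apply, Equiv.Perm.coe_inv, Equiv.symm_apply_apply]
      rw [a4, b3]

theorem stab_comm {S T : Finset Ω} {a b : Ω → ℕ} {g h : Equiv.Perm Ω} (hg : g ∈ Stab T a)
    (hh : h ∈ Stab (S \ T) b) : g * h = h * g := by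
  refine Equiv.Perm.Disjoint.commute fun p => ?_
  by_cases hp : p ∈ T
  · exact Or.inr ((mem_Stab.1 hh).1 p (by simp [hp]))
  · exact Or.inl ((mem_Stab.1 hg).1 p hp)

theorem factor {S T : Finset Ω} (hT : T ⊆ S) (a b : Ω → ℕ) (φ ψ : ℕ → ℤ)
    (hw : ∀ p ∈ S, p ∈ T ↔ 0 < φ (a p) + ψ (b p)) (G : Equiv.Perm Ω → ℝ)
    (hG : ∀ g, (∀ p ∉ S, g p = p) → G g ≠ 0 → ∀ p, g p ∈ T ↔ p ∈ T) :
    ∑ c ∈ Stab S b, ∑ r ∈ Stab S a, sn c * G (c * r)
      = ∑ c1 ∈ Stab (S \ T) b, ∑ r1 ∈ Stab (S \ T) a, sn c1 *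
        ∑ c2 ∈ Stab T b, ∑ r2 ∈ Stab T a, sn c2 * G (c1 * r1 * (c2 * r2)) := by
  have key : ∀ c ∈ Stab S b, ∀ r ∈ Stab S a, G (c * r) ≠ 0 →
      (∀ p, r p ∈ T ↔ p ∈ T) ∧ ∀ p, c p ∈ T ↔ p ∈ T := by
    intro c hc r hr h
    obtain ⟨c1, c2⟩ := mem_Stab.1 hc
    obtain ⟨r1, r2⟩ := mem_Stab.1 hr
    have h1 := hG (c * r) (fun p hp => by rw [Equiv.Perm.mul_apply, r1 p hp, c1 p hp]) h
    have h2 : ∀ p, r p ∈ T ↔ p ∈ T := by
      refine thr hT _ hw r1 ?_
      simp only [sum_add_distrib, r2, add_right_inj]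
      refine sum_equiv (c * r) (fun p => (h1 p).symm) fun p _ => ?_
      rw [Equiv.Perm.mul_apply, c2]
    refine ⟨h2, fun p => ?_⟩
    obtain ⟨q, rfl⟩ := r.surjective p
    rw [h2, ← h1 q, Equiv.Perm.mul_apply]
  rw [split_sum hT b]
  · refine sum_congr rfl fun c1 hc1 => ?_
    simp only [mul_sum]
    rw [sum_comm (s := Stab (S \ T) a)]
    refine sum_congr rfl fun c2 hc2 => ?_
    have hc : c1 * c2 ∈ Stab S b := by
      obtain ⟨a1, a2⟩ := mem_Stab.1 hc1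
      obtain ⟨a3, a4⟩ := mem_Stab.1 hc2
      refine mem_Stab.2 ⟨fun p hp => ?_, fun p => by rw [Equiv.Perm.mul_apply, a2, a4]⟩
      rw [Equiv.Perm.mul_apply, a3 p fun e => hp (hT e), a1 p (by simp [hp])]
    rw [split_sum hT a]
    · refine sum_congr rfl fun r1 hr1 => sum_congr rfl fun r2 _ => ?_
      rw [sn_mul, mul_assoc, mul_assoc c1, ← mul_assoc c2, stab_comm hc2 hr1]
      simp only [mul_assoc]
    · intro r hr h
      exact (key _ hc r hr (right_ne_zero_of_mul h)).1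
  · intro c hc h
    obtain ⟨r, hr, h1⟩ := exists_ne_zero_of_sum_ne_zero h
    exact (key c hc r hr (right_ne_zero_of_mul h1)).2

omit [Fintype Ω] in
theorem IsGen.act {m : ℕ} {T : Finset Ω} {γ : Ω → ℕ} {f : VV Ω K} (h : IsGen m T γ f)
    (g : Equiv.Perm Ω) : IsGen m (T.map g.toEmbedding) (γ ∘ g.symm) (act g f) := by
  refine ⟨⟨fun p hp => h.1.mem _ (by simpa using hp), fun c h1 h2 => ?_⟩,
    fun p hp q hq h1 h2 => ?_, fun σ hσ => ⟨fun p hp => ?_, fun p hp => ?_⟩⟩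
  · rw [filter_map, card_map]
    simpa using h.1.card c h1 h2
  · have := h.2.1 (g.symm p) (by simpa using hp) (g.symm q) (by simpa using hq)
      (fun e => h1 (g.symm.injective e)) h2
    funext σ
    have h3 := congrFun this (σ ∘ g)
    simp only [act_apply, Pi.neg_apply] at h3 ⊢
    rw [← h3]
    congr 1
    funext x
    simp only [comp_apply]
    rw [← Equiv.apply_symm_apply g p, ← Equiv.apply_symm_apply g q, g.injective.swap_apply]
    simp
  · simpa using (h.2.2 _ hσ).1 (g.symm p) (by simpa using hp)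
  · simpa using (h.2.2 _ hσ).2 (g.symm p) (by simpa using hp)

omit [Fintype Ω] in
theorem XX_supp {m : ℕ} {S : Finset Ω} {F : V2 Ω K} (hF : F ∈ XX m S) {σ τ : St Ω (Fin K)}
    (h : F σ τ ≠ 0) : ∃ f g γ γ', IsGen m S γ f ∧ IsGen m S γ' g ∧ f σ ≠ 0 ∧ g τ ≠ 0 := by
  refine Submodule.span_induction (p := fun F _ => F σ τ ≠ 0 → ∃ f g γ γ',
    IsGen m S γ f ∧ IsGen m S γ' g ∧ f σ ≠ 0 ∧ g τ ≠ 0) ?_ ?_ ?_ ?_ hF h
  · rintro _ ⟨f, g, γ, γ', a1, a2, rfl⟩ h
    exact ⟨f, g, γ, γ', a1, a2, left_ne_zero_of_mul h, right_ne_zero_of_mul h⟩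
  · exact fun h => absurd rfl h
  · intro f g _ _ hf hg h
    by_cases h1 : f σ τ = 0
    · exact hg (by simpa [h1] using h)
    · exact hf h1
  · intro c f _ hf h
    exact hf (right_ne_zero_of_mul h)

omit [Fintype Ω] in
theorem map_fix {S : Finset Ω} {g : Equiv.Perm Ω} (hg : ∀ p ∉ S, g p = p) :
    S.map g.toEmbedding = S := by
  ext p
  rw [mem_map_equiv, ← pres_of_fix hg, Equiv.apply_symm_apply]

omit [Fintype Ω] in
theorem XX_act {m : ℕ} {S : Finset Ω} {F : V2 Ω K} (hF : F ∈ XX m S) (g : Equiv.Perm Ω) :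
    A2 g F ∈ XX m (S.map g.toEmbedding) := by
  refine (Submodule.span_le (p := (XX m (S.map g.toEmbedding)).comap (A2 g))).2 ?_ hF
  rintro _ ⟨f, f', γ, γ', a1, a2, rfl⟩
  exact Submodule.subset_span ⟨_, _, _, _, a1.act g, a2.act g, rfl⟩

/-- exchange of the two factors -/
def flp : Module.End ℝ (V2 Ω K) where
  toFun F σ τ := F τ σ
  map_add' _ _ := rfl
  map_smul' _ _ := rfl

section
variable {n : ℕ} (hK : n + 1 ≤ K) (S : Finset Ω)

/-- adding a column in the first factor -/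
def O1 : Module.End ℝ (V2 Ω K) := flp * lft _ (om hK S ℝ (fullL n)) * flp

/-- adding a column in both factors -/
def OO : Module.End ℝ (V2 Ω K) := lft _ (om hK S ℝ (fullL n)) * O1 hK S

theorem O1_tens (f g : VV Ω K) : O1 hK S (tens f g) = tens (om hK S ℝ (fullL n) f) g := by
  funext σ τ
  have : (fun σ => f σ * g τ) = g τ • f := by funext x; simp [mul_comm]
  change om hK S ℝ (fullL n) (fun σ => f σ * g τ) σ = _
  rw [this, map_smul]
  simp [tens, mul_comm]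

theorem OO_tens (f g : VV Ω K) :
    OO hK S (tens f g) = tens (om hK S ℝ (fullL n) f) (om hK S ℝ (fullL n) g) := by
  rw [OO, Module.End.mul_apply, O1_tens]
  funext σ τ
  have : tens (om hK S ℝ (fullL n) f) g σ = om hK S ℝ (fullL n) f σ • g := rfl
  rw [lft_apply, this, map_smul]
  rfl

theorem OO_inj (w : V2 Ω K) (hw : w ∈ ⨆ (B : Finset Ω) (_ : B ⊆ S ∧ B.card = n + 1), XX n (S \ B))
    (h : OO hK S w = 0) : w = 0 := by
  have ind : ∀ U : Submodule ℝ (V2 Ω K), (∀ B ⊆ S, B.card = n + 1 → ∀ f g γ γ',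
      IsGen n (S \ B) γ f → IsGen n (S \ B) γ' g → tens f g ∈ U) → w ∈ U := by
    intro U hU
    refine (iSup₂_le fun B hB => Submodule.span_le.2 ?_ : _ ≤ U) hw
    rintro _ ⟨f, g, γ, γ', a1, a2, rfl⟩
    exact hU B hB.1 hB.2 f g γ γ' a1 a2
  have h1 : O1 hK S w = 0 := by
    funext σ
    let β : Ω → Fin (n + 1) := fun p => if h : val (σ p) < n + 1 then ⟨_, h⟩ else 0
    refine indep hK S β _ ?_ (congrFun h σ)
    refine Submodule.mem_comap.1 (ind (Submodule.comap ((LinearMap.proj σ).comp (O1 hK S))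
      (Submodule.span ℝ {f : VV Ω K | ∃ B ⊆ S, B.card = n + 1 ∧ Set.InjOn β B ∧
      ∃ γ, IsGen n (S \ B) γ f})) ?_)
    intro B b1 b2 f g γ γ' a1 a2
    rw [Submodule.mem_comap, LinearMap.comp_apply, LinearMap.proj_apply, O1_tens]
    by_cases h2 : om hK S ℝ (fullL n) f σ = 0
    · have : tens (om hK S ℝ (fullL n) f) g σ = 0 := by funext τ; simp [tens, h2]
      rw [this]; exact Submodule.zero_mem _
    · refine Submodule.smul_mem _ (om hK S ℝ (fullL n) f σ)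
        (Submodule.subset_span ⟨B, b1, b2, fun p hp q hq e => ?_, γ', a2⟩)
      have a3 := om_gen hK S b1 b2 a1
      obtain ⟨s, c1, c2⟩ := (a3.2.2 σ h2).2 p (b1 hp)
      obtain ⟨t, c3, c4⟩ := (a3.2.2 σ h2).2 q (b1 hq)
      have hp' : p ∈ B := hp
      have hq' : q ∈ B := hq
      simp only [hp', hq', if_true] at c2 c4
      refine a3.2.1.ne h2 (b1 hp) (b1 hq) (by simp [hp', hq']) ?_
      simp only [β, c1, c3, val, Option.elim_some, c2, c4, dif_pos, Fin.mk.injEq] at e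
      rw [c1, c3, Fin.ext e]
  funext σ τ
  let B0 := S.filter fun p => τ p = none
  let β : Ω → Fin (n + 1) := fun p =>
    if h : B0.card = n + 1 ∧ p ∈ B0 then B0.equivFinOfCardEq h.1 ⟨p, h.2⟩ else 0
  refine congrFun (indep hK S β (fun σ => w σ τ) ?_ (funext fun σ => congrFun (congrFun h1 σ) τ)) σ
  refine Submodule.mem_comap.1 (ind (Submodule.comap ((LinearMap.proj τ).comp flp)
      (Submodule.span ℝ {f : VV Ω K | ∃ B ⊆ S, B.card = n + 1 ∧ Set.InjOn β B ∧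
      ∃ γ, IsGen n (S \ B) γ f})) ?_)
  intro B b1 b2 f g γ γ' a1 a2
  have : flp (tens f g) τ = g τ • f := funext fun x => mul_comm _ _
  rw [Submodule.mem_comap, LinearMap.comp_apply, LinearMap.proj_apply, this]
  by_cases h2 : g τ = 0
  · rw [h2, zero_smul]; exact Submodule.zero_mem _
  · refine Submodule.smul_mem _ _ (Submodule.subset_span ⟨B, b1, b2, fun p hp q hq e => ?_, γ, a1⟩)
    have hB : B0 = B := by
      ext x
      simp only [B0, mem_filter, a2.2.2.none_iff h2, mem_sdiff, not_and, not_not]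
      exact ⟨fun a => a.2 a.1, fun a => ⟨b1 a, fun _ => a⟩⟩
    have hp' : p ∈ B0 := hB ▸ hp
    have hq' : q ∈ B0 := hB ▸ hq
    have hc : B0.card = n + 1 := hB ▸ b2
    simpa [β, hp', hq', hc] using e

include hK in
theorem step_T {T : Finset Ω} (hT : T ⊆ S) (hc : (S \ T).card = n + 1) (a b : Ω → ℕ)
    (φ ψ : ℕ → ℤ) (hw : ∀ p ∈ S, p ∈ T ↔ 0 < φ (a p) + ψ (b p)) (hb : Set.InjOn b ↑(S \ T))
    {F : V2 Ω K} (hF : F ∈ XX n T) (h : YY T a b F ≠ 0) :
    ∃ G : V2 Ω K, G ∈ XX (n + 1) S ∧ YY S a b G ≠ 0 := by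
  have hTS : S \ (S \ T) = T := Finset.sdiff_sdiff_eq_self hT
  have h1 : OO hK S F ∈ XX (n + 1) S := by
    refine (Submodule.span_le (p := (XX (n + 1) S).comap (OO hK S))).2 ?_ hF
    rintro _ ⟨f, f', γ, γ', a1, a2, rfl⟩
    rw [SetLike.mem_coe, Submodule.mem_comap, OO_tens]
    exact Submodule.subset_span ⟨_, _, _, _, om_gen hK S sdiff_subset hc (hTS.symm ▸ a1),
      om_gen hK S sdiff_subset hc (hTS.symm ▸ a2), rfl⟩
  have h2 : ∀ g : Equiv.Perm Ω, (∀ p ∉ S, g p = p) → A2 g (OO hK S F) = OO hK S (A2 g F) := by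
    intro g hg
    refine (Submodule.span_le (p := LinearMap.eqLocus (A2 g * OO hK S) (OO hK S * A2 g))).2 ?_ hF
    rintro _ ⟨f, f', γ, γ', a1, a2, rfl⟩
    change A2 g (OO hK S _) = OO hK S (tens (act g f) (act g f'))
    rw [OO_tens, OO_tens]
    change tens (act g (om hK S ℝ (fullL n) f)) (act g (om hK S ℝ (fullL n) f')) = _
    rw [act_om hK S sdiff_subset hc (hTS.symm ▸ a1.2.2) g hg,
      act_om hK S sdiff_subset hc (hTS.symm ▸ a2.2.2) g hg]
    funext σ τ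
    simp only [tens, Pi.smul_apply, smul_eq_mul]
    have := chi_sq g (st0 hK (S \ (S \ T)) ∘ g.symm)
    linear_combination (om hK S ℝ (fullL n) (act g f) σ * om hK S ℝ (fullL n) (act g f') τ) * this
  have hfix : ∀ c ∈ Stab S b, ∀ r ∈ Stab S a, ∀ p ∉ S, (c * r) p = p := fun c hc r hr p hp => by
    rw [Equiv.Perm.mul_apply, (mem_Stab.1 hr).1 p hp, (mem_Stab.1 hc).1 p hp]
  refine ⟨_, h1, fun h3 => ?_⟩
  have h4 : YY S a b (OO hK S F) = OO hK S (YY S a b F) := by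
    simp only [YY, LinearMap.sum_apply, LinearMap.smul_apply, map_sum, map_smul]
    exact sum_congr rfl fun c hc => sum_congr rfl fun r hr => by rw [h2 _ (hfix c hc r hr)]
  have h5 : YY S a b F = 0 := by
    refine OO_inj hK S _ ?_ (h4 ▸ h3)
    simp only [YY, LinearMap.sum_apply, LinearMap.smul_apply]
    refine Submodule.sum_mem _ fun c hc' => Submodule.sum_mem _ fun r hr => Submodule.smul_mem _ _ ?_
    have h6 := XX_act hF (c * r)
    have h7 := map_fix (hfix c hc' r hr)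
    refine Submodule.mem_iSup_of_mem ((S \ T).map (c * r).toEmbedding)
      (Submodule.mem_iSup_of_mem ⟨?_, by simpa using hc⟩ ?_)
    · rw [← h7]; nth_rewrite 1 [h7]; exact map_subset_map.2 sdiff_subset
    · nth_rewrite 1 [← h7]
      rwa [← Finset.map_sdiff, hTS]
  apply h
  funext σ τ
  by_contra h6
  have h7 := h6
  rw [YY_apply] at h7
  obtain ⟨c, hc', h7⟩ := exists_ne_zero_of_sum_ne_zero h7
  obtain ⟨r, hr, h7⟩ := exists_ne_zero_of_sum_ne_zero h7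
  obtain ⟨f, g, γ, γ', a1, a2, a3, a4⟩ := XX_supp hF (right_ne_zero_of_mul h7)
  have hcr : ∀ p ∉ T, (c * r) p = p := fun p hp => by
    rw [Equiv.Perm.mul_apply, (mem_Stab.1 hr).1 p hp, (mem_Stab.1 hc').1 p hp]
  have n1 : ∀ p, σ p = none ↔ p ∉ T := fun p => by
    obtain ⟨q, rfl⟩ := (c * r).surjective p
    rw [pres_of_fix hcr]; exact a1.2.2.none_iff a3 q
  have n2 : ∀ p, τ p = none ↔ p ∉ T := fun p => by
    obtain ⟨q, rfl⟩ := (c * r).surjective p
    rw [pres_of_fix hcr]; exact a2.2.2.none_iff a4 q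
  have h8 := congrFun (congrFun h5 σ) τ
  rw [YY_apply, factor hT a b φ ψ hw (fun g => F (σ ∘ g) (τ ∘ g))] at h8
  · have h9 : Stab (S \ T) b = {1} := by
      ext g
      simp only [mem_Stab, mem_singleton]
      refine ⟨fun x => Equiv.ext fun p => ?_, fun x => by simp [x]⟩
      by_cases hp : p ∈ S \ T
      · exact hb ((pres_of_fix x.1 p).2 hp) hp (x.2 p)
      · exact x.1 p hp
    have h10 : ∀ ρ : St Ω (Fin K), (∀ p, ρ p = none ↔ p ∉ T) → ∀ r1 ∈ Stab (S \ T) a,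
        ∀ g : Equiv.Perm Ω, ρ ∘ ⇑(r1 * g) = ρ ∘ g := by
      intro ρ hρ r1 hr1 g
      funext p
      simp only [comp_apply, Equiv.Perm.mul_apply]
      by_cases hp : g p ∈ S \ T
      · rw [(hρ _).2 (mem_sdiff.1 hp).2,
          (hρ _).2 (mem_sdiff.1 ((pres_of_fix (mem_Stab.1 hr1).1 _).2 hp)).2]
      · rw [(mem_Stab.1 hr1).1 _ hp]
    rw [h9, sum_singleton, sum_congr rfl (g := fun _ => YY T a b F σ τ) fun r1 hr1 => by
      simp only [h10 σ n1 r1 hr1, h10 τ n2 r1 hr1, sn_one, one_mul, YY_apply], sum_const,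
      nsmul_eq_mul] at h8
    rcases mul_eq_zero.1 h8 with h11 | h11
    · have : (1 : Equiv.Perm Ω) ∈ Stab (S \ T) a := by simp [mem_Stab]
      exact (card_ne_zero_of_mem this) (by exact_mod_cast h11)
    · exact h6 h11
  · intro g _ hg p
    obtain ⟨f, _, γ, _, b1, _, b3, _⟩ := XX_supp hF hg
    have := b1.2.2.none_iff b3 p
    rw [comp_apply, n1] at this
    exact not_iff_not.1 this

end

end Vale.Agent.P197
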